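import Mathlib

/-!
# A splitting lemma on the unit interval

For every `δ > 0` the Lebesgue measure on `(0,1)` is `2/3` of the image under a map `e₁` plus
`1/3` of the image under a map `e₂`, with `e₁`, `e₂` injective, with disjoint ranges and moving
points by less than `δ`.
-/

namespace Crest.Agent.Lib.MMOT

open MeasureTheory Set
open scoped ENNReal

/-- Lebesgue measure on `(0,1)`. -/
noncomputable abbrev unitL : Measure ℝ := volume.restrict (Ioo (0:ℝ) 1)

lemma unitL_eq : unitL = volume.restrict (Ico (0:ℝ) 1) :=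
  Measure.restrict_congr_set Ioo_ae_eq_Ico

/-- The cell map with slope parameter `α, β`. -/
noncomputable def cellMap (N : ℕ) (α β : ℝ) (w : ℝ) : ℝ :=
  ((⌊(N:ℝ) * w⌋ : ℝ) + α + (β - α) * Int.fract ((N:ℝ) * w)) / N

lemma measurable_cellMap (N : ℕ) (α β : ℝ) : Measurable (cellMap N α β) := by
  unfold cellMap
  have h1 : Measurable (fun w : ℝ => (N:ℝ) * w) := measurable_const.mul measurable_id
  have h2 : Measurable (fun w : ℝ => ((⌊(N:ℝ) * w⌋ : ℤ) : ℝ)) :=
    (measurable_from_top (f := fun z : ℤ => (z:ℝ))).comp (Int.measurable_floor.comp h1)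
  have h3 : Measurable (fun w : ℝ => Int.fract ((N:ℝ) * w)) := measurable_fract.comp h1
  exact ((h2.add_const α).add (h3.const_mul _)).div_const _

lemma cellMap_floor {N : ℕ} (hN : 0 < N) {α β : ℝ} (h0 : 0 ≤ α) (hαβ : α < β) (h1 : β ≤ 1) (w : ℝ) :
    ⌊(N:ℝ) * cellMap N α β w⌋ = ⌊(N:ℝ) * w⌋ := by
  have hN' : (N:ℝ) ≠ 0 := by positivity
  unfold cellMap
  rw [mul_div_cancel₀ _ hN']
  rw [Int.floor_eq_iff]
  have hf0 := Int.fract_nonneg ((N:ℝ) * w)
  have hf1 := Int.fract_lt_one ((N:ℝ) * w)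
  constructor
  · nlinarith
  · nlinarith

lemma cellMap_fract {N : ℕ} (hN : 0 < N) {α β : ℝ} (h0 : 0 ≤ α) (hαβ : α < β) (h1 : β ≤ 1) (w : ℝ) :
    Int.fract ((N:ℝ) * cellMap N α β w) = α + (β - α) * Int.fract ((N:ℝ) * w) := by
  have hN' : (N:ℝ) ≠ 0 := by positivity
  rw [Int.fract, cellMap_floor hN h0 hαβ h1]
  unfold cellMap
  rw [mul_div_cancel₀ _ hN']
  ring

lemma cellMap_sub {N : ℕ} (hN : 0 < N) {α β : ℝ} (h0 : 0 ≤ α) (hαβ : α < β) (h1 : β ≤ 1) (w : ℝ) :
    |cellMap N α β w - w| < 2 / N := by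
  have hN' : (0:ℝ) < N := by positivity
  have hw : (N:ℝ) * w = (⌊(N:ℝ) * w⌋ : ℝ) + Int.fract ((N:ℝ) * w) := (Int.floor_add_fract _).symm
  have key : cellMap N α β w - w
      = (α + (β - α) * Int.fract ((N:ℝ) * w) - Int.fract ((N:ℝ) * w)) / N := by
    unfold cellMap
    field_simp
    linarith
  rw [key, abs_div, abs_of_pos hN']
  apply div_lt_div_of_pos_right _ hN'
  have hf0 := Int.fract_nonneg ((N:ℝ) * w)
  have hf1 := Int.fract_lt_one ((N:ℝ) * w)
  rw [abs_lt]
  constructor <;> nlinarith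

lemma cellMap_injective {N : ℕ} (hN : 0 < N) {α β : ℝ} (h0 : 0 ≤ α) (hαβ : α < β) (h1 : β ≤ 1) :
    Function.Injective (cellMap N α β) := by
  intro w w' h
  have hN' : (N:ℝ) ≠ 0 := by positivity
  have e1 := cellMap_floor hN h0 hαβ h1 w
  have e2 := cellMap_fract hN h0 hαβ h1 w
  rw [h, cellMap_floor hN h0 hαβ h1 w'] at e1
  rw [h, cellMap_fract hN h0 hαβ h1 w'] at e2
  have hne : β - α ≠ 0 := by linarith [sub_pos.2 hαβ]
  have e3 : Int.fract ((N:ℝ) * w') = Int.fract ((N:ℝ) * w) := by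
    have : (β - α) * Int.fract ((N:ℝ) * w') = (β - α) * Int.fract ((N:ℝ) * w) := by linarith
    exact mul_left_cancel₀ hne this
  have hw : (N:ℝ) * w = (⌊(N:ℝ) * w⌋ : ℝ) + Int.fract ((N:ℝ) * w) := (Int.floor_add_fract _).symm
  have hw' : (N:ℝ) * w' = (⌊(N:ℝ) * w'⌋ : ℝ) + Int.fract ((N:ℝ) * w') := (Int.floor_add_fract _).symm
  rw [e3, e1] at hw'
  have : (N:ℝ) * w' = (N:ℝ) * w := hw'.trans hw.symm
  exact (mul_left_cancel₀ hN' this).symm

/-- The range of the cell map lies in `(0,1)` when the point does. -/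
lemma cellMap_mem {N : ℕ} (hN : 0 < N) {α β : ℝ} (h0 : 0 ≤ α) (hαβ : α < β) (h1 : β ≤ 1) {w : ℝ}
    (hw : w ∈ Ioo (0:ℝ) 1) : cellMap N α β w ∈ Ioo (0:ℝ) 1 := by
  have hN' : (0:ℝ) < N := by positivity
  have hf0 := Int.fract_nonneg ((N:ℝ) * w)
  have hf1 := Int.fract_lt_one ((N:ℝ) * w)
  have hNw : (N:ℝ) * w = (⌊(N:ℝ) * w⌋ : ℝ) + Int.fract ((N:ℝ) * w) := (Int.floor_add_fract _).symm
  have hpos : 0 < (N:ℝ) * w := mul_pos hN' hw.1
  have hlt : (N:ℝ) * w < N := by nlinarith [hw.2]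
  have hfl0 : (0:ℤ) ≤ ⌊(N:ℝ) * w⌋ := Int.floor_nonneg.2 hpos.le
  have hfl1 : ⌊(N:ℝ) * w⌋ + 1 ≤ (N:ℤ) := by
    have : ⌊(N:ℝ) * w⌋ < (N:ℤ) := Int.floor_lt.2 (by simpa using hlt)
    omega
  have hfl1' : (⌊(N:ℝ) * w⌋ : ℝ) + 1 ≤ N := by exact_mod_cast hfl1
  have hfl0' : (0:ℝ) ≤ (⌊(N:ℝ) * w⌋ : ℝ) := by exact_mod_cast hfl0
  unfold cellMap
  constructor
  · apply div_pos _ hN'
    by_cases hαpos : 0 < α
    · nlinarith [mul_nonneg (sub_pos.2 hαβ).le hf0]
    · have : α = 0 := le_antisymm (not_lt.1 hαpos) h0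
      subst this
      by_cases hff : 0 < Int.fract ((N:ℝ) * w)
      · nlinarith [mul_pos (sub_pos.2 hαβ) hff]
      · have e0 : Int.fract ((N:ℝ) * w) = 0 := le_antisymm (not_lt.1 hff) hf0
        have e1 : (⌊(N:ℝ) * w⌋ : ℝ) = (N:ℝ) * w := by linarith
        rw [e0, e1]
        simpa using hpos
  · rw [div_lt_one hN']
    nlinarith [mul_nonneg (sub_pos.2 hαβ).le (sub_pos.2 hf1).le]

/-- Change of variables for an affine map, for `lintegral`. -/
lemma lintegral_Ico_affine (d c : ℝ) (hc : 0 < c) (g : ℝ → ℝ≥0∞) :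
    ∫⁻ x in Ico d (d + c), g x = ENNReal.ofReal c * ∫⁻ u in Ico (0:ℝ) 1, g (d + c * u) := by
  have himg : (fun u : ℝ => d + c * u) '' Ico (0:ℝ) 1 = Ico d (d + c) := by
    ext x
    constructor
    · rintro ⟨u, hu, rfl⟩
      constructor
      · nlinarith [hu.1]
      · nlinarith [hu.2]
    · rintro hx
      refine ⟨(x - d) / c, ⟨?_, ?_⟩, ?_⟩
      · exact div_nonneg (by linarith [hx.1]) hc.le
      · rw [div_lt_one hc]; linarith [hx.2]
      · field_simp; ring
  have hinj : InjOn (fun u : ℝ => d + c * u) (Ico (0:ℝ) 1) := by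
    intro a _ b _ h
    have : c * a = c * b := by simpa using h
    exact mul_left_cancel₀ hc.ne' this
  have hd : ∀ x ∈ Ico (0:ℝ) 1, HasDerivWithinAt (fun u : ℝ => d + c * u) c (Ico (0:ℝ) 1) x := by
    intro x _
    have : HasDerivAt (fun u : ℝ => d + c * u) c x := by
      simpa using ((hasDerivAt_id x).const_mul c).const_add d
    exact this.hasDerivWithinAt
  have := lintegral_image_eq_lintegral_abs_deriv_mul measurableSet_Ico hd hinj g
  rw [himg] at this
  rw [this, abs_of_pos hc, lintegral_const_mul' _ _ ENNReal.ofReal_ne_top]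

/-- Decomposition into `N` cells. -/
lemma lintegral_cells {N : ℕ} (hN : 0 < N) (g : ℝ → ℝ≥0∞) :
    ∫⁻ x in Ico (0:ℝ) 1, g x
      = ∑ j ∈ Finset.range N, ∫⁻ x in Ico ((j:ℝ) / N) ((j:ℝ) / N + 1 / N), g x := by
  have hN' : (0:ℝ) < N := by positivity
  have hU : Ico (0:ℝ) 1 = ⋃ j ∈ Finset.range N, Ico ((j:ℝ) / N) ((j:ℝ) / N + 1 / N) := by
    ext x
    simp only [mem_iUnion, Finset.mem_range, mem_Ico, exists_prop]
    constructor
    · rintro ⟨h0, h1⟩
      have hpos : 0 ≤ (N:ℝ) * x := by positivity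
      refine ⟨⌊(N:ℝ) * x⌋₊, ?_, ?_, ?_⟩
      · rw [Nat.floor_lt hpos]; nlinarith
      · rw [div_le_iff₀ hN']; have := Nat.floor_le hpos; linarith
      · have := Nat.lt_floor_add_one ((N:ℝ) * x)
        rw [← add_div, lt_div_iff₀ hN']; linarith
    · rintro ⟨j, hj, h0, h1⟩
      have hj' : (j:ℝ) + 1 ≤ N := by exact_mod_cast hj
      constructor
      · exact le_trans (by positivity) h0
      · refine lt_of_lt_of_le h1 ?_
        rw [← add_div, div_le_one hN']; exact hj'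
  rw [hU]
  rw [lintegral_biUnion_finset]
  · intro i _ j _ hij
    simp only [Function.onFun, Set.disjoint_left, mem_Ico]
    rintro x ⟨h0, h1⟩ ⟨h2, h3⟩
    rcases lt_or_gt_of_ne hij with h | h
    · have hij' : (i:ℝ) + 1 ≤ j := by exact_mod_cast h
      have : (i:ℝ) / N + 1 / N ≤ (j:ℝ) / N := by
        rw [← add_div]; exact div_le_div_of_nonneg_right hij' hN'.le
      linarith
    · have hij' : (j:ℝ) + 1 ≤ i := by exact_mod_cast h
      have : (j:ℝ) / N + 1 / N ≤ (i:ℝ) / N := by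
        rw [← add_div]; exact div_le_div_of_nonneg_right hij' hN'.le
      linarith
  · intro j _; exact measurableSet_Ico

/-- Block computation: the integral of `F` along the cell structure. -/
lemma lintegral_cellMap {N : ℕ} (hN : 0 < N) {α β : ℝ} (f : ℝ → ℝ≥0∞) :
    ∫⁻ w in Ico (0:ℝ) 1, f (cellMap N α β w)
      = ∑ j ∈ Finset.range N, ENNReal.ofReal (1 / N) *
          ∫⁻ u in Ico (0:ℝ) 1, f (((j:ℝ) + α + (β - α) * u) / N) := by
  have hN' : (0:ℝ) < N := by positivity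
  rw [lintegral_cells hN]
  refine Finset.sum_congr rfl fun j _ => ?_
  rw [lintegral_Ico_affine _ _ (by positivity)]
  congr 1
  refine setLIntegral_congr_fun measurableSet_Ico ?_
  intro u hu
  have e : (N:ℝ) * ((j:ℝ) / N + 1 / N * u) = (j:ℝ) + u := by field_simp
  unfold cellMap
  beta_reduce
  rw [e]
  have hfl : ⌊(j:ℝ) + u⌋ = (j:ℤ) := by
    rw [Int.floor_eq_iff]
    push_cast
    constructor <;> linarith [hu.1, hu.2]
  have hfr : Int.fract ((j:ℝ) + u) = u := by
    rw [Int.fract, hfl]; push_cast; ring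
  rw [hfl, hfr]
  simp

/-- The splitting lemma. -/
theorem exists_split {δ : ℝ} (hδ : 0 < δ) :
    ∃ e₁ e₂ : ℝ → ℝ, Measurable e₁ ∧ Measurable e₂ ∧
      MapsTo e₁ (Ioo 0 1) (Ioo 0 1) ∧ MapsTo e₂ (Ioo 0 1) (Ioo 0 1) ∧
      (∀ w, |e₁ w - w| < δ) ∧ (∀ w, |e₂ w - w| < δ) ∧
      Function.Injective e₁ ∧ Function.Injective e₂ ∧
      (∀ w w', e₁ w ≠ e₂ w') ∧
      (ENNReal.ofReal (2/3)) • unitL.map e₁ + (ENNReal.ofReal (1/3)) • unitL.map e₂ = unitL := by
  obtain ⟨N, hN⟩ := exists_nat_gt (2 / δ)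
  have hN0 : 0 < N := by
    have : (0:ℝ) < N := lt_trans (by positivity) hN
    exact_mod_cast this
  have hN' : (0:ℝ) < N := by positivity
  have h2N : 2 / (N:ℝ) < δ := by
    rw [div_lt_iff₀ hN']
    rw [div_lt_iff₀ hδ] at hN
    linarith
  refine ⟨cellMap N 0 (2/3), cellMap N (2/3) 1, measurable_cellMap _ _ _, measurable_cellMap _ _ _,
    fun w hw => cellMap_mem hN0 (by norm_num) (by norm_num) (by norm_num) hw,
    fun w hw => cellMap_mem hN0 (by norm_num) (by norm_num) (by norm_num) hw,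
    fun w => (cellMap_sub hN0 (by norm_num) (by norm_num) (by norm_num) w).trans h2N,
    fun w => (cellMap_sub hN0 (by norm_num) (by norm_num) (by norm_num) w).trans h2N,
    cellMap_injective hN0 (by norm_num) (by norm_num) (by norm_num),
    cellMap_injective hN0 (by norm_num) (by norm_num) (by norm_num), ?_, ?_⟩
  · intro w w' h
    have e1 := cellMap_fract hN0 (α := 0) (β := 2/3) (by norm_num) (by norm_num) (by norm_num) w
    have e2 := cellMap_fract hN0 (α := 2/3) (β := 1) (by norm_num) (by norm_num) (by norm_num) w'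
    rw [h] at e1
    rw [e1] at e2
    have hf0 := Int.fract_nonneg ((N:ℝ) * w)
    have hf1 := Int.fract_lt_one ((N:ℝ) * w)
    have hf0' := Int.fract_nonneg ((N:ℝ) * w')
    have hf1' := Int.fract_lt_one ((N:ℝ) * w')
    nlinarith
  · refine Measure.ext_of_lintegral _ fun f hf => ?_
    rw [lintegral_add_measure, lintegral_smul_measure, lintegral_smul_measure,
      lintegral_map hf (measurable_cellMap _ _ _), lintegral_map hf (measurable_cellMap _ _ _),
      unitL_eq, lintegral_cellMap hN0, lintegral_cellMap hN0, lintegral_cells hN0]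
    simp only [smul_eq_mul]
    rw [Finset.mul_sum, Finset.mul_sum, ← Finset.sum_add_distrib]
    refine Finset.sum_congr rfl fun j _ => ?_
    -- reduce to a statement about `g u = f ((j + u) / N)`
    set g : ℝ → ℝ≥0∞ := fun t => f (((j:ℝ) + t) / N) with hg
    have hmg : Measurable g := by
      apply hf.comp
      exact ((measurable_const.add measurable_id).div_const _)
    have e0 : ∫⁻ x in Ico ((j:ℝ) / N) ((j:ℝ) / N + 1 / N), f x
        = ENNReal.ofReal (1 / N) * ∫⁻ u in Ico (0:ℝ) 1, g u := by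
      rw [lintegral_Ico_affine _ _ (by positivity)]
      congr 1
      refine setLIntegral_congr_fun measurableSet_Ico ?_
      intro u _
      simp only [hg]
      congr 1
      field_simp
    have e1 : ∫⁻ u in Ico (0:ℝ) 1, f (((j:ℝ) + 0 + (2/3 - 0) * u) / N)
        = ∫⁻ u in Ico (0:ℝ) 1, g (0 + 2/3 * u) := by
      refine setLIntegral_congr_fun measurableSet_Ico ?_
      intro u _
      simp only [hg]
      congr 2
      ring
    have e2 : ∫⁻ u in Ico (0:ℝ) 1, f (((j:ℝ) + 2/3 + (1 - 2/3) * u) / N)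
        = ∫⁻ u in Ico (0:ℝ) 1, g (2/3 + 1/3 * u) := by
      refine setLIntegral_congr_fun measurableSet_Ico ?_
      intro u _
      simp only [hg]
      congr 2
      ring
    rw [e0, e1, e2]
    have a1 := lintegral_Ico_affine 0 (2/3) (by norm_num) g
    have a2 := lintegral_Ico_affine (2/3) (1/3) (by norm_num) g
    have a3 : ∫⁻ u in Ico (0:ℝ) 1, g u
        = (∫⁻ x in Ico (0:ℝ) (0 + 2/3), g x) + ∫⁻ x in Ico (2/3:ℝ) (2/3 + 1/3), g x := by
      have hdisj : Disjoint (Ico (0:ℝ) (0 + 2/3)) (Ico (2/3:ℝ) (2/3 + 1/3)) := by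
        rw [Set.disjoint_left]
        rintro x ⟨_, h1⟩ ⟨h2, _⟩
        norm_num at h1 h2
        linarith
      have := lintegral_union (f := g) (μ := volume) (measurableSet_Ico (a := (2/3:ℝ)) (b := 2/3 + 1/3)) hdisj
      rw [← this]
      congr 2
      norm_num
    rw [a3, a1, a2]
    ring
end Crest.Agent.Lib.MMOT
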