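import Mathlib
import Crest.Agent.Lib.MMOT.Split

/-!
# An abstract five-sheet transport lemma

Five sheets `Ψ i : ℝ × Z → E`, with explicit dual potentials, with two families of tight triples
`(Ψ 0, Ψ 1, Ψ 2)` and `(Ψ 2, Ψ 3, Ψ 4)` sharing the sheet `Ψ 2`, give a three-marginal problem
for `μ = (2/9) (μ₀ + μ₁ + μ₂) + (1/9) (μ₂ + μ₃ + μ₄)` in which an optimal plan exists, no map
attains the optimum, and maps approach it.
-/

set_option linter.style.haveILetI false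
set_option linter.unusedSectionVars false

namespace Crest.Agent.Lib.MMOT

open MeasureTheory Set
open scoped ENNReal

lemma ae_smul_iff {α : Type*} [MeasurableSpace α] {μ : Measure α} {c : ℝ≥0∞} (hc : c ≠ 0)
    {P : α → Prop} : (∀ᵐ x ∂(c • μ), P x) ↔ ∀ᵐ x ∂μ, P x := by
  rw [Filter.Eventually, Measure.ae_ennreal_smul_measure_eq hc]; rfl

/-- The weight `2/9`. -/
noncomputable def wa : ℝ≥0∞ := ENNReal.ofReal (2/9)
/-- The weight `1/9`. -/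
noncomputable def wb : ℝ≥0∞ := ENNReal.ofReal (1/9)

lemma wa_ne_zero : wa ≠ 0 := by simp [wa]
lemma wb_ne_zero : wb ≠ 0 := by simp [wb]
lemma wa_ne_top : wa ≠ ⊤ := by simp [wa]
lemma wb_ne_top : wb ≠ ⊤ := by simp [wb]
lemma wb_lt_wa : wb < wa := by
  unfold wa wb
  exact (ENNReal.ofReal_lt_ofReal_iff (by norm_num)).2 (by norm_num)
lemma wsum : 3 * wa + 3 * wb = 1 := by
  unfold wa wb
  have h3 : (3:ℝ≥0∞) = ENNReal.ofReal 3 := by simp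
  rw [h3, ← ENNReal.ofReal_mul (by norm_num), ← ENNReal.ofReal_mul (by norm_num),
    ← ENNReal.ofReal_add (by norm_num) (by norm_num)]
  norm_num
lemma wa_split : wa = (wa + wb) * ENNReal.ofReal (2/3) := by
  unfold wa wb
  rw [← ENNReal.ofReal_add (by norm_num) (by norm_num), ← ENNReal.ofReal_mul (by norm_num)]
  norm_num
lemma wb_split : wb = (wa + wb) * ENNReal.ofReal (1/3) := by
  unfold wa wb
  rw [← ENNReal.ofReal_add (by norm_num) (by norm_num), ← ENNReal.ofReal_mul (by norm_num)]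
  norm_num

/-- Gluing: injective sheets with disjoint images and a family of measurable functions on the
parameter space give one measurable function on the target. -/
lemma exists_glue {Y E β : Type*} [MeasurableSpace Y] [StandardBorelSpace Y] [MeasurableSpace E]
    [StandardBorelSpace E] [MeasurableSpace β] {k : ℕ} {Y' : Set Y} (hY' : MeasurableSet Y')
    (Ξ : Fin k → Y → E) (hm : ∀ i, Measurable (Ξ i)) (hinj : ∀ i, InjOn (Ξ i) Y')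
    (hdisj : ∀ i j, i ≠ j → ∀ y ∈ Y', ∀ y' ∈ Y', Ξ i y ≠ Ξ j y')
    (g : Fin k → Y → β) (hg : ∀ i, Measurable (g i)) (d : E → β) (hd : Measurable d) :
    ∃ G : E → β, Measurable G ∧ (∀ i, ∀ y ∈ Y', G (Ξ i y) = g i y) ∧
      (∀ x, (∀ i, ∀ y ∈ Y', Ξ i y ≠ x) → G x = d x) := by
  haveI : StandardBorelSpace Y' := hY'.standardBorel
  let F : Fin k × Y' → E := fun p => Ξ p.1 p.2
  have hFm : Measurable F := by
    apply measurable_from_prod_countable_right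
    intro i
    exact (hm i).comp measurable_subtype_coe
  have hFi : Function.Injective F := by
    rintro ⟨i, y, hy⟩ ⟨j, y', hy'⟩ h
    by_cases hij : i = j
    · subst hij
      have : y = y' := hinj i hy hy' h
      subst this
      rfl
    · exact absurd h (hdisj i j hij y hy y' hy')
  have hFe : MeasurableEmbedding F := hFm.measurableEmbedding hFi
  let g' : Fin k × Y' → β := fun p => g p.1 p.2
  have hg'm : Measurable g' := by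
    apply measurable_from_prod_countable_right
    intro i
    exact (hg i).comp measurable_subtype_coe
  refine ⟨Function.extend F g' d, hFe.measurable_extend hg'm hd, ?_, ?_⟩
  · intro i y hy
    exact hFi.extend_apply g' d (i, ⟨y, hy⟩)
  · intro x hx
    apply Function.extend_apply'
    rintro ⟨⟨i, y, hy⟩, h⟩
    exact hx i y hy h

/-- The data of the abstract problem. -/
structure SheetData (E Z : Type*) [MeasurableSpace E] [MeasurableSpace Z] where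
  /-- the cost -/
  c : E × E × E → ℝ≥0∞
  c_meas : Measurable c
  c_swap12 : ∀ x y w, c (x, y, w) = c (y, x, w)
  c_swap23 : ∀ x y w, c (x, y, w) = c (x, w, y)
  /-- the fibre measure -/
  νZ : Measure Z
  νZ_prob : IsProbabilityMeasure νZ
  /-- the good fibre set -/
  Z' : Set Z
  Z'_meas : MeasurableSet Z'
  Z'_conull : νZ Z'ᶜ = 0
  /-- the sheets -/
  Ψ : Fin 5 → ℝ × Z → E
  Ψ_meas : ∀ i, Measurable (Ψ i)
  Ψ_inj : ∀ i, InjOn (Ψ i) (Ioo (0:ℝ) 1 ×ˢ Z')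
  Ψ_disj : ∀ i j, i ≠ j → ∀ y ∈ Ioo (0:ℝ) 1 ×ˢ Z', ∀ y' ∈ Ioo (0:ℝ) 1 ×ˢ Z', Ψ i y ≠ Ψ j y'
  /-- the potentials, written on the parameter space -/
  pot : Fin 5 → ℝ × Z → ℝ≥0∞
  pot_meas : ∀ i, Measurable (pot i)
  /-- the additive shift -/
  K : ℝ≥0∞
  K_ne_top : K ≠ ⊤
  /-- a bound for the potentials -/
  C : ℝ≥0∞
  C_ne_top : C ≠ ⊤
  pot_le : ∀ i, ∀ y ∈ Ioo (0:ℝ) 1 ×ˢ Z', pot i y ≤ C
  le : ∀ i j l, ∀ y₁ ∈ Ioo (0:ℝ) 1 ×ˢ Z', ∀ y₂ ∈ Ioo (0:ℝ) 1 ×ˢ Z', ∀ y₃ ∈ Ioo (0:ℝ) 1 ×ˢ Z',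
    pot i y₁ + pot j y₂ + pot l y₃ ≤ c (Ψ i y₁, Ψ j y₂, Ψ l y₃) + K
  tight1 : ∀ y ∈ Ioo (0:ℝ) 1 ×ˢ Z', c (Ψ 0 y, Ψ 1 y, Ψ 2 y) + K = pot 0 y + pot 1 y + pot 2 y
  tight2 : ∀ y ∈ Ioo (0:ℝ) 1 ×ˢ Z', c (Ψ 2 y, Ψ 3 y, Ψ 4 y) + K = pot 2 y + pot 3 y + pot 4 y
  rig0 : ∀ j l, ∀ y₀ ∈ Ioo (0:ℝ) 1 ×ˢ Z', ∀ y₂ ∈ Ioo (0:ℝ) 1 ×ˢ Z', ∀ y₃ ∈ Ioo (0:ℝ) 1 ×ˢ Z',
    c (Ψ 0 y₀, Ψ j y₂, Ψ l y₃) + K = pot 0 y₀ + pot j y₂ + pot l y₃ →
      (j = 1 ∧ l = 2 ∧ y₂ = y₀ ∧ y₃ = y₀) ∨ (j = 2 ∧ l = 1 ∧ y₂ = y₀ ∧ y₃ = y₀)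
  rig1 : ∀ j l, ∀ y₀ ∈ Ioo (0:ℝ) 1 ×ˢ Z', ∀ y₂ ∈ Ioo (0:ℝ) 1 ×ˢ Z', ∀ y₃ ∈ Ioo (0:ℝ) 1 ×ˢ Z',
    c (Ψ 1 y₀, Ψ j y₂, Ψ l y₃) + K = pot 1 y₀ + pot j y₂ + pot l y₃ →
      (j = 0 ∧ l = 2 ∧ y₂ = y₀ ∧ y₃ = y₀) ∨ (j = 2 ∧ l = 0 ∧ y₂ = y₀ ∧ y₃ = y₀)
  near1 : ∀ ε : ℝ≥0∞, 0 < ε → ∃ δ : ℝ, 0 < δ ∧ ∀ w ∈ Ioo (0:ℝ) 1, ∀ w' ∈ Ioo (0:ℝ) 1, ∀ z ∈ Z',
    |w' - w| < δ → c (Ψ 0 (w, z), Ψ 1 (w, z), Ψ 2 (w', z)) ≤ c (Ψ 0 (w, z), Ψ 1 (w, z), Ψ 2 (w, z)) + ε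
  near2 : ∀ ε : ℝ≥0∞, 0 < ε → ∃ δ : ℝ, 0 < δ ∧ ∀ w ∈ Ioo (0:ℝ) 1, ∀ w' ∈ Ioo (0:ℝ) 1, ∀ z ∈ Z',
    |w' - w| < δ → c (Ψ 2 (w', z), Ψ 3 (w, z), Ψ 4 (w, z)) ≤ c (Ψ 2 (w, z), Ψ 3 (w, z), Ψ 4 (w, z)) + ε

namespace SheetData

variable {E Z : Type*} [MeasurableSpace E] [StandardBorelSpace E] [MeasurableSpace Z]
  [StandardBorelSpace Z] (D : SheetData E Z)

/-- The good parameter set. -/
def Y' : Set (ℝ × Z) := Ioo (0:ℝ) 1 ×ˢ D.Z'

lemma Y'_meas : MeasurableSet D.Y' := measurableSet_Ioo.prod D.Z'_meas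

/-- The parameter measure. -/
noncomputable def ν : Measure (ℝ × Z) := unitL.prod D.νZ

instance : IsProbabilityMeasure unitL := ⟨by simp⟩

instance : IsProbabilityMeasure D.ν := by
  haveI := D.νZ_prob
  unfold ν
  infer_instance

lemma ae_Y' : ∀ᵐ y ∂D.ν, y ∈ D.Y' := by
  haveI := D.νZ_prob
  rw [ae_iff]
  have : {a | ¬a ∈ D.Y'} = (D.Y')ᶜ := rfl
  rw [this, prob_compl_eq_zero_iff D.Y'_meas]
  unfold ν Y'
  rw [Measure.prod_prod]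
  have h2 : D.νZ D.Z' = 1 := (prob_compl_eq_zero_iff D.Z'_meas).1 D.Z'_conull
  simp [h2]

/-- The image of `ν` under a sheet. -/
noncomputable def m (i : Fin 5) : Measure E := D.ν.map (D.Ψ i)

instance (i : Fin 5) : IsProbabilityMeasure (D.m i) :=
  Measure.isProbabilityMeasure_map (D.Ψ_meas i).aemeasurable

/-- The marginal. -/
noncomputable def μ : Measure E :=
  wa • (D.m 0 + D.m 1 + D.m 2) + wb • (D.m 2 + D.m 3 + D.m 4)

lemma ae_μ_imp {P : E → Prop} (h : ∀ᵐ x ∂D.μ, P x) (i : Fin 5) : ∀ᵐ y ∂D.ν, P (D.Ψ i y) := by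
  unfold μ at h
  rw [ae_add_measure_iff, ae_smul_iff wa_ne_zero, ae_smul_iff wb_ne_zero,
    ae_add_measure_iff, ae_add_measure_iff, ae_add_measure_iff, ae_add_measure_iff] at h
  obtain ⟨⟨⟨h0, h1⟩, h2⟩, ⟨h2', h3⟩, h4⟩ := h
  have key : ∀ j, (∀ᵐ x ∂(D.m j), P x) → ∀ᵐ y ∂D.ν, P (D.Ψ j y) := fun j hj =>
    ae_of_ae_map (D.Ψ_meas j).aemeasurable hj
  fin_cases i
  · exact key 0 h0
  · exact key 1 h1
  · exact key 2 h2
  · exact key 3 h3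
  · exact key 4 h4

lemma ae_μ_of {P : E → Prop} (hP : MeasurableSet {x | P x})
    (h : ∀ i, ∀ᵐ y ∂D.ν, P (D.Ψ i y)) : ∀ᵐ x ∂D.μ, P x := by
  unfold μ
  rw [ae_add_measure_iff, ae_smul_iff wa_ne_zero, ae_smul_iff wb_ne_zero,
    ae_add_measure_iff, ae_add_measure_iff, ae_add_measure_iff, ae_add_measure_iff]
  have key : ∀ j, ∀ᵐ x ∂(D.m j), P x := fun j =>
    (ae_map_iff (D.Ψ_meas j).aemeasurable hP).2 (h j)
  exact ⟨⟨⟨key 0, key 1⟩, key 2⟩, ⟨key 2, key 3⟩, key 4⟩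

instance : IsProbabilityMeasure D.μ := by
  constructor
  unfold μ
  simp only [Measure.add_apply, Measure.smul_apply, smul_eq_mul, measure_univ]
  have : (1:ℝ≥0∞) + 1 + 1 = 3 := by norm_num
  rw [this, mul_comm wa, mul_comm wb, wsum]

/-- Image of a measurable part of the good set. -/
lemma meas_image (i : Fin 5) {W : Set (ℝ × Z)} (hW : MeasurableSet W) (hWY : W ⊆ D.Y') :
    MeasurableSet (D.Ψ i '' W) :=
  hW.image_of_measurable_injOn (D.Ψ_meas i) ((D.Ψ_inj i).mono hWY)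

lemma m_image_self (i : Fin 5) {W : Set (ℝ × Z)} (hW : MeasurableSet W) (hWY : W ⊆ D.Y') :
    D.m i (D.Ψ i '' W) = D.ν W := by
  unfold m
  rw [Measure.map_apply (D.Ψ_meas i) (D.meas_image i hW hWY)]
  apply measure_congr
  filter_upwards [D.ae_Y'] with y hy
  apply propext
  constructor
  · rintro ⟨y', hy', e⟩
    have := D.Ψ_inj i (hWY hy') hy e
    exact this ▸ hy'
  · intro h
    exact ⟨y, h, rfl⟩

lemma m_image_ne {i j : Fin 5} (hij : i ≠ j) {W : Set (ℝ × Z)} (hW : MeasurableSet W)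
    (hWY : W ⊆ D.Y') : D.m i (D.Ψ j '' W) = 0 := by
  unfold m
  rw [Measure.map_apply (D.Ψ_meas i) (D.meas_image j hW hWY), measure_eq_zero_iff_ae_notMem]
  filter_upwards [D.ae_Y'] with y hy
  rintro ⟨y', hy', e⟩
  exact D.Ψ_disj j i hij.symm y' (hWY hy') y hy e

lemma μ_image0 {W : Set (ℝ × Z)} (hW : MeasurableSet W) (hWY : W ⊆ D.Y') :
    D.μ (D.Ψ 0 '' W) = wa * D.ν W := by
  unfold μ
  simp only [Measure.add_apply, Measure.smul_apply, smul_eq_mul]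
  rw [D.m_image_self 0 hW hWY, D.m_image_ne (i := 1) (j := 0) (by decide) hW hWY,
    D.m_image_ne (i := 2) (j := 0) (by decide) hW hWY, D.m_image_ne (i := 3) (j := 0) (by decide) hW hWY,
    D.m_image_ne (i := 4) (j := 0) (by decide) hW hWY]
  simp

lemma μ_image1 {W : Set (ℝ × Z)} (hW : MeasurableSet W) (hWY : W ⊆ D.Y') :
    D.μ (D.Ψ 1 '' W) = wa * D.ν W := by
  unfold μ
  simp only [Measure.add_apply, Measure.smul_apply, smul_eq_mul]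
  rw [D.m_image_self 1 hW hWY, D.m_image_ne (i := 0) (j := 1) (by decide) hW hWY,
    D.m_image_ne (i := 2) (j := 1) (by decide) hW hWY, D.m_image_ne (i := 3) (j := 1) (by decide) hW hWY,
    D.m_image_ne (i := 4) (j := 1) (by decide) hW hWY]
  simp

lemma μ_image2 {W : Set (ℝ × Z)} (hW : MeasurableSet W) (hWY : W ⊆ D.Y') :
    D.μ (D.Ψ 2 '' W) = (wa + wb) * D.ν W := by
  unfold μ
  simp only [Measure.add_apply, Measure.smul_apply, smul_eq_mul]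
  rw [D.m_image_self 2 hW hWY, D.m_image_ne (i := 0) (j := 2) (by decide) hW hWY,
    D.m_image_ne (i := 1) (j := 2) (by decide) hW hWY, D.m_image_ne (i := 3) (j := 2) (by decide) hW hWY,
    D.m_image_ne (i := 4) (j := 2) (by decide) hW hWY]
  simp [add_mul]

/-- The dual potential on the target space. -/
lemma exists_v : ∃ v : E → ℝ≥0∞, Measurable v ∧ (∀ i, ∀ y ∈ D.Y', v (D.Ψ i y) = D.pot i y) ∧
    ∀ x, v x ≤ D.C := by
  obtain ⟨v, hv, h1, h2⟩ := exists_glue D.Y'_meas D.Ψ D.Ψ_meas D.Ψ_inj D.Ψ_disj D.pot D.pot_meas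
    (fun _ => 0) measurable_const
  refine ⟨v, hv, h1, fun x => ?_⟩
  by_cases hx : ∃ i, ∃ y ∈ D.Y', D.Ψ i y = x
  · obtain ⟨i, y, hy, rfl⟩ := hx
    rw [h1 i y hy]
    exact D.pot_le i y hy
  · push Not at hx
    rw [h2 x hx]
    exact zero_le

/-- The support set. -/
def S : Set E := ⋃ i : Fin 5, D.Ψ i '' D.Y'

lemma S_meas : MeasurableSet D.S :=
  MeasurableSet.iUnion fun i => D.meas_image i D.Y'_meas Subset.rfl

lemma ae_S : ∀ᵐ x ∂D.μ, x ∈ D.S := by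
  refine D.ae_μ_of D.S_meas fun i => ?_
  filter_upwards [D.ae_Y'] with y hy
  exact mem_iUnion.2 ⟨i, y, hy, rfl⟩

lemma exists_of_mem_S {x : E} (hx : x ∈ D.S) : ∃ i, ∃ y ∈ D.Y', D.Ψ i y = x := by
  obtain ⟨i, y, hy, rfl⟩ := mem_iUnion.1 hx
  exact ⟨i, y, hy, rfl⟩

/-- The dual inequality on the support. -/
lemma v_le {v : E → ℝ≥0∞} (hv : ∀ i, ∀ y ∈ D.Y', v (D.Ψ i y) = D.pot i y) {x y w : E}
    (hx : x ∈ D.S) (hy : y ∈ D.S) (hw : w ∈ D.S) : v x + v y + v w ≤ D.c (x, y, w) + D.K := by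
  obtain ⟨i, y₁, h₁, rfl⟩ := D.exists_of_mem_S hx
  obtain ⟨j, y₂, h₂, rfl⟩ := D.exists_of_mem_S hy
  obtain ⟨l, y₃, h₃, rfl⟩ := D.exists_of_mem_S hw
  rw [hv i y₁ h₁, hv j y₂ h₂, hv l y₃ h₃]
  exact D.le i j l y₁ h₁ y₂ h₂ y₃ h₃

/-- Integrating the dual sum along any measure with marginals `μ`. -/
lemma lintegral_dual {α : Type*} [MeasurableSpace α] {π : Measure α} {f g h : α → E}
    (hf : Measurable f) (hg : Measurable g) (hh : Measurable h)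
    (h1 : π.map f = D.μ) (h2 : π.map g = D.μ) (h3 : π.map h = D.μ) {v : E → ℝ≥0∞}
    (hvm : Measurable v) :
    ∫⁻ p, (v (f p) + v (g p) + v (h p)) ∂π = 3 * ∫⁻ x, v x ∂D.μ := by
  have hm1 : Measurable fun p => v (f p) + v (g p) := (hvm.comp hf).add (hvm.comp hg)
  have hm2 : Measurable fun p => v (f p) := hvm.comp hf
  rw [lintegral_add_left hm1, lintegral_add_left hm2]
  have e1 : ∫⁻ p, v (f p) ∂π = ∫⁻ x, v x ∂D.μ := by rw [← h1, lintegral_map hvm hf]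
  have e2 : ∫⁻ p, v (g p) ∂π = ∫⁻ x, v x ∂D.μ := by rw [← h2, lintegral_map hvm hg]
  have e3 : ∫⁻ p, v (h p) ∂π = ∫⁻ x, v x ∂D.μ := by rw [← h3, lintegral_map hvm hh]
  rw [e1, e2, e3]
  ring

/-- Weak duality for any measure whose coordinate images are `μ`. -/
lemma dual_le {α : Type*} [MeasurableSpace α] {π : Measure α} {f g h : α → E}
    (hf : Measurable f) (hg : Measurable g) (hh : Measurable h)
    (h1 : π.map f = D.μ) (h2 : π.map g = D.μ) (h3 : π.map h = D.μ) {v : E → ℝ≥0∞}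
    (hvm : Measurable v) (hv : ∀ i, ∀ y ∈ D.Y', v (D.Ψ i y) = D.pot i y) :
    3 * ∫⁻ x, v x ∂D.μ ≤ ∫⁻ p, D.c (f p, g p, h p) ∂π + D.K := by
  have hprob : π Set.univ = 1 := by
    have := congrArg (fun ρ : Measure E => ρ Set.univ) h1
    simp only [measure_univ] at this
    rwa [Measure.map_apply hf MeasurableSet.univ, preimage_univ] at this
  rw [← D.lintegral_dual hf hg hh h1 h2 h3 hvm]
  have hfS : ∀ᵐ p ∂π, f p ∈ D.S := by
    have := D.ae_S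
    rw [← h1] at this
    exact ae_of_ae_map hf.aemeasurable this
  have hgS : ∀ᵐ p ∂π, g p ∈ D.S := by
    have := D.ae_S
    rw [← h2] at this
    exact ae_of_ae_map hg.aemeasurable this
  have hhS : ∀ᵐ p ∂π, h p ∈ D.S := by
    have := D.ae_S
    rw [← h3] at this
    exact ae_of_ae_map hh.aemeasurable this
  calc ∫⁻ p, (v (f p) + v (g p) + v (h p)) ∂π
      ≤ ∫⁻ p, (D.c (f p, g p, h p) + D.K) ∂π := by
        apply lintegral_mono_ae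
        filter_upwards [hfS, hgS, hhS] with p h1 h2 h3
        exact D.v_le hv h1 h2 h3
    _ = ∫⁻ p, D.c (f p, g p, h p) ∂π + D.K := by
        rw [lintegral_add_right _ measurable_const, lintegral_const, hprob, mul_one]

/-! ### The optimal plan -/

/-- Triples from the first tight family. -/
def F1 (y : ℝ × Z) : E × E × E := (D.Ψ 0 y, D.Ψ 1 y, D.Ψ 2 y)
/-- Triples from the first tight family. -/
def F2 (y : ℝ × Z) : E × E × E := (D.Ψ 1 y, D.Ψ 2 y, D.Ψ 0 y)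
/-- Triples from the first tight family. -/
def F3 (y : ℝ × Z) : E × E × E := (D.Ψ 2 y, D.Ψ 0 y, D.Ψ 1 y)
/-- Triples from the second tight family. -/
def G1 (y : ℝ × Z) : E × E × E := (D.Ψ 2 y, D.Ψ 3 y, D.Ψ 4 y)
/-- Triples from the second tight family. -/
def G2 (y : ℝ × Z) : E × E × E := (D.Ψ 3 y, D.Ψ 4 y, D.Ψ 2 y)
/-- Triples from the second tight family. -/
def G3 (y : ℝ × Z) : E × E × E := (D.Ψ 4 y, D.Ψ 2 y, D.Ψ 3 y)

lemma meas3 (i j l : Fin 5) : Measurable (fun y => (D.Ψ i y, D.Ψ j y, D.Ψ l y)) :=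
  (D.Ψ_meas i).prodMk ((D.Ψ_meas j).prodMk (D.Ψ_meas l))

lemma measF1 : Measurable D.F1 := D.meas3 0 1 2
lemma measF2 : Measurable D.F2 := D.meas3 1 2 0
lemma measF3 : Measurable D.F3 := D.meas3 2 0 1
lemma measG1 : Measurable D.G1 := D.meas3 2 3 4
lemma measG2 : Measurable D.G2 := D.meas3 3 4 2
lemma measG3 : Measurable D.G3 := D.meas3 4 2 3

/-- The optimal plan. -/
noncomputable def π₀ : Measure (E × E × E) :=
  wa • (D.ν.map D.F1 + D.ν.map D.F2 + D.ν.map D.F3) +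
    wb • (D.ν.map D.G1 + D.ν.map D.G2 + D.ν.map D.G3)

lemma π₀_marg {f : E × E × E → E} (hf : Measurable f) {i j l : Fin 5}
    (h1 : ∀ y, f (D.F1 y) = D.Ψ i y) (h2 : ∀ y, f (D.F2 y) = D.Ψ j y)
    (h3 : ∀ y, f (D.F3 y) = D.Ψ l y) :
    (D.ν.map D.F1 + D.ν.map D.F2 + D.ν.map D.F3).map f = D.m i + D.m j + D.m l := by
  rw [Measure.map_add _ _ hf, Measure.map_add _ _ hf,
    Measure.map_map hf D.measF1, Measure.map_map hf D.measF2,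
    Measure.map_map hf D.measF3, show f ∘ D.F1 = D.Ψ i from funext h1,
    show f ∘ D.F2 = D.Ψ j from funext h2, show f ∘ D.F3 = D.Ψ l from funext h3]
  rfl

lemma π₀_marg' {f : E × E × E → E} (hf : Measurable f) {i j l : Fin 5}
    (h1 : ∀ y, f (D.G1 y) = D.Ψ i y) (h2 : ∀ y, f (D.G2 y) = D.Ψ j y)
    (h3 : ∀ y, f (D.G3 y) = D.Ψ l y) :
    (D.ν.map D.G1 + D.ν.map D.G2 + D.ν.map D.G3).map f = D.m i + D.m j + D.m l := by
  rw [Measure.map_add _ _ hf, Measure.map_add _ _ hf,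
    Measure.map_map hf D.measG1, Measure.map_map hf D.measG2,
    Measure.map_map hf D.measG3, show f ∘ D.G1 = D.Ψ i from funext h1,
    show f ∘ D.G2 = D.Ψ j from funext h2, show f ∘ D.G3 = D.Ψ l from funext h3]
  rfl

lemma π₀_fst : D.π₀.map (fun p => p.1) = D.μ := by
  unfold π₀ μ
  rw [Measure.map_add _ _ measurable_fst, Measure.map_smul, Measure.map_smul,
    D.π₀_marg measurable_fst (i := 0) (j := 1) (l := 2) (fun _ => rfl) (fun _ => rfl) (fun _ => rfl),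
    D.π₀_marg' measurable_fst (i := 2) (j := 3) (l := 4) (fun _ => rfl) (fun _ => rfl) (fun _ => rfl)]

lemma π₀_snd : D.π₀.map (fun p => p.2.1) = D.μ := by
  have hf : Measurable (fun p : E × E × E => p.2.1) := measurable_fst.comp measurable_snd
  unfold π₀ μ
  rw [Measure.map_add _ _ hf, Measure.map_smul, Measure.map_smul,
    D.π₀_marg hf (i := 1) (j := 2) (l := 0) (fun _ => rfl) (fun _ => rfl) (fun _ => rfl),
    D.π₀_marg' hf (i := 3) (j := 4) (l := 2) (fun _ => rfl) (fun _ => rfl) (fun _ => rfl)]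
  congr 2 <;> abel

lemma π₀_thd : D.π₀.map (fun p => p.2.2) = D.μ := by
  have hf : Measurable (fun p : E × E × E => p.2.2) := measurable_snd.comp measurable_snd
  unfold π₀ μ
  rw [Measure.map_add _ _ hf, Measure.map_smul, Measure.map_smul,
    D.π₀_marg hf (i := 2) (j := 0) (l := 1) (fun _ => rfl) (fun _ => rfl) (fun _ => rfl),
    D.π₀_marg' hf (i := 4) (j := 2) (l := 3) (fun _ => rfl) (fun _ => rfl) (fun _ => rfl)]
  congr 2 <;> abel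

lemma c_cyc (x y w : E) : D.c (x, y, w) = D.c (y, w, x) := by
  rw [D.c_swap12, D.c_swap23]

/-- The cost of the optimal plan. -/
lemma lintegral_π₀ : ∫⁻ p, D.c p ∂D.π₀ =
    3 * wa * ∫⁻ y, D.c (D.F1 y) ∂D.ν + 3 * wb * ∫⁻ y, D.c (D.G1 y) ∂D.ν := by
  unfold π₀
  rw [lintegral_add_measure, lintegral_smul_measure, lintegral_smul_measure,
    lintegral_add_measure, lintegral_add_measure, lintegral_add_measure, lintegral_add_measure,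
    lintegral_map D.c_meas D.measF1, lintegral_map D.c_meas D.measF2,
    lintegral_map D.c_meas D.measF3, lintegral_map D.c_meas D.measG1,
    lintegral_map D.c_meas D.measG2, lintegral_map D.c_meas D.measG3]
  have e1 : ∀ y, D.c (D.F2 y) = D.c (D.F1 y) := fun y => (D.c_cyc _ _ _).symm
  have e2 : ∀ y, D.c (D.F3 y) = D.c (D.F1 y) := fun y => D.c_cyc _ _ _
  have e3 : ∀ y, D.c (D.G2 y) = D.c (D.G1 y) := fun y => (D.c_cyc _ _ _).symm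
  have e4 : ∀ y, D.c (D.G3 y) = D.c (D.G1 y) := fun y => D.c_cyc _ _ _
  simp only [e1, e2, e3, e4, smul_eq_mul]
  ring

/-- Tightness and cost of the optimal plan. -/
lemma cost_π₀ {v : E → ℝ≥0∞} (hvm : Measurable v) (hv : ∀ i, ∀ y ∈ D.Y', v (D.Ψ i y) = D.pot i y) :
    ∫⁻ p, D.c p ∂D.π₀ + D.K = 3 * ∫⁻ x, v x ∂D.μ := by
  have hF : ∀ᵐ y ∂D.ν, D.c (D.F1 y) + D.K = v (D.Ψ 0 y) + v (D.Ψ 1 y) + v (D.Ψ 2 y) := by
    filter_upwards [D.ae_Y'] with y hy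
    rw [hv 0 y hy, hv 1 y hy, hv 2 y hy]
    exact D.tight1 y hy
  have hG : ∀ᵐ y ∂D.ν, D.c (D.G1 y) + D.K = v (D.Ψ 2 y) + v (D.Ψ 3 y) + v (D.Ψ 4 y) := by
    filter_upwards [D.ae_Y'] with y hy
    rw [hv 2 y hy, hv 3 y hy, hv 4 y hy]
    exact D.tight2 y hy
  have i1 := lintegral_congr_ae hF
  have i2 := lintegral_congr_ae hG
  have hprobν : D.ν Set.univ = 1 := measure_univ
  have hm (i j : Fin 5) : Measurable fun y => v (D.Ψ i y) + v (D.Ψ j y) :=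
    (hvm.comp (D.Ψ_meas i)).add (hvm.comp (D.Ψ_meas j))
  have hm' (i : Fin 5) : Measurable fun y => v (D.Ψ i y) := hvm.comp (D.Ψ_meas i)
  rw [lintegral_add_right _ measurable_const, lintegral_const, hprobν, mul_one,
    lintegral_add_left (hm 0 1), lintegral_add_left (hm' 0)] at i1
  rw [lintegral_add_right _ measurable_const, lintegral_const, hprobν, mul_one,
    lintegral_add_left (hm 2 3), lintegral_add_left (hm' 2)] at i2
  have hμ : ∫⁻ x, v x ∂D.μ =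
      wa * (∫⁻ y, v (D.Ψ 0 y) ∂D.ν + ∫⁻ y, v (D.Ψ 1 y) ∂D.ν + ∫⁻ y, v (D.Ψ 2 y) ∂D.ν) +
      wb * (∫⁻ y, v (D.Ψ 2 y) ∂D.ν + ∫⁻ y, v (D.Ψ 3 y) ∂D.ν + ∫⁻ y, v (D.Ψ 4 y) ∂D.ν) := by
    unfold μ m
    rw [lintegral_add_measure, lintegral_smul_measure, lintegral_smul_measure,
      lintegral_add_measure, lintegral_add_measure, lintegral_add_measure, lintegral_add_measure,
      lintegral_map hvm (D.Ψ_meas 0), lintegral_map hvm (D.Ψ_meas 1), lintegral_map hvm (D.Ψ_meas 2),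
      lintegral_map hvm (D.Ψ_meas 3), lintegral_map hvm (D.Ψ_meas 4)]
    simp only [smul_eq_mul]
  rw [hμ, D.lintegral_π₀]
  rw [← i1, ← i2]
  have hs : 3 * wa * D.K + 3 * wb * D.K = D.K := by
    rw [← add_mul, wsum, one_mul]
  calc 3 * wa * ∫⁻ y, D.c (D.F1 y) ∂D.ν + 3 * wb * ∫⁻ y, D.c (D.G1 y) ∂D.ν + D.K
      = 3 * wa * ∫⁻ y, D.c (D.F1 y) ∂D.ν + 3 * wb * ∫⁻ y, D.c (D.G1 y) ∂D.ν
          + (3 * wa * D.K + 3 * wb * D.K) := by rw [hs]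
    _ = _ := by ring

lemma lintegral_v_le {v : E → ℝ≥0∞} (hv : ∀ x, v x ≤ D.C) : ∫⁻ x, v x ∂D.μ ≤ D.C := by
  calc ∫⁻ x, v x ∂D.μ ≤ ∫⁻ _, D.C ∂D.μ := lintegral_mono hv
    _ = D.C := by simp

lemma lintegral_v_lt_top {v : E → ℝ≥0∞} (hv : ∀ x, v x ≤ D.C) : ∫⁻ x, v x ∂D.μ < ⊤ :=
  lt_of_le_of_lt (D.lintegral_v_le hv) D.C_ne_top.lt_top

lemma cost_π₀_lt_top : ∫⁻ p, D.c p ∂D.π₀ < ⊤ := by
  obtain ⟨v, hvm, hv, hvC⟩ := D.exists_v
  have h := D.cost_π₀ hvm hv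
  have h2 : 3 * ∫⁻ x, v x ∂D.μ < ⊤ :=
    ENNReal.mul_lt_top (by simp) (D.lintegral_v_lt_top hvC)
  rw [← h] at h2
  exact lt_of_le_of_lt le_self_add h2

/-- Optimality of the plan. -/
lemma π₀_le {π : Measure (E × E × E)} (h1 : π.map (fun p => p.1) = D.μ)
    (h2 : π.map (fun p => p.2.1) = D.μ) (h3 : π.map (fun p => p.2.2) = D.μ) :
    ∫⁻ p, D.c p ∂D.π₀ ≤ ∫⁻ p, D.c p ∂π := by
  obtain ⟨v, hvm, hv, -⟩ := D.exists_v
  have a := D.dual_le (f := fun p : E × E × E => p.1) (g := fun p => p.2.1) (h := fun p => p.2.2)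
    measurable_fst (measurable_fst.comp measurable_snd) (measurable_snd.comp measurable_snd)
    h1 h2 h3 hvm hv
  rw [← D.cost_π₀ hvm hv] at a
  exact (ENNReal.add_le_add_iff_right D.K_ne_top).1 a

/-! ### Non-attainment by maps -/

lemma rigE0 {v : E → ℝ≥0∞} (hv : ∀ i, ∀ y ∈ D.Y', v (D.Ψ i y) = D.pot i y) {a₂ a₃ : E}
    (h₂ : a₂ ∈ D.S) (h₃ : a₃ ∈ D.S) {y₀ : ℝ × Z} (hy₀ : y₀ ∈ D.Y')
    (ht : D.c (D.Ψ 0 y₀, a₂, a₃) + D.K = v (D.Ψ 0 y₀) + v a₂ + v a₃) :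
    (a₂ = D.Ψ 1 y₀ ∧ a₃ = D.Ψ 2 y₀) ∨ (a₂ = D.Ψ 2 y₀ ∧ a₃ = D.Ψ 1 y₀) := by
  obtain ⟨j, y₂, hy₂, rfl⟩ := D.exists_of_mem_S h₂
  obtain ⟨l, y₃, hy₃, rfl⟩ := D.exists_of_mem_S h₃
  rw [hv 0 y₀ hy₀, hv j y₂ hy₂, hv l y₃ hy₃] at ht
  rcases D.rig0 j l y₀ hy₀ y₂ hy₂ y₃ hy₃ ht with ⟨rfl, rfl, rfl, rfl⟩ | ⟨rfl, rfl, rfl, rfl⟩
  · exact Or.inl ⟨rfl, rfl⟩
  · exact Or.inr ⟨rfl, rfl⟩

lemma rigE1 {v : E → ℝ≥0∞} (hv : ∀ i, ∀ y ∈ D.Y', v (D.Ψ i y) = D.pot i y) {a₂ a₃ : E}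
    (h₂ : a₂ ∈ D.S) (h₃ : a₃ ∈ D.S) {y₀ : ℝ × Z} (hy₀ : y₀ ∈ D.Y')
    (ht : D.c (D.Ψ 1 y₀, a₂, a₃) + D.K = v (D.Ψ 1 y₀) + v a₂ + v a₃) :
    (a₂ = D.Ψ 0 y₀ ∧ a₃ = D.Ψ 2 y₀) ∨ (a₂ = D.Ψ 2 y₀ ∧ a₃ = D.Ψ 0 y₀) := by
  obtain ⟨j, y₂, hy₂, rfl⟩ := D.exists_of_mem_S h₂
  obtain ⟨l, y₃, hy₃, rfl⟩ := D.exists_of_mem_S h₃
  rw [hv 1 y₀ hy₀, hv j y₂ hy₂, hv l y₃ hy₃] at ht
  rcases D.rig1 j l y₀ hy₀ y₂ hy₂ y₃ hy₃ ht with ⟨rfl, rfl, rfl, rfl⟩ | ⟨rfl, rfl, rfl, rfl⟩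
  · exact Or.inl ⟨rfl, rfl⟩
  · exact Or.inr ⟨rfl, rfl⟩

/-- A point of the sheet `2` cannot be sent by a measure preserving map to its partner of a
sheet of smaller weight, except on a null set. -/
lemma null_block {T : E → E} (hT : Measurable T) (hTμ : D.μ.map T = D.μ) {i : Fin 5}
    (himg : ∀ W : Set (ℝ × Z), MeasurableSet W → W ⊆ D.Y' → D.μ (D.Ψ i '' W) = wa * D.ν W) :
    D.ν {y | y ∈ D.Y' ∧ T (D.Ψ 2 y) = D.Ψ i y} = 0 := by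
  set B : Set (ℝ × Z) := {y | y ∈ D.Y' ∧ T (D.Ψ 2 y) = D.Ψ i y} with hB
  have hBm : MeasurableSet B :=
    D.Y'_meas.inter (measurableSet_eq_fun (hT.comp (D.Ψ_meas 2)) (D.Ψ_meas i))
  have hBY : B ⊆ D.Y' := fun y hy => hy.1
  have hA := D.meas_image i hBm hBY
  have h1 : D.μ (T ⁻¹' (D.Ψ i '' B)) = D.μ (D.Ψ i '' B) := by
    conv_rhs => rw [← hTμ]
    rw [Measure.map_apply hT hA]
  have h2 : D.Ψ 2 '' B ⊆ T ⁻¹' (D.Ψ i '' B) := by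
    rintro _ ⟨y, hy, rfl⟩
    exact ⟨y, hy, hy.2.symm⟩
  have h3 : (wa + wb) * D.ν B ≤ wa * D.ν B := by
    rw [← D.μ_image2 hBm hBY, ← himg B hBm hBY, ← h1]
    exact measure_mono h2
  have hfin : wa * D.ν B ≠ ⊤ := ENNReal.mul_ne_top wa_ne_top (measure_ne_top _ _)
  rw [add_mul] at h3
  have h4 : wb * D.ν B ≤ 0 := by
    have : wa * D.ν B + wb * D.ν B ≤ wa * D.ν B + 0 := by simpa using h3
    exact (ENNReal.add_le_add_iff_left hfin).1 this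
  have h5 : wb * D.ν B = 0 := le_antisymm h4 zero_le
  exact (mul_eq_zero.1 h5).resolve_left wb_ne_zero

/-- A measure preserving map must send a sheet of weight `wa` onto its partner. -/
lemma full_block {T : E → E} (hT : Measurable T) (hTμ : D.μ.map T = D.μ) {i j : Fin 5}
    (himgi : ∀ W : Set (ℝ × Z), MeasurableSet W → W ⊆ D.Y' → D.μ (D.Ψ i '' W) = wa * D.ν W)
    (himgj : ∀ W : Set (ℝ × Z), MeasurableSet W → W ⊆ D.Y' → D.μ (D.Ψ j '' W) = wa * D.ν W)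
    (hrig : ∀ᵐ x ∂D.μ, ∀ y₀ ∈ D.Y', T x = D.Ψ i y₀ → x = D.Ψ j y₀ ∨ x = D.Ψ 2 y₀) :
    ∀ᵐ y ∂D.ν, T (D.Ψ j y) = D.Ψ i y := by
  set B : Set (ℝ × Z) := {y | y ∈ D.Y' ∧ T (D.Ψ 2 y) = D.Ψ i y} with hB
  have hBnull : D.ν B = 0 := D.null_block hT hTμ himgi
  have hBm : MeasurableSet B :=
    D.Y'_meas.inter (measurableSet_eq_fun (hT.comp (D.Ψ_meas 2)) (D.Ψ_meas i))
  have hBY : B ⊆ D.Y' := fun y hy => hy.1
  set C : Set (ℝ × Z) := {y | y ∈ D.Y' ∧ T (D.Ψ j y) = D.Ψ i y} with hC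
  have hCm : MeasurableSet C :=
    D.Y'_meas.inter (measurableSet_eq_fun (hT.comp (D.Ψ_meas j)) (D.Ψ_meas i))
  have hCY : C ⊆ D.Y' := fun y hy => hy.1
  have hAm := D.meas_image i D.Y'_meas Subset.rfl
  have hνY : D.ν D.Y' = 1 := (prob_compl_eq_zero_iff D.Y'_meas).1 (by
    have := D.ae_Y'
    rwa [ae_iff] at this)
  have h1 : D.μ (T ⁻¹' (D.Ψ i '' D.Y')) = wa := by
    have : D.μ (T ⁻¹' (D.Ψ i '' D.Y')) = D.μ (D.Ψ i '' D.Y') := by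
      conv_rhs => rw [← hTμ]
      rw [Measure.map_apply hT hAm]
    rw [this, himgi _ D.Y'_meas Subset.rfl, hνY, mul_one]
  have h2 : D.μ (T ⁻¹' (D.Ψ i '' D.Y')) ≤ D.μ (D.Ψ j '' C ∪ D.Ψ 2 '' B) := by
    apply measure_mono_ae
    filter_upwards [hrig] with x hx hxm
    obtain ⟨y₀, hy₀, e⟩ := hxm
    rcases hx y₀ hy₀ e.symm with h | h
    · left
      refine ⟨y₀, ⟨hy₀, ?_⟩, h.symm⟩
      rw [← h]
      exact e.symm
    · right
      refine ⟨y₀, ⟨hy₀, ?_⟩, h.symm⟩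
      rw [← h]
      exact e.symm
  have h3 : wa ≤ wa * D.ν C := by
    calc wa = D.μ (T ⁻¹' (D.Ψ i '' D.Y')) := h1.symm
      _ ≤ D.μ (D.Ψ j '' C ∪ D.Ψ 2 '' B) := h2
      _ ≤ D.μ (D.Ψ j '' C) + D.μ (D.Ψ 2 '' B) := measure_union_le _ _
      _ = wa * D.ν C := by
        rw [himgj C hCm hCY, D.μ_image2 hBm hBY, hBnull]
        simp
  have h4 : 1 ≤ D.ν C := by
    have : wa * 1 ≤ wa * D.ν C := by simpa using h3
    exact (ENNReal.mul_le_mul_iff_right wa_ne_zero wa_ne_top).1 this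
  have h5 : D.ν C = 1 := le_antisymm prob_le_one h4
  have h6 : ∀ᵐ y ∂D.ν, y ∈ C := by
    rw [ae_iff]
    exact (prob_compl_eq_zero_iff hCm).2 h5
  filter_upwards [h6] with y hy using hy.2

/-- No map attains the optimal cost. -/
theorem monge_strict {T₂ T₃ : E → E} (hT₂ : Measurable T₂) (hT₃ : Measurable T₃)
    (hT₂μ : D.μ.map T₂ = D.μ) (hT₃μ : D.μ.map T₃ = D.μ) :
    ∫⁻ p, D.c p ∂D.π₀ < ∫⁻ x, D.c (x, T₂ x, T₃ x) ∂D.μ := by
  by_contra hcon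
  rw [not_lt] at hcon
  obtain ⟨v, hvm, hv, hvC⟩ := D.exists_v
  -- a.e. membership
  have hS1 : ∀ᵐ x ∂D.μ, x ∈ D.S := D.ae_S
  have hS2 : ∀ᵐ x ∂D.μ, T₂ x ∈ D.S := by
    have := D.ae_S
    rw [← hT₂μ] at this
    exact ae_of_ae_map hT₂.aemeasurable this
  have hS3 : ∀ᵐ x ∂D.μ, T₃ x ∈ D.S := by
    have := D.ae_S
    rw [← hT₃μ] at this
    exact ae_of_ae_map hT₃.aemeasurable this
  -- tightness
  have hle : (fun x => v x + v (T₂ x) + v (T₃ x)) ≤ᵐ[D.μ] fun x => D.c (x, T₂ x, T₃ x) + D.K := by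
    filter_upwards [hS1, hS2, hS3] with x h1 h2 h3
    exact D.v_le hv h1 h2 h3
  have hint : ∫⁻ x, (v x + v (T₂ x) + v (T₃ x)) ∂D.μ = 3 * ∫⁻ x, v x ∂D.μ :=
    D.lintegral_dual measurable_id hT₂ hT₃ Measure.map_id hT₂μ hT₃μ hvm
  have hcm : Measurable fun x => D.c (x, T₂ x, T₃ x) :=
    D.c_meas.comp (measurable_id.prodMk (hT₂.prodMk hT₃))
  have htight : (fun x => v x + v (T₂ x) + v (T₃ x)) =ᵐ[D.μ] fun x => D.c (x, T₂ x, T₃ x) + D.K := by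
    apply ae_eq_of_ae_le_of_lintegral_le hle
    · rw [hint]
      exact ENNReal.mul_ne_top (by simp) (D.lintegral_v_lt_top hvC).ne
    · exact (hcm.add_const _).aemeasurable
    · rw [hint, ← D.cost_π₀ hvm hv, lintegral_add_right _ measurable_const, lintegral_const,
        measure_univ, mul_one]
      gcongr
  -- rigidity at `T₂ x`
  have hc1 : ∀ x y w, D.c (x, y, w) = D.c (y, x, w) := D.c_swap12
  have hrig0 : ∀ᵐ x ∂D.μ, ∀ y₀ ∈ D.Y', T₂ x = D.Ψ 0 y₀ → x = D.Ψ 1 y₀ ∨ x = D.Ψ 2 y₀ := by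
    filter_upwards [hS1, hS2, hS3, htight] with x h1 h2 h3 ht y₀ hy₀ e
    have ht' : D.c (D.Ψ 0 y₀, x, T₃ x) + D.K = v (D.Ψ 0 y₀) + v x + v (T₃ x) := by
      rw [← e, ← hc1]
      rw [← ht]
      ring
    rcases D.rigE0 hv h1 h3 hy₀ ht' with h | h
    · exact Or.inl h.1
    · exact Or.inr h.1
  have hrig1 : ∀ᵐ x ∂D.μ, ∀ y₀ ∈ D.Y', T₂ x = D.Ψ 1 y₀ → x = D.Ψ 0 y₀ ∨ x = D.Ψ 2 y₀ := by
    filter_upwards [hS1, hS2, hS3, htight] with x h1 h2 h3 ht y₀ hy₀ e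
    have ht' : D.c (D.Ψ 1 y₀, x, T₃ x) + D.K = v (D.Ψ 1 y₀) + v x + v (T₃ x) := by
      rw [← e, ← hc1]
      rw [← ht]
      ring
    rcases D.rigE1 hv h1 h3 hy₀ ht' with h | h
    · exact Or.inl h.1
    · exact Or.inr h.1
  have himg0 : ∀ W : Set (ℝ × Z), MeasurableSet W → W ⊆ D.Y' → D.μ (D.Ψ 0 '' W) = wa * D.ν W :=
    fun _ h1 h2 => D.μ_image0 h1 h2
  have himg1 : ∀ W : Set (ℝ × Z), MeasurableSet W → W ⊆ D.Y' → D.μ (D.Ψ 1 '' W) = wa * D.ν W :=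
    fun _ h1 h2 => D.μ_image1 h1 h2
  have hF1 : ∀ᵐ y ∂D.ν, T₂ (D.Ψ 1 y) = D.Ψ 0 y := D.full_block hT₂ hT₂μ himg0 himg1 hrig0
  have hF0 : ∀ᵐ y ∂D.ν, T₂ (D.Ψ 0 y) = D.Ψ 1 y := D.full_block hT₂ hT₂μ himg1 himg0 hrig1
  -- consequences for `T₃`
  have hD0 : ∀ᵐ y ∂D.ν, T₃ (D.Ψ 0 y) = D.Ψ 2 y := by
    filter_upwards [D.ae_Y', hF0, D.ae_μ_imp hS2 0, D.ae_μ_imp hS3 0, D.ae_μ_imp htight 0]
      with y hy h1 h2 h3 ht
    have ht' : D.c (D.Ψ 0 y, T₂ (D.Ψ 0 y), T₃ (D.Ψ 0 y)) + D.K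
        = v (D.Ψ 0 y) + v (T₂ (D.Ψ 0 y)) + v (T₃ (D.Ψ 0 y)) := ht.symm
    rcases D.rigE0 hv h2 h3 hy ht' with h | h
    · exact h.2
    · exact absurd (h1.symm.trans h.1) (D.Ψ_disj 1 2 (by decide) y hy y hy)
  have hD1 : ∀ᵐ y ∂D.ν, T₃ (D.Ψ 1 y) = D.Ψ 2 y := by
    filter_upwards [D.ae_Y', hF1, D.ae_μ_imp hS2 1, D.ae_μ_imp hS3 1, D.ae_μ_imp htight 1]
      with y hy h1 h2 h3 ht
    have ht' : D.c (D.Ψ 1 y, T₂ (D.Ψ 1 y), T₃ (D.Ψ 1 y)) + D.K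
        = v (D.Ψ 1 y) + v (T₂ (D.Ψ 1 y)) + v (T₃ (D.Ψ 1 y)) := ht.symm
    rcases D.rigE1 hv h2 h3 hy ht' with h | h
    · exact h.2
    · exact absurd (h1.symm.trans h.1) (D.Ψ_disj 0 2 (by decide) y hy y hy)
  -- mass count
  set W : Set (ℝ × Z) := {y | y ∈ D.Y' ∧ T₃ (D.Ψ 0 y) = D.Ψ 2 y ∧ T₃ (D.Ψ 1 y) = D.Ψ 2 y} with hW
  have hWm : MeasurableSet W :=
    D.Y'_meas.inter ((measurableSet_eq_fun (hT₃.comp (D.Ψ_meas 0)) (D.Ψ_meas 2)).inter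
      (measurableSet_eq_fun (hT₃.comp (D.Ψ_meas 1)) (D.Ψ_meas 2)))
  have hWY : W ⊆ D.Y' := fun y hy => hy.1
  have hWfull : D.ν W = 1 := by
    have : ∀ᵐ y ∂D.ν, y ∈ W := by
      filter_upwards [D.ae_Y', hD0, hD1] with y h1 h2 h3
      exact ⟨h1, h2, h3⟩
    rw [ae_iff] at this
    exact (prob_compl_eq_zero_iff hWm).1 this
  have hA2 := D.meas_image 2 D.Y'_meas Subset.rfl
  have hνY : D.ν D.Y' = 1 := (prob_compl_eq_zero_iff D.Y'_meas).1 (by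
    have := D.ae_Y'
    rwa [ae_iff] at this)
  have h1 : D.μ (T₃ ⁻¹' (D.Ψ 2 '' D.Y')) = wa + wb := by
    have : D.μ (T₃ ⁻¹' (D.Ψ 2 '' D.Y')) = D.μ (D.Ψ 2 '' D.Y') := by
      conv_rhs => rw [← hT₃μ]
      rw [Measure.map_apply hT₃ hA2]
    rw [this, D.μ_image2 D.Y'_meas Subset.rfl, hνY, mul_one]
  have h2 : D.Ψ 0 '' W ∪ D.Ψ 1 '' W ⊆ T₃ ⁻¹' (D.Ψ 2 '' D.Y') := by
    rintro x (⟨y, hy, rfl⟩ | ⟨y, hy, rfl⟩)
    · exact ⟨y, hy.1, hy.2.1.symm⟩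
    · exact ⟨y, hy.1, hy.2.2.symm⟩
  have h3 : D.μ (D.Ψ 0 '' W ∪ D.Ψ 1 '' W) = wa + wa := by
    rw [measure_union _ (D.meas_image 1 hWm hWY), D.μ_image0 hWm hWY, D.μ_image1 hWm hWY, hWfull,
      mul_one]
    rw [Set.disjoint_left]
    rintro _ ⟨y, hy, rfl⟩ ⟨y', hy', e⟩
    exact D.Ψ_disj 1 0 (by decide) y' hy'.1 y hy.1 e
  have h4 : wa + wa ≤ wa + wb := by
    rw [← h3, ← h1]
    exact measure_mono h2
  have h5 : wa ≤ wb := (ENNReal.add_le_add_iff_left wa_ne_top).1 h4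
  exact absurd wb_lt_wa (not_lt.2 h5)

/-! ### Approximation by maps -/

/-- Splitting of the parameter measure. -/
lemma split_ν {e₁ e₂ : ℝ → ℝ} (he₁ : Measurable e₁) (he₂ : Measurable e₂)
    (hsplit : ENNReal.ofReal (2/3) • unitL.map e₁ + ENNReal.ofReal (1/3) • unitL.map e₂ = unitL) :
    wa • D.ν.map (Prod.map e₁ id) + wb • D.ν.map (Prod.map e₂ id) = (wa + wb) • D.ν := by
  haveI := D.νZ_prob
  have h1 : D.ν.map (Prod.map e₁ id) = (unitL.map e₁).prod D.νZ := by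
    unfold ν
    have := Measure.map_prod_map unitL D.νZ he₁ measurable_id
    rw [Measure.map_id] at this
    exact this.symm
  have h2 : D.ν.map (Prod.map e₂ id) = (unitL.map e₂).prod D.νZ := by
    unfold ν
    have := Measure.map_prod_map unitL D.νZ he₂ measurable_id
    rw [Measure.map_id] at this
    exact this.symm
  have h3 : (wa + wb) • D.ν = ((wa + wb) • unitL).prod D.νZ := by
    unfold ν
    rw [Measure.prod_smul_left]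
  rw [h1, h2, h3, ← Measure.prod_smul_left, ← Measure.prod_smul_left, ← Measure.add_prod]
  congr 1
  conv_rhs => rw [← hsplit]
  rw [smul_add, smul_smul, smul_smul, ← wa_split, ← wb_split]

/-- Maps approach the optimal cost. -/
theorem exists_approx {ε : ℝ≥0∞} (hε : 0 < ε) :
    ∃ T₂ T₃ : E → E, Measurable T₂ ∧ Measurable T₃ ∧ D.μ.map T₂ = D.μ ∧ D.μ.map T₃ = D.μ ∧
      ∫⁻ x, D.c (x, T₂ x, T₃ x) ∂D.μ < ∫⁻ p, D.c p ∂D.π₀ + ε := by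
  classical
  -- the small error
  obtain ⟨ε', hε'0, hε'ε, hε't⟩ : ∃ ε' : ℝ≥0∞, 0 < ε' ∧ ε' < ε ∧ ε' ≠ ⊤ := by
    obtain ⟨ε', h1, h2⟩ := ENNReal.lt_iff_exists_nnreal_btwn.1 hε
    exact ⟨ε', h1, h2, ENNReal.coe_ne_top⟩
  obtain ⟨δ₁, hδ₁, hnear1⟩ := D.near1 ε' hε'0
  obtain ⟨δ₂, hδ₂, hnear2⟩ := D.near2 ε' hε'0
  obtain ⟨e₁, e₂, he₁, he₂, hm₁, hm₂, hd₁, hd₂, hi₁, hi₂, hne, hsplit⟩ :=
    exists_split (lt_min hδ₁ hδ₂)
  -- the six sheets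
  let ê₁ : ℝ × Z → ℝ × Z := Prod.map e₁ id
  let ê₂ : ℝ × Z → ℝ × Z := Prod.map e₂ id
  have hê₁m : Measurable ê₁ := he₁.prodMap measurable_id
  have hê₂m : Measurable ê₂ := he₂.prodMap measurable_id
  have hê₁Y : ∀ y ∈ D.Y', ê₁ y ∈ D.Y' := fun y hy => ⟨hm₁ hy.1, hy.2⟩
  have hê₂Y : ∀ y ∈ D.Y', ê₂ y ∈ D.Y' := fun y hy => ⟨hm₂ hy.1, hy.2⟩
  let ι : Fin 6 → Fin 5 := ![0, 1, 2, 3, 4, 2]
  let ê : Fin 6 → (ℝ × Z → ℝ × Z) := ![id, id, ê₁, id, id, ê₂]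
  let Ξ : Fin 6 → ℝ × Z → E := fun i y => D.Ψ (ι i) (ê i y)
  let σ : Fin 6 → Fin 6 := ![1, 2, 0, 4, 5, 3]
  have hêm : ∀ i, Measurable (ê i) := by
    intro i
    fin_cases i
    · exact measurable_id
    · exact measurable_id
    · exact hê₁m
    · exact measurable_id
    · exact measurable_id
    · exact hê₂m
  have hêY : ∀ i, ∀ y ∈ D.Y', ê i y ∈ D.Y' := by
    intro i y hy
    fin_cases i
    · exact hy
    · exact hy
    · exact hê₁Y y hy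
    · exact hy
    · exact hy
    · exact hê₂Y y hy
  have hêinj : ∀ i, Function.Injective (ê i) := by
    intro i
    fin_cases i
    · exact Function.injective_id
    · exact Function.injective_id
    · exact hi₁.prodMap Function.injective_id
    · exact Function.injective_id
    · exact Function.injective_id
    · exact hi₂.prodMap Function.injective_id
  have hΞm : ∀ i, Measurable (Ξ i) := fun i => (D.Ψ_meas (ι i)).comp (hêm i)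
  have hΞi : ∀ i, InjOn (Ξ i) D.Y' := fun i y hy y' hy' h =>
    hêinj i (D.Ψ_inj (ι i) (hêY i y hy) (hêY i y' hy') h)
  have hdec : ∀ i j : Fin 6, i ≠ j → ι i = ι j → (i = 2 ∧ j = 5) ∨ (i = 5 ∧ j = 2) := by decide
  have hΞd : ∀ i j, i ≠ j → ∀ y ∈ D.Y', ∀ y' ∈ D.Y', Ξ i y ≠ Ξ j y' := by
    intro i j hij y hy y' hy' h
    by_cases hι : ι i = ι j
    · have h' : D.Ψ (ι i) (ê i y) = D.Ψ (ι j) (ê j y') := h
      rw [← hι] at h'
      have e := D.Ψ_inj (ι i) (hêY i y hy) (hêY j y' hy') h'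
      rcases hdec i j hij hι with ⟨rfl, rfl⟩ | ⟨rfl, rfl⟩
      · exact hne y.1 y'.1 (congrArg Prod.fst e)
      · exact hne y'.1 y.1 (congrArg Prod.fst e).symm
    · exact D.Ψ_disj (ι i) (ι j) hι _ (hêY i y hy) _ (hêY j y' hy') h
  obtain ⟨T, hTm, hT, -⟩ := exists_glue D.Y'_meas Ξ hΞm hΞi hΞd (fun i => Ξ (σ i))
    (fun i => hΞm (σ i)) id measurable_id
  -- the decomposition of `μ`
  let n : Fin 6 → Measure E := fun i => D.ν.map (Ξ i)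
  have hn0 : n 0 = D.m 0 := rfl
  have hn1' : n 1 = D.m 1 := rfl
  have hn3 : n 3 = D.m 3 := rfl
  have hn4 : n 4 = D.m 4 := rfl
  have hn2 : n 2 = (D.ν.map ê₁).map (D.Ψ 2) := by
    rw [Measure.map_map (D.Ψ_meas 2) hê₁m]
    rfl
  have hn5 : n 5 = (D.ν.map ê₂).map (D.Ψ 2) := by
    rw [Measure.map_map (D.Ψ_meas 2) hê₂m]
    rfl
  have hdecomp : D.μ = wa • (n 0 + n 1 + n 2) + wb • (n 3 + n 4 + n 5) := by
    have hsum : wa • n 2 + wb • n 5 = (wa + wb) • D.m 2 := by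
      have := congrArg (fun ρ : Measure (ℝ × Z) => ρ.map (D.Ψ 2)) (D.split_ν he₁ he₂ hsplit)
      simp only [Measure.map_add _ _ (D.Ψ_meas 2), Measure.map_smul] at this
      rw [hn2, hn5]
      exact this
    unfold μ
    rw [hn0, hn1', hn3, hn4]
    simp only [smul_add, add_smul] at hsum ⊢
    calc _ = wa • D.m 0 + wa • D.m 1 + wb • D.m 3 + wb • D.m 4 + (wa • D.m 2 + wb • D.m 2) := by
          abel
      _ = _ := by rw [← hsum]; abel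
  -- `T` pushes each piece to the next one
  have hTn : ∀ i, (n i).map T = n (σ i) := by
    intro i
    simp only [n]
    rw [Measure.map_map hTm (hΞm i)]
    apply Measure.map_congr
    filter_upwards [D.ae_Y'] with y hy
    exact hT i y hy
  have hTμ : D.μ.map T = D.μ := by
    conv_rhs => rw [hdecomp]
    rw [hdecomp, Measure.map_add _ _ hTm, Measure.map_smul, Measure.map_smul,
      Measure.map_add _ _ hTm, Measure.map_add _ _ hTm, Measure.map_add _ _ hTm,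
      Measure.map_add _ _ hTm, hTn 0, hTn 1, hTn 2, hTn 3, hTn 4, hTn 5]
    have s0 : σ 0 = 1 := rfl
    have s1 : σ 1 = 2 := rfl
    have s2 : σ 2 = 0 := rfl
    have s3 : σ 3 = 4 := rfl
    have s4 : σ 4 = 5 := rfl
    have s5 : σ 5 = 3 := rfl
    rw [s0, s1, s2, s3, s4, s5]
    congr 2 <;> abel
  have hT3μ : D.μ.map (T ∘ T) = D.μ := by
    rw [← Measure.map_map hTm hTm, hTμ, hTμ]
  refine ⟨T, T ∘ T, hTm, hTm.comp hTm, hTμ, hT3μ, ?_⟩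
  -- the cost
  have hgm : Measurable fun x => D.c (x, T x, (T ∘ T) x) :=
    D.c_meas.comp (measurable_id.prodMk (hTm.prodMk (hTm.comp hTm)))
  have hpiece : ∀ i, ∫⁻ x, D.c (x, T x, (T ∘ T) x) ∂(n i)
      = ∫⁻ y, D.c (Ξ i y, Ξ (σ i) y, Ξ (σ (σ i)) y) ∂D.ν := by
    intro i
    simp only [n]
    rw [lintegral_map hgm (hΞm i)]
    apply lintegral_congr_ae
    filter_upwards [D.ae_Y'] with y hy
    simp only [Function.comp]
    rw [hT i y hy, hT (σ i) y hy]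
  set A := ∫⁻ y, D.c (Ξ 0 y, Ξ 1 y, Ξ 2 y) ∂D.ν with hA
  set B := ∫⁻ y, D.c (Ξ 3 y, Ξ 4 y, Ξ 5 y) ∂D.ν with hB
  have hp0 : ∫⁻ x, D.c (x, T x, (T ∘ T) x) ∂(n 0) = A := hpiece 0
  have hp1 : ∫⁻ x, D.c (x, T x, (T ∘ T) x) ∂(n 1) = A := by
    rw [hpiece 1, hA]
    exact lintegral_congr fun y => (D.c_cyc _ _ _).symm
  have hp2 : ∫⁻ x, D.c (x, T x, (T ∘ T) x) ∂(n 2) = A := by
    rw [hpiece 2, hA]
    exact lintegral_congr fun y => (D.c_cyc _ _ _)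
  have hp3 : ∫⁻ x, D.c (x, T x, (T ∘ T) x) ∂(n 3) = B := hpiece 3
  have hp4 : ∫⁻ x, D.c (x, T x, (T ∘ T) x) ∂(n 4) = B := by
    rw [hpiece 4, hB]
    exact lintegral_congr fun y => (D.c_cyc _ _ _).symm
  have hp5 : ∫⁻ x, D.c (x, T x, (T ∘ T) x) ∂(n 5) = B := by
    rw [hpiece 5, hB]
    exact lintegral_congr fun y => (D.c_cyc _ _ _)
  have hcost : ∫⁻ x, D.c (x, T x, (T ∘ T) x) ∂D.μ = 3 * wa * A + 3 * wb * B := by
    rw [hdecomp, lintegral_add_measure, lintegral_smul_measure, lintegral_smul_measure,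
      lintegral_add_measure, lintegral_add_measure, lintegral_add_measure, lintegral_add_measure,
      hp0, hp1, hp2, hp3, hp4, hp5]
    simp only [smul_eq_mul]
    ring
  have hAle : A ≤ ∫⁻ y, D.c (D.F1 y) ∂D.ν + ε' := by
    have : ∫⁻ y, (D.c (D.F1 y) + ε') ∂D.ν = ∫⁻ y, D.c (D.F1 y) ∂D.ν + ε' := by
      rw [lintegral_add_right _ measurable_const, lintegral_const, measure_univ, mul_one]
    rw [← this]
    apply lintegral_mono_ae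
    filter_upwards [D.ae_Y'] with y hy
    obtain ⟨w, z⟩ := y
    exact hnear1 w hy.1 (e₁ w) (hm₁ hy.1) z hy.2 (lt_of_lt_of_le (hd₁ w) (min_le_left _ _))
  have hBle : B ≤ ∫⁻ y, D.c (D.G1 y) ∂D.ν + ε' := by
    have : ∫⁻ y, (D.c (D.G1 y) + ε') ∂D.ν = ∫⁻ y, D.c (D.G1 y) ∂D.ν + ε' := by
      rw [lintegral_add_right _ measurable_const, lintegral_const, measure_univ, mul_one]
    rw [← this]
    apply lintegral_mono_ae
    filter_upwards [D.ae_Y'] with y hy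
    obtain ⟨w, z⟩ := y
    have h := hnear2 w hy.1 (e₂ w) (hm₂ hy.1) z hy.2 (lt_of_lt_of_le (hd₂ w) (min_le_right _ _))
    calc D.c (Ξ 3 (w, z), Ξ 4 (w, z), Ξ 5 (w, z)) = D.c (Ξ 5 (w, z), Ξ 3 (w, z), Ξ 4 (w, z)) :=
          (D.c_cyc _ _ _).symm
      _ ≤ _ := h
  have hfin := D.cost_π₀_lt_top
  rw [hcost]
  calc 3 * wa * A + 3 * wb * B
      ≤ 3 * wa * (∫⁻ y, D.c (D.F1 y) ∂D.ν + ε') + 3 * wb * (∫⁻ y, D.c (D.G1 y) ∂D.ν + ε') := by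
        gcongr
    _ = ∫⁻ p, D.c p ∂D.π₀ + ε' := by
        rw [D.lintegral_π₀, mul_add, mul_add]
        have : 3 * wa * ε' + 3 * wb * ε' = ε' := by rw [← add_mul, wsum, one_mul]
        calc _ = 3 * wa * ∫⁻ y, D.c (D.F1 y) ∂D.ν + 3 * wb * ∫⁻ y, D.c (D.G1 y) ∂D.ν
              + (3 * wa * ε' + 3 * wb * ε') := by ring
          _ = _ := by rw [this]
    _ < ∫⁻ p, D.c p ∂D.π₀ + ε := ENNReal.add_lt_add_left hfin.ne hε'ε

end SheetData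

end Crest.Agent.Lib.MMOT
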