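import Mathlib

/-!
# Polar coordinates on `ℝ^(n+2)` adapted to an axis

`x = r (cos α e₀ + sin α J ξ)`, with `r > 0`, `α ∈ (0, π)` and `ξ` in the unit sphere of
`ℝ^(n+1)`.
-/

set_option linter.style.haveILetI false
set_option linter.unusedSectionVars false

namespace Crest.Agent.Lib.MMOT

open MeasureTheory Set Metric Real
open scoped ENNReal

/-- The ambient space. -/
abbrev EE (n : ℕ) := EuclideanSpace ℝ (Fin (n + 2))
/-- The space orthogonal to the axis. -/
abbrev FF (n : ℕ) := EuclideanSpace ℝ (Fin (n + 1))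
/-- The unit sphere of that space. -/
abbrev SS (n : ℕ) := Metric.sphere (0 : FF n) 1

variable {n : ℕ}

/-- The axis. -/
noncomputable def e0 (n : ℕ) : EE n := EuclideanSpace.single 0 1

/-- The embedding of the orthogonal complement. -/
noncomputable def emb (y : FF n) : EE n := WithLp.toLp 2 (Fin.cons 0 (WithLp.ofLp y))

@[simp] lemma emb_zero_coord (y : FF n) : emb y 0 = 0 := rfl
@[simp] lemma emb_succ_coord (y : FF n) (i : Fin (n + 1)) : emb y i.succ = y i := rfl

lemma e0_zero_coord : (e0 n) 0 = 1 := by simp [e0]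
lemma e0_succ_coord (i : Fin (n + 1)) : (e0 n) i.succ = 0 := by
  simp [e0, Fin.succ_ne_zero]

lemma emb_add (y y' : FF n) : emb (y + y') = emb y + emb y' := by
  ext i
  refine Fin.cases ?_ (fun j => ?_) i
  · simp
  · simp

lemma emb_smul (a : ℝ) (y : FF n) : emb (a • y) = a • emb y := by
  ext i
  refine Fin.cases ?_ (fun j => ?_) i
  · simp
  · simp

lemma inner_emb_emb (y y' : FF n) : inner ℝ (emb y) (emb y') = inner ℝ y y' := by
  simp only [PiLp.inner_apply, Fin.sum_univ_succ (n := n + 1)]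
  simp

lemma inner_e0_emb (y : FF n) : inner ℝ (e0 n) (emb y) = 0 := by
  simp only [PiLp.inner_apply, Fin.sum_univ_succ (n := n + 1)]
  simp [e0_succ_coord]

lemma norm_e0 : ‖e0 n‖ = 1 := by simp [e0]

lemma inner_e0_e0 : inner ℝ (e0 n) (e0 n) = 1 := by
  rw [real_inner_self_eq_norm_sq, norm_e0]; norm_num

lemma norm_emb (y : FF n) : ‖emb y‖ = ‖y‖ := by
  have h : ‖emb y‖ ^ 2 = ‖y‖ ^ 2 := by
    rw [← real_inner_self_eq_norm_sq, ← real_inner_self_eq_norm_sq, inner_emb_emb]
  exact (sq_eq_sq₀ (norm_nonneg _) (norm_nonneg _)).1 h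

lemma continuous_emb : Continuous (emb : FF n → EE n) := by
  unfold emb
  apply (PiLp.continuous_toLp 2 _).comp
  refine continuous_pi fun i => ?_
  refine Fin.cases ?_ (fun j => ?_) i
  · simpa using continuous_const
  · simpa using (PiLp.continuous_apply 2 _ j)

lemma emb_injective : Function.Injective (emb : FF n → EE n) := by
  intro y y' h
  ext i
  have := congrArg (fun x : EE n => x i.succ) h
  simpa using this

/-- The polar parametrisation. -/
noncomputable def vv (α : ℝ) (ξ : FF n) : EE n := cos α • e0 n + sin α • emb ξ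

/-- Linear coordinates for `ℝ × ℝ^(n+1) → ℝ^(n+2)`. -/
noncomputable def gg (p : ℝ × FF n) : EE n := p.1 • e0 n + emb p.2

lemma gg_eq (p : ℝ × FF n) :
    gg p = WithLp.toLp 2 ((MeasurableEquiv.piFinSuccAbove (fun _ : Fin (n + 2) => ℝ) 0).symm
      (p.1, WithLp.ofLp p.2)) := by
  ext i
  refine Fin.cases ?_ (fun j => ?_) i
  · simp [gg, e0_zero_coord, MeasurableEquiv.piFinSuccAbove]
  · simp [gg, e0_succ_coord, MeasurableEquiv.piFinSuccAbove]

lemma measurePreserving_gg : MeasurePreserving (gg : ℝ × FF n → EE n) := by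
  have h1 : MeasurePreserving (fun p : ℝ × FF n => (p.1, WithLp.ofLp p.2))
      (volume : Measure (ℝ × FF n)) (volume : Measure (ℝ × (Fin (n + 1) → ℝ))) :=
    (MeasurePreserving.id (volume : Measure ℝ)).prod (PiLp.volume_preserving_ofLp (Fin (n + 1)))
  have h2 := (volume_preserving_piFinSuccAbove (fun _ : Fin (n + 2) => ℝ) 0).symm
  have h3 := PiLp.volume_preserving_toLp (Fin (n + 2))
  have := h3.comp (h2.comp h1)
  have e : (gg : ℝ × FF n → EE n) = _ := funext gg_eq
  rw [e]
  exact this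

/-- The measure on the sphere. -/
noncomputable def sph (n : ℕ) : Measure (SS n) := (volume : Measure (FF n)).toSphere

instance : IsFiniteMeasure (sph n) := by unfold sph; infer_instance

/-- Polar coordinates on `ℝ^(n+1)`. -/
lemma lintegral_polar_FF (g : FF n → ℝ≥0∞) (hg : Measurable g) :
    ∫⁻ y, g y = ∫⁻ ξ, (∫⁻ ρ in Ioi (0:ℝ), ENNReal.ofReal (ρ ^ n) * g (ρ • (ξ : FF n))) ∂(sph n) := by
  have hmp := Measure.measurePreserving_homeomorphUnitSphereProd (volume : Measure (FF n))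
  have hdim : Module.finrank ℝ (FF n) - 1 = n := by simp
  rw [hdim] at hmp
  have h0 : (volume : Measure (FF n)) {0} = 0 := measure_singleton _
  have e1 : ∫⁻ y, g y = ∫⁻ y in ({0}ᶜ : Set (FF n)), g y := by
    rw [Measure.restrict_eq_self_of_ae_mem]
    rw [ae_iff]
    simp
  have hm : MeasurableSet ({0}ᶜ : Set (FF n)) := (measurableSet_singleton _).compl
  have e2 : ∫⁻ y in ({0}ᶜ : Set (FF n)), g y
      = ∫⁻ y : ({0}ᶜ : Set (FF n)), g (y : FF n) ∂(Measure.comap Subtype.val volume) := by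
    rw [lintegral_subtype_comap hm]
  let G : SS n × Ioi (0:ℝ) → ℝ≥0∞ := fun p => g ((p.2 : ℝ) • (p.1 : FF n))
  have hGm : Measurable G := by
    apply hg.comp
    exact (measurable_subtype_coe.comp measurable_snd).smul (measurable_subtype_coe.comp measurable_fst)
  have e3 : ∫⁻ y : ({0}ᶜ : Set (FF n)), g (y : FF n) ∂(Measure.comap Subtype.val volume)
      = ∫⁻ p, G p ∂((sph n).prod (Measure.volumeIoiPow n)) := by
    refine Eq.trans ?_ (hmp.lintegral_comp hGm)
    refine lintegral_congr fun y => ?_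
    have := homeomorphUnitSphereProd_symm_apply_coe (FF n)
      (homeomorphUnitSphereProd (FF n) y)
    simp only [Homeomorph.symm_apply_apply] at this
    simp only [G]
    rw [← this]
  rw [e1, e2, e3, lintegral_prod _ hGm.aemeasurable]
  refine lintegral_congr fun ξ => ?_
  have hmeas : Measurable fun r : Ioi (0:ℝ) => ENNReal.ofReal ((r:ℝ) ^ n) :=
    ENNReal.measurable_ofReal.comp ((measurable_subtype_coe).pow_const n)
  unfold Measure.volumeIoiPow
  have hG2 : Measurable fun r => G (ξ, r) := hGm.comp measurable_prodMk_left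
  rw [lintegral_withDensity_eq_lintegral_mul _ hmeas hG2]
  simp only [Pi.mul_apply]
  have e4 := lintegral_subtype_comap (μ := volume) (measurableSet_Ioi (a := (0:ℝ)))
    (fun ρ : ℝ => ENNReal.ofReal (ρ ^ n) * g (ρ • (ξ : FF n)))
  exact e4

/-- The polar parametrisation with radius. -/
noncomputable def PhiP (r α : ℝ) (ξ : FF n) : EE n := r • vv α ξ

lemma gg_polar (r α : ℝ) (ξ : FF n) : gg (r * cos α, (r * sin α) • ξ) = PhiP r α ξ := by
  unfold gg PhiP vv
  simp only [emb_smul, smul_add, smul_smul]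

lemma measurable_gg : Measurable (gg : ℝ × FF n → EE n) := measurePreserving_gg.measurable

/-- Polar coordinates on the half plane. -/
lemma lintegral_halfplane (G : ℝ × ℝ → ℝ≥0∞) (hG : Measurable G) :
    ∫⁻ a : ℝ, ∫⁻ ρ in Ioi (0:ℝ), G (a, ρ)
      = ∫⁻ r in Ioi (0:ℝ), ∫⁻ α in Ioo (0:ℝ) π,
          ENNReal.ofReal r * G (r * cos α, r * sin α) := by
  let G' : ℝ × ℝ → ℝ≥0∞ := fun p => (Ioi (0:ℝ)).indicator (fun ρ => G (p.1, ρ)) p.2
  have hG'm : Measurable G' := by
    have : G' = (Prod.snd ⁻¹' (Ioi (0:ℝ))).indicator G := by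
      funext p
      by_cases h : 0 < p.2
      · simp only [G']
        rw [Set.indicator_of_mem (show p.2 ∈ Ioi (0:ℝ) from h),
          Set.indicator_of_mem (show p ∈ Prod.snd ⁻¹' Ioi (0:ℝ) from h)]
      · simp only [G']
        rw [Set.indicator_of_notMem (show p.2 ∉ Ioi (0:ℝ) from h),
          Set.indicator_of_notMem (show p ∉ Prod.snd ⁻¹' Ioi (0:ℝ) from h)]
    rw [this]
    exact hG.indicator (measurable_snd measurableSet_Ioi)
  have e1 : ∫⁻ a : ℝ, ∫⁻ ρ in Ioi (0:ℝ), G (a, ρ) = ∫⁻ p, G' p := by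
    rw [Measure.volume_eq_prod, lintegral_prod _ hG'm.aemeasurable]
    refine lintegral_congr fun a => ?_
    rw [← lintegral_indicator measurableSet_Ioi]
  rw [e1, ← lintegral_comp_polarCoord_symm G']
  have htar : polarCoord.target = Ioi (0:ℝ) ×ˢ Ioo (-π) π := polarCoord_target
  rw [htar, Measure.volume_eq_prod, ← Measure.prod_restrict]
  have hm2 : Measurable fun p : ℝ × ℝ => ENNReal.ofReal p.1 • G' (polarCoord.symm p) := by
    have : Measurable (polarCoord.symm : ℝ × ℝ → ℝ × ℝ) := by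
      have : (polarCoord.symm : ℝ × ℝ → ℝ × ℝ) = fun p => (p.1 * cos p.2, p.1 * sin p.2) := rfl
      rw [this]
      fun_prop
    exact (ENNReal.measurable_ofReal.comp measurable_fst).smul (hG'm.comp this)
  rw [lintegral_prod _ hm2.aemeasurable]
  refine setLIntegral_congr_fun measurableSet_Ioi fun r hr => ?_
  have hr' : (0:ℝ) < r := hr
  -- the integrand vanishes for nonpositive angles
  have hsub : Ioo (0:ℝ) π ⊆ Ioo (-π) π := fun x hx => ⟨by linarith [hx.1, pi_pos], hx.2⟩
  have hzero : ∀ α ∈ Ioo (-π) π, α ∉ Ioo (0:ℝ) π →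
      ENNReal.ofReal r • G' (polarCoord.symm (r, α)) = 0 := by
    intro α hα hα'
    have hα0 : α ≤ 0 := by
      by_contra h
      exact hα' ⟨not_le.1 h, hα.2⟩
    have hs : sin α ≤ 0 := sin_nonpos_of_nonpos_of_neg_pi_le hα0 hα.1.le
    have : (polarCoord.symm (r, α)).2 ≤ 0 := by
      have : (polarCoord.symm (r, α)).2 = r * sin α := rfl
      rw [this]
      exact mul_nonpos_of_nonneg_of_nonpos hr'.le hs
    simp only [G', smul_eq_mul]
    rw [indicator_of_notMem (by simpa using this)]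
    simp
  calc ∫⁻ α in Ioo (-π) π, ENNReal.ofReal r • G' (polarCoord.symm (r, α))
      = ∫⁻ α in Ioo (0:ℝ) π, ENNReal.ofReal r • G' (polarCoord.symm (r, α)) := by
        have hu : Ioo (-π) π = Ioo (0:ℝ) π ∪ (Ioo (-π) π \ Ioo (0:ℝ) π) :=
          (union_sdiff_cancel hsub).symm
        conv_lhs => rw [hu]
        rw [lintegral_union (measurableSet_Ioo.diff measurableSet_Ioo) disjoint_sdiff_right]
        have : ∫⁻ α in Ioo (-π) π \ Ioo (0:ℝ) π, ENNReal.ofReal r • G' (polarCoord.symm (r, α)) = 0 := by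
          rw [setLIntegral_congr_fun (g := fun _ => 0) (measurableSet_Ioo.diff measurableSet_Ioo)]
          · simp
          · intro α hα
            exact hzero α hα.1 hα.2
        rw [this, add_zero]
    _ = _ := by
        refine setLIntegral_congr_fun measurableSet_Ioo fun α hα => ?_
        have hs : 0 < sin α := sin_pos_of_pos_of_lt_pi hα.1 hα.2
        have hpos : 0 < r * sin α := mul_pos hr' hs
        simp only [G', smul_eq_mul]
        have e : polarCoord.symm (r, α) = (r * cos α, r * sin α) := rfl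
        rw [e, indicator_of_mem (show r * sin α ∈ Ioi (0:ℝ) from hpos)]

/-- The master formula for polar coordinates with axis. -/
theorem lintegral_polar (f : EE n → ℝ≥0∞) (hf : Measurable f) :
    ∫⁻ x, f x = ∫⁻ ξ, (∫⁻ r in Ioi (0:ℝ), ∫⁻ α in Ioo (0:ℝ) π,
        ENNReal.ofReal (r ^ (n + 1) * sin α ^ n) * f (PhiP r α (ξ : FF n))) ∂(sph n) := by
  have h1 : ∫⁻ x, f x = ∫⁻ p : ℝ × FF n, f (gg p) := (measurePreserving_gg.lintegral_comp hf).symm
  have hfg : Measurable fun p : ℝ × FF n => f (gg p) := hf.comp measurable_gg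
  rw [h1, Measure.volume_eq_prod, lintegral_prod _ hfg.aemeasurable]
  have h2 : ∀ a : ℝ, ∫⁻ y : FF n, f (gg (a, y)) = ∫⁻ ξ, (∫⁻ ρ in Ioi (0:ℝ),
      ENNReal.ofReal (ρ ^ n) * f (gg (a, ρ • (ξ : FF n)))) ∂(sph n) := fun a =>
    lintegral_polar_FF (fun y => f (gg (a, y))) (hfg.comp measurable_prodMk_left)
  simp_rw [h2]
  -- Tonelli in `a` and `ξ`
  let H : ℝ × ℝ × SS n → ℝ≥0∞ := fun p =>
    (Ioi (0:ℝ)).indicator (fun ρ => ENNReal.ofReal (ρ ^ n) * f (gg (p.1, ρ • (p.2.2 : FF n)))) p.2.1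
  have hgm : Measurable fun p : ℝ × ℝ × SS n =>
      ENNReal.ofReal (p.2.1 ^ n) * f (gg (p.1, p.2.1 • (p.2.2 : FF n))) := by
    apply Measurable.mul
    · exact ENNReal.measurable_ofReal.comp ((measurable_fst.comp measurable_snd).pow_const n)
    · apply hfg.comp
      exact measurable_fst.prodMk ((measurable_fst.comp measurable_snd).smul
        (measurable_subtype_coe.comp (measurable_snd.comp measurable_snd)))
  have e0 : ∀ a : ℝ, ∀ ξ : SS n, ∫⁻ ρ in Ioi (0:ℝ),
      ENNReal.ofReal (ρ ^ n) * f (gg (a, ρ • (ξ : FF n)))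
      = ∫⁻ ρ, ENNReal.ofReal (ρ ^ n) * f (gg (a, ρ • (ξ : FF n)))
          ∂(volume.restrict (Ioi (0:ℝ))) := fun _ _ => rfl
  have hswap : ∫⁻ a : ℝ, ∫⁻ ξ, (∫⁻ ρ in Ioi (0:ℝ),
      ENNReal.ofReal (ρ ^ n) * f (gg (a, ρ • (ξ : FF n)))) ∂(sph n)
      = ∫⁻ ξ, (∫⁻ a : ℝ, ∫⁻ ρ in Ioi (0:ℝ),
      ENNReal.ofReal (ρ ^ n) * f (gg (a, ρ • (ξ : FF n)))) ∂(sph n) := by
    have hmeas : Measurable fun q : ℝ × SS n => ∫⁻ ρ in Ioi (0:ℝ),
        ENNReal.ofReal (ρ ^ n) * f (gg (q.1, ρ • (q.2 : FF n))) := by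
      have : Measurable fun q : (ℝ × SS n) × ℝ =>
          ENNReal.ofReal (q.2 ^ n) * f (gg (q.1.1, q.2 • (q.1.2 : FF n))) :=
        hgm.comp ((measurable_fst.comp measurable_fst).prodMk (measurable_snd.prodMk
          (measurable_snd.comp measurable_fst)))
      exact this.lintegral_prod_right'
    exact lintegral_lintegral_swap hmeas.aemeasurable
  rw [hswap]
  refine lintegral_congr fun ξ => ?_
  have hGm : Measurable fun p : ℝ × ℝ =>
      ENNReal.ofReal (p.2 ^ n) * f (gg (p.1, p.2 • (ξ : FF n))) := by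
    have : Measurable fun p : ℝ × ℝ => ((p.1, p.2, ξ) : ℝ × ℝ × SS n) :=
      measurable_fst.prodMk (measurable_snd.prodMk measurable_const)
    exact hgm.comp this
  have := lintegral_halfplane _ hGm
  rw [this]
  refine setLIntegral_congr_fun measurableSet_Ioi fun r hr => ?_
  refine setLIntegral_congr_fun measurableSet_Ioo fun α hα => ?_
  have hr' : (0:ℝ) < r := hr
  have hs : 0 < sin α := sin_pos_of_pos_of_lt_pi hα.1 hα.2
  simp only
  rw [gg_polar, ← mul_assoc, ← ENNReal.ofReal_mul hr'.le]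
  congr 2
  ring

end Crest.Agent.Lib.MMOT
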