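import Mathlib
import Crest.Agent.Lib.MMOT.Polar

/-!
# Densities of radial sheets
-/

set_option linter.style.haveILetI false
set_option linter.unusedSectionVars false

namespace Crest.Agent.Lib.MMOT

open MeasureTheory Set Metric Real
open scoped ENNReal ContDiff Topology

/-- Inverse function theorem in the form used below. -/
lemma contDiffAt_inverse {ϱ ψ : ℝ → ℝ} {U : Set ℝ} {τ₀ : ℝ} (hU : IsOpen U) (hτ₀ : τ₀ ∈ U)
    (hs : ContDiffAt ℝ ∞ ϱ τ₀) (hd : deriv ϱ τ₀ ≠ 0) (hψ : ∀ τ ∈ U, ψ (ϱ τ) = τ) :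
    ContDiffAt ℝ ∞ ψ (ϱ τ₀) := by
  have hn : (∞ : WithTop ℕ∞) ≠ 0 := by simp
  have hda : HasDerivAt ϱ (deriv ϱ τ₀) τ₀ := (hs.differentiableAt hn).hasDerivAt
  have hf' := hda.hasFDerivAt_equiv hd
  have hg := hs.to_localInverse hf' hn
  set g := hs.localInverse hf' hn with hgdef
  have hright : ∀ᶠ r in 𝓝 (ϱ τ₀), ϱ (g r) = r :=
    (hs.hasStrictFDerivAt' hf' hn).eventually_right_inverse
  have hleft : g (ϱ τ₀) = τ₀ := hs.localInverse_apply_image hf' hn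
  have hcont : ContinuousAt g (ϱ τ₀) := hg.continuousAt
  have hev : ∀ᶠ r in 𝓝 (ϱ τ₀), g r ∈ U := by
    apply hcont.eventually_mem
    rw [hleft]
    exact hU.mem_nhds hτ₀
  refine hg.congr_of_eventuallyEq ?_
  filter_upwards [hright, hev] with r h1 h2
  have := hψ (g r) h2
  rw [h1] at this
  exact this

/-- The bump data. -/
structure Bumps where
  τ₁ : ℝ
  τ₂ : ℝ
  γ₁ : ℝ
  γ₂ : ℝ
  hτ : τ₁ < τ₂
  hγ : γ₁ < γ₂
  h₀ : ℝ → ℝ
  k₀ : ℝ → ℝ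
  h₀_smooth : ContDiff ℝ ∞ h₀
  k₀_smooth : ContDiff ℝ ∞ k₀
  h₀_nonneg : ∀ τ, 0 ≤ h₀ τ
  k₀_nonneg : ∀ γ, 0 ≤ k₀ γ
  h₀_pos : ∀ τ, h₀ τ ≠ 0 ↔ τ ∈ Ioo τ₁ τ₂
  k₀_pos : ∀ γ, k₀ γ ≠ 0 ↔ γ ∈ Ioo γ₁ γ₂
  h₀_int : ∫⁻ τ, ENNReal.ofReal (h₀ τ ^ 2) = 1
  k₀_int : ∫⁻ γ, ENNReal.ofReal (k₀ γ ^ 2) = 1

/-- The data of a radial sheet. -/
structure SheetSpec (B : Bumps) where
  ϱ : ℝ → ℝ
  ϑ : ℝ → ℝ
  σs : ℝ
  hσs : σs = 1 ∨ σs = -1
  U : Set ℝ
  hU : IsOpen U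
  hTU : Icc B.τ₁ B.τ₂ ⊆ U
  ϱ_meas : Measurable ϱ
  ϑ_meas : Measurable ϑ
  ϱ_smooth : ∀ τ ∈ U, ContDiffAt ℝ ∞ ϱ τ
  ϑ_smooth : ∀ τ ∈ U, ContDiffAt ℝ ∞ ϑ τ
  ϱ_deriv : ∀ τ ∈ U, deriv ϱ τ ≠ 0
  ϱ_inj : InjOn ϱ U
  ϱ_pos : ∀ τ ∈ U, 0 < ϱ τ
  α₁ : ℝ
  α₂ : ℝ
  hα₁ : 0 < α₁
  hα₂ : α₂ < π
  hα : ∀ τ ∈ Icc B.τ₁ B.τ₂, ∀ γ ∈ Icc B.γ₁ B.γ₂, ϑ τ + σs * γ ∈ Icc α₁ α₂

namespace SheetSpec

variable {B : Bumps} (S : SheetSpec B) {n : ℕ}

lemma σs_sq : S.σs * S.σs = 1 := by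
  rcases S.hσs with h | h <;> rw [h] <;> norm_num

lemma hα₁₂ : S.α₁ ≤ S.α₂ :=
  le_trans (S.hα B.τ₁ ⟨le_rfl, B.hτ.le⟩ B.γ₁ ⟨le_rfl, B.hγ.le⟩).1
    (S.hα B.τ₁ ⟨le_rfl, B.hτ.le⟩ B.γ₁ ⟨le_rfl, B.hγ.le⟩).2

open Classical in
/-- The inverse of the radial function. -/
noncomputable def ψ (r : ℝ) : ℝ :=
  if r ∈ S.ϱ '' S.U then Function.invFunOn S.ϱ S.U r else B.τ₁

lemma ψ_mem_of_mem {r : ℝ} (hr : r ∈ S.ϱ '' S.U) : S.ψ r ∈ S.U ∧ S.ϱ (S.ψ r) = r := by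
  unfold ψ
  rw [if_pos hr]
  exact ⟨Function.invFunOn_mem hr, Function.invFunOn_eq hr⟩

lemma ψ_apply {τ : ℝ} (hτ : τ ∈ S.U) : S.ψ (S.ϱ τ) = τ := by
  have h := S.ψ_mem_of_mem (mem_image_of_mem S.ϱ hτ)
  exact S.ϱ_inj h.1 hτ h.2

lemma ψ_of_h₀ {r : ℝ} (h : B.h₀ (S.ψ r) ≠ 0) :
    S.ψ r ∈ Ioo B.τ₁ B.τ₂ ∧ S.ϱ (S.ψ r) = r := by
  have hT := (B.h₀_pos _).1 h
  refine ⟨hT, ?_⟩
  by_cases hr : r ∈ S.ϱ '' S.U
  · exact (S.ψ_mem_of_mem hr).2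
  · unfold ψ at hT
    rw [if_neg hr] at hT
    exact absurd hT.1 (lt_irrefl _)

lemma Ioo_sub_U : Ioo B.τ₁ B.τ₂ ⊆ S.U := fun _ hx => S.hTU ⟨hx.1.le, hx.2.le⟩

/-- The angular range of the support is inside `(0, π)`. -/
lemma angle_mem {τ γ : ℝ} (hτ : τ ∈ Ioo B.τ₁ B.τ₂) (hγ : γ ∈ Ioo B.γ₁ B.γ₂) :
    S.ϑ τ + S.σs * γ ∈ Ioo (0:ℝ) π := by
  have := S.hα τ ⟨hτ.1.le, hτ.2.le⟩ γ ⟨hγ.1.le, hγ.2.le⟩
  exact ⟨lt_of_lt_of_le S.hα₁ this.1, lt_of_le_of_lt this.2 S.hα₂⟩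

/-- The two dimensional change of variables. -/
lemma two_dim (F : ℝ × ℝ → ℝ≥0∞) :
    ∫⁻ r in Ioi (0:ℝ), ∫⁻ α in Ioo (0:ℝ) π,
        ENNReal.ofReal (B.h₀ (S.ψ r) ^ 2 * B.k₀ (S.σs * (α - S.ϑ (S.ψ r))) ^ 2 /
          |deriv S.ϱ (S.ψ r)|) * F (r, α)
      = ∫⁻ τ, ENNReal.ofReal (B.h₀ τ ^ 2) *
          ∫⁻ γ, ENNReal.ofReal (B.k₀ γ ^ 2) * F (S.ϱ τ, S.ϑ τ + S.σs * γ) := by
  set T := Ioo B.τ₁ B.τ₂ with hT
  -- inner integral for a fixed `r = ϱ τ`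
  have hin : ∀ τ ∈ T, ∫⁻ α in Ioo (0:ℝ) π,
      ENNReal.ofReal (B.h₀ τ ^ 2 * B.k₀ (S.σs * (α - S.ϑ τ)) ^ 2 / |deriv S.ϱ τ|) * F (S.ϱ τ, α)
      = ENNReal.ofReal (B.h₀ τ ^ 2 / |deriv S.ϱ τ|) *
        ∫⁻ γ, ENNReal.ofReal (B.k₀ γ ^ 2) * F (S.ϱ τ, S.ϑ τ + S.σs * γ) := by
    intro τ hτ
    have hnn : 0 ≤ B.h₀ τ ^ 2 / |deriv S.ϱ τ| := by positivity
    have e1 : ∀ α, ENNReal.ofReal (B.h₀ τ ^ 2 * B.k₀ (S.σs * (α - S.ϑ τ)) ^ 2 / |deriv S.ϱ τ|) * F (S.ϱ τ, α)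
        = ENNReal.ofReal (B.h₀ τ ^ 2 / |deriv S.ϱ τ|) *
          (ENNReal.ofReal (B.k₀ (S.σs * (α - S.ϑ τ)) ^ 2) * F (S.ϱ τ, α)) := by
      intro α
      rw [← mul_assoc, ← ENNReal.ofReal_mul hnn]
      congr 2
      ring
    simp_rw [e1]
    rw [lintegral_const_mul' _ _ ENNReal.ofReal_ne_top]
    congr 1
    -- extend the integral to the whole line
    rw [setLIntegral_eq_of_support_subset]
    · -- translation and reflection
      let G : ℝ → ℝ≥0∞ := fun α =>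
        ENNReal.ofReal (B.k₀ (S.σs * (α - S.ϑ τ)) ^ 2) * F (S.ϱ τ, α)
      have hG : ∀ γ, ENNReal.ofReal (B.k₀ γ ^ 2) * F (S.ϱ τ, S.ϑ τ + S.σs * γ)
          = G (S.ϑ τ + S.σs * γ) := by
        intro γ
        simp only [G]
        congr 3
        have : S.σs * (S.ϑ τ + S.σs * γ - S.ϑ τ) = (S.σs * S.σs) * γ := by ring
        rw [this, S.σs_sq, one_mul]
      simp_rw [hG]
      have key : ∫⁻ γ, G (S.ϑ τ + S.σs * γ) = ∫⁻ α, G α := by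
        rcases S.hσs with h | h
        · have e : ∀ γ, S.ϑ τ + S.σs * γ = S.ϑ τ + γ := fun γ => by rw [h, one_mul]
          simp_rw [e]
          exact lintegral_add_left_eq_self (μ := volume) G (S.ϑ τ)
        · have e : ∀ γ, S.ϑ τ + S.σs * γ = S.ϑ τ - γ := fun γ => by rw [h]; ring
          simp_rw [e]
          exact lintegral_sub_left_eq_self (μ := volume) G (S.ϑ τ)
      exact key.symm
    · intro α hα
      have h1 : B.k₀ (S.σs * (α - S.ϑ τ)) ≠ 0 := by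
        intro h0
        apply hα
        simp [h0]
      have h2 := (B.k₀_pos _).1 h1
      have h3 := S.angle_mem hτ h2
      have : S.ϑ τ + S.σs * (S.σs * (α - S.ϑ τ)) = α := by
        rw [← mul_assoc, S.σs_sq]; ring
      rwa [this] at h3
  -- outer integral
  have hzero : ∀ r, r ∉ S.ϱ '' T → ∀ α, ENNReal.ofReal (B.h₀ (S.ψ r) ^ 2 *
      B.k₀ (S.σs * (α - S.ϑ (S.ψ r))) ^ 2 / |deriv S.ϱ (S.ψ r)|) * F (r, α) = 0 := by
    intro r hr α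
    have h0 : B.h₀ (S.ψ r) = 0 := by
      by_contra hne
      have := S.ψ_of_h₀ hne
      exact hr ⟨_, this.1, this.2⟩
    simp [h0]
  set I : ℝ → ℝ≥0∞ := fun r => ∫⁻ α in Ioo (0:ℝ) π,
        ENNReal.ofReal (B.h₀ (S.ψ r) ^ 2 * B.k₀ (S.σs * (α - S.ϑ (S.ψ r))) ^ 2 /
          |deriv S.ϱ (S.ψ r)|) * F (r, α) with hI
  have hIzero : ∀ r, r ∉ S.ϱ '' T → I r = 0 := by
    intro r hr
    simp only [hI]
    simp_rw [hzero r hr]
    simp
  have hsubs : S.ϱ '' T ⊆ Ioi (0:ℝ) := by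
    rintro _ ⟨τ, hτ, rfl⟩
    exact S.ϱ_pos τ (S.Ioo_sub_U hτ)
  have e2 : ∫⁻ r in Ioi (0:ℝ), I r = ∫⁻ r in S.ϱ '' T, I r := by
    have h1 : ∫⁻ r in Ioi (0:ℝ), I r = ∫⁻ r, I r := by
      apply setLIntegral_eq_of_support_subset
      intro r hr
      apply hsubs
      by_contra hne
      exact hr (hIzero r hne)
    have h2 : ∫⁻ r in S.ϱ '' T, I r = ∫⁻ r, I r := by
      apply setLIntegral_eq_of_support_subset
      intro r hr
      by_contra hne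
      exact hr (hIzero r hne)
    rw [h1, h2]
  rw [e2]
  have hderiv : ∀ τ ∈ T, HasDerivWithinAt S.ϱ (deriv S.ϱ τ) T τ := by
    intro τ hτ
    have := (S.ϱ_smooth τ (S.Ioo_sub_U hτ)).differentiableAt (by simp)
    exact this.hasDerivAt.hasDerivWithinAt
  rw [lintegral_image_eq_lintegral_abs_deriv_mul measurableSet_Ioo hderiv
    (S.ϱ_inj.mono S.Ioo_sub_U) I]
  have e3 : ∫⁻ τ, ENNReal.ofReal (B.h₀ τ ^ 2) *
      ∫⁻ γ, ENNReal.ofReal (B.k₀ γ ^ 2) * F (S.ϱ τ, S.ϑ τ + S.σs * γ)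
      = ∫⁻ τ in T, ENNReal.ofReal (B.h₀ τ ^ 2) *
      ∫⁻ γ, ENNReal.ofReal (B.k₀ γ ^ 2) * F (S.ϱ τ, S.ϑ τ + S.σs * γ) := by
    symm
    apply setLIntegral_eq_of_support_subset
    intro τ hτ
    by_contra hne
    apply hτ
    have : B.h₀ τ = 0 := by
      by_contra h
      exact hne ((B.h₀_pos τ).1 h)
    simp [this]
  rw [e3]
  refine setLIntegral_congr_fun measurableSet_Ioo fun τ hτ => ?_
  simp only [hI]
  rw [S.ψ_apply (S.Ioo_sub_U hτ), hin τ hτ, ← mul_assoc, ← ENNReal.ofReal_mul (abs_nonneg _)]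
  have hd : |deriv S.ϱ τ| ≠ 0 := abs_ne_zero.2 (S.ϱ_deriv τ (S.Ioo_sub_U hτ))
  congr 2
  field_simp

/-- The area of the sphere. -/
noncomputable def _root_.Crest.Agent.Lib.MMOT.areaS (n : ℕ) : ℝ := (sph n univ).toReal

lemma _root_.Crest.Agent.Lib.MMOT.sph_ne_zero : sph n univ ≠ 0 := by
  unfold sph
  rw [Measure.measure_univ_ne_zero]
  exact Measure.toSphere_ne_zero _

lemma _root_.Crest.Agent.Lib.MMOT.areaS_pos : 0 < areaS n := by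
  unfold areaS
  exact ENNReal.toReal_pos sph_ne_zero (measure_ne_top _ _)

/-- The polar angle of a point. -/
noncomputable def _root_.Crest.Agent.Lib.MMOT.ang (x : EE n) : ℝ :=
  arccos (inner ℝ (e0 n) x / ‖x‖)

/-- The density in polar coordinates. -/
noncomputable def BB (n : ℕ) (r α : ℝ) : ℝ :=
  B.h₀ (S.ψ r) * B.k₀ (S.σs * (α - S.ϑ (S.ψ r))) *
    √(1 / (|deriv S.ϱ (S.ψ r)| * areaS n * r ^ (n + 1) * sin α ^ n))

/-- The square root of the density of the sheet. -/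
noncomputable def β (x : EE n) : ℝ := S.BB n ‖x‖ (ang x)

/-- The sheet. -/
noncomputable def Ψ (p : ℝ × ℝ × SS n) : EE n :=
  S.ϱ p.1 • vv (S.ϑ p.1 + S.σs * p.2.1) (p.2.2 : FF n)

lemma _root_.Crest.Agent.Lib.MMOT.inner_vv_vv (α α' : ℝ) (ξ ξ' : FF n) :
    inner ℝ (vv α ξ) (vv α' ξ') = cos α * cos α' + sin α * sin α' * inner ℝ ξ ξ' := by
  unfold vv
  simp only [inner_add_left, inner_add_right, inner_smul_left, inner_smul_right, inner_e0_e0,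
    inner_e0_emb, inner_emb_emb, RCLike.conj_to_real]
  have : inner ℝ (emb ξ) (e0 n) = 0 := by rw [real_inner_comm]; exact inner_e0_emb ξ
  rw [this]
  ring

lemma _root_.Crest.Agent.Lib.MMOT.inner_e0_vv (α : ℝ) (ξ : FF n) :
    inner ℝ (e0 n) (vv α ξ) = cos α := by
  unfold vv
  simp only [inner_add_right, inner_smul_right, inner_e0_e0, inner_e0_emb]
  ring

lemma _root_.Crest.Agent.Lib.MMOT.norm_vv (α : ℝ) (ξ : SS n) : ‖vv α (ξ : FF n)‖ = 1 := by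
  have hξ : ‖(ξ : FF n)‖ = 1 := by simp
  have h : ‖vv α (ξ : FF n)‖ ^ 2 = 1 := by
    rw [← real_inner_self_eq_norm_sq, inner_vv_vv, real_inner_self_eq_norm_sq, hξ]
    have := sin_sq_add_cos_sq α
    nlinarith
  have := norm_nonneg (vv α (ξ : FF n))
  nlinarith

lemma _root_.Crest.Agent.Lib.MMOT.ang_polar {r α : ℝ} (hr : 0 < r) (hα : α ∈ Ioo (0:ℝ) π) (ξ : SS n) :
    ang (PhiP r α (ξ : FF n)) = α ∧ ‖PhiP r α (ξ : FF n)‖ = r := by
  have hn : ‖PhiP r α (ξ : FF n)‖ = r := by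
    unfold PhiP
    rw [norm_smul, norm_vv, mul_one, norm_of_nonneg hr.le]
  refine ⟨?_, hn⟩
  unfold ang
  rw [hn]
  unfold PhiP
  rw [inner_smul_right, inner_e0_vv, mul_div_cancel_left₀ _ hr.ne']
  exact arccos_cos hα.1.le hα.2.le

lemma _root_.Crest.Agent.Lib.MMOT.continuous_vv :
    Continuous fun p : ℝ × FF n => vv p.1 p.2 := by
  unfold vv
  have := continuous_emb (n := n)
  fun_prop

lemma measurable_Ψ : Measurable (S.Ψ (n := n)) := by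
  have hc : Measurable fun p : ℝ × FF n => vv p.1 p.2 := (continuous_vv (n := n)).measurable
  have h1 : Measurable fun p : ℝ × ℝ × SS n =>
      ((S.ϑ p.1 + S.σs * p.2.1, (p.2.2 : FF n)) : ℝ × FF n) := by
    apply Measurable.prodMk
    · exact (S.ϑ_meas.comp measurable_fst).add
        (measurable_const.mul (measurable_fst.comp measurable_snd))
    · exact measurable_subtype_coe.comp (measurable_snd.comp measurable_snd)
  have hg : Measurable fun p : ℝ × ℝ × SS n => vv (S.ϑ p.1 + S.σs * p.2.1) (p.2.2 : FF n) := by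
    have := hc.comp h1
    exact this
  have hϱ : Measurable fun p : ℝ × ℝ × SS n => S.ϱ p.1 := S.ϱ_meas.comp measurable_fst
  exact hϱ.smul hg

/-- The value of the density in polar coordinates. -/
lemma β_polar_mul {r α : ℝ} (hr : 0 < r) (hα : α ∈ Ioo (0:ℝ) π) (ξ : SS n) (z : ℝ≥0∞) :
    ENNReal.ofReal (r ^ (n + 1) * sin α ^ n) *
        (ENNReal.ofReal (S.β (PhiP r α (ξ : FF n)) ^ 2) * z)
      = ENNReal.ofReal (1 / areaS n) * (ENNReal.ofReal (B.h₀ (S.ψ r) ^ 2 *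
          B.k₀ (S.σs * (α - S.ϑ (S.ψ r))) ^ 2 / |deriv S.ϱ (S.ψ r)|) * z) := by
  have hs : 0 < sin α := sin_pos_of_pos_of_lt_pi hα.1 hα.2
  obtain ⟨h1, h2⟩ := ang_polar hr hα ξ
  have hβ : S.β (PhiP r α (ξ : FF n)) = S.BB n r α := by
    unfold β
    rw [h1, h2]
  rw [hβ]
  have hA := areaS_pos (n := n)
  have hP : 0 < r ^ (n + 1) * sin α ^ n := by positivity
  have hA' : 0 ≤ 1 / areaS n := by positivity
  have key : (r ^ (n + 1) * sin α ^ n) * S.BB n r α ^ 2 = (1 / areaS n) * (B.h₀ (S.ψ r) ^ 2 *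
      B.k₀ (S.σs * (α - S.ϑ (S.ψ r))) ^ 2 / |deriv S.ϱ (S.ψ r)|) := by
    unfold BB
    by_cases h0 : B.h₀ (S.ψ r) = 0
    · simp [h0]
    have hψ := S.ψ_of_h₀ h0
    have hd : |deriv S.ϱ (S.ψ r)| ≠ 0 := abs_ne_zero.2 (S.ϱ_deriv _ (S.Ioo_sub_U hψ.1))
    have hd' : 0 < |deriv S.ϱ (S.ψ r)| := lt_of_le_of_ne (abs_nonneg _) hd.symm
    have hX : 0 ≤ 1 / (|deriv S.ϱ (S.ψ r)| * areaS n * r ^ (n + 1) * sin α ^ n) := by positivity
    rw [mul_pow, mul_pow, sq_sqrt hX]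
    have h3 := hP.ne'
    have h4 := hA.ne'
    field_simp
  calc ENNReal.ofReal (r ^ (n + 1) * sin α ^ n) * (ENNReal.ofReal (S.BB n r α ^ 2) * z)
      = ENNReal.ofReal ((r ^ (n + 1) * sin α ^ n) * S.BB n r α ^ 2) * z := by
        rw [← mul_assoc, ← ENNReal.ofReal_mul hP.le]
    _ = _ := by rw [key, ENNReal.ofReal_mul hA', mul_assoc]

/-- The push forward of the base measure by a radial sheet. -/
theorem lintegral_β (f : EE n → ℝ≥0∞) (hf : Measurable f) (hβm : Measurable (S.β (n := n))) :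
    ∫⁻ x, ENNReal.ofReal (S.β x ^ 2) * f x =
      ∫⁻ τ, ENNReal.ofReal (B.h₀ τ ^ 2) * ∫⁻ γ, ENNReal.ofReal (B.k₀ γ ^ 2) *
        ∫⁻ ξ, ENNReal.ofReal (1 / areaS n) * f (S.Ψ (τ, γ, ξ)) ∂(sph n) := by
  have hgm : Measurable fun x => ENNReal.ofReal (S.β x ^ 2) * f x :=
    (ENNReal.measurable_ofReal.comp (hβm.pow_const 2)).mul hf
  rw [lintegral_polar _ hgm]
  have e1 : ∀ ξ : SS n, ∫⁻ r in Ioi (0:ℝ), ∫⁻ α in Ioo (0:ℝ) π,
      ENNReal.ofReal (r ^ (n + 1) * sin α ^ n) *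
        (ENNReal.ofReal (S.β (PhiP r α (ξ : FF n)) ^ 2) * f (PhiP r α (ξ : FF n)))
      = ENNReal.ofReal (1 / areaS n) * ∫⁻ τ, ENNReal.ofReal (B.h₀ τ ^ 2) *
          ∫⁻ γ, ENNReal.ofReal (B.k₀ γ ^ 2) * f (S.Ψ (τ, γ, ξ)) := by
    intro ξ
    have h2d := S.two_dim (fun q => f (PhiP q.1 q.2 (ξ : FF n)))
    have e : ∀ τ γ, PhiP (S.ϱ τ) (S.ϑ τ + S.σs * γ) (ξ : FF n) = S.Ψ (τ, γ, ξ) := fun _ _ => rfl
    simp only [e] at h2d
    rw [← h2d, ← lintegral_const_mul' _ _ ENNReal.ofReal_ne_top]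
    refine setLIntegral_congr_fun measurableSet_Ioi fun r hr => ?_
    rw [← lintegral_const_mul' _ _ ENNReal.ofReal_ne_top]
    refine setLIntegral_congr_fun measurableSet_Ioo fun α hα => ?_
    exact S.β_polar_mul hr hα ξ _
  simp_rw [e1]
  -- Tonelli
  have hfΨ : Measurable fun p : ℝ × ℝ × SS n => f (S.Ψ p) := hf.comp S.measurable_Ψ
  have hk : Measurable fun γ : ℝ => ENNReal.ofReal (B.k₀ γ ^ 2) :=
    ENNReal.measurable_ofReal.comp (B.k₀_smooth.continuous.measurable.pow_const 2)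
  have hh : Measurable fun τ : ℝ => ENNReal.ofReal (B.h₀ τ ^ 2) :=
    ENNReal.measurable_ofReal.comp (B.h₀_smooth.continuous.measurable.pow_const 2)
  have hin : Measurable fun q : (ℝ × ℝ) × SS n =>
      ENNReal.ofReal (B.k₀ q.1.2 ^ 2) * f (S.Ψ (q.1.1, q.1.2, q.2)) := by
    apply Measurable.mul (hk.comp (measurable_snd.comp measurable_fst))
    apply hfΨ.comp
    exact (measurable_fst.comp measurable_fst).prodMk
      ((measurable_snd.comp measurable_fst).prodMk measurable_snd)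
  have hint : Measurable fun q : ℝ × SS n =>
      ∫⁻ γ, ENNReal.ofReal (B.k₀ γ ^ 2) * f (S.Ψ (q.1, γ, q.2)) := by
    have : Measurable fun q : (ℝ × SS n) × ℝ =>
        ENNReal.ofReal (B.k₀ q.2 ^ 2) * f (S.Ψ (q.1.1, q.2, q.1.2)) :=
      hin.comp (((measurable_fst.comp measurable_fst).prodMk measurable_snd).prodMk
        (measurable_snd.comp measurable_fst))
    exact this.lintegral_prod_right'
  have e2 : ∫⁻ ξ, (ENNReal.ofReal (1 / areaS n) * ∫⁻ τ, ENNReal.ofReal (B.h₀ τ ^ 2) *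
          ∫⁻ γ, ENNReal.ofReal (B.k₀ γ ^ 2) * f (S.Ψ (τ, γ, ξ))) ∂(sph n)
      = ∫⁻ τ, ENNReal.ofReal (B.h₀ τ ^ 2) * ∫⁻ ξ, (ENNReal.ofReal (1 / areaS n) *
          ∫⁻ γ, ENNReal.ofReal (B.k₀ γ ^ 2) * f (S.Ψ (τ, γ, ξ))) ∂(sph n) := by
    rw [lintegral_const_mul' _ _ ENNReal.ofReal_ne_top]
    have e3 : ∫⁻ ξ, (∫⁻ τ, ENNReal.ofReal (B.h₀ τ ^ 2) *
          ∫⁻ γ, ENNReal.ofReal (B.k₀ γ ^ 2) * f (S.Ψ (τ, γ, ξ))) ∂(sph n)
        = ∫⁻ τ, ∫⁻ ξ, (ENNReal.ofReal (B.h₀ τ ^ 2) *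
          ∫⁻ γ, ENNReal.ofReal (B.k₀ γ ^ 2) * f (S.Ψ (τ, γ, ξ))) ∂(sph n) := by
      have hmm : Measurable fun q : SS n × ℝ => ENNReal.ofReal (B.h₀ q.2 ^ 2) *
          ∫⁻ γ, ENNReal.ofReal (B.k₀ γ ^ 2) * f (S.Ψ (q.2, γ, q.1)) :=
        (hh.comp measurable_snd).mul (hint.comp (measurable_snd.prodMk measurable_fst))
      exact lintegral_lintegral_swap hmm.aemeasurable
    rw [e3, ← lintegral_const_mul' _ _ ENNReal.ofReal_ne_top]
    refine lintegral_congr fun τ => ?_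
    rw [lintegral_const_mul' _ _ ENNReal.ofReal_ne_top,
      lintegral_const_mul' _ _ ENNReal.ofReal_ne_top]
    ring
  rw [e2]
  refine lintegral_congr fun τ => ?_
  congr 1
  rw [lintegral_const_mul' _ _ ENNReal.ofReal_ne_top]
  have e4 : ∫⁻ ξ, (∫⁻ γ, ENNReal.ofReal (B.k₀ γ ^ 2) * f (S.Ψ (τ, γ, ξ))) ∂(sph n)
      = ∫⁻ γ, ∫⁻ ξ, (ENNReal.ofReal (B.k₀ γ ^ 2) * f (S.Ψ (τ, γ, ξ))) ∂(sph n) := by
    have hmm : Measurable fun q : SS n × ℝ =>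
        ENNReal.ofReal (B.k₀ q.2 ^ 2) * f (S.Ψ (τ, q.2, q.1)) := by
      apply Measurable.mul (hk.comp measurable_snd)
      apply hfΨ.comp
      exact measurable_const.prodMk (measurable_snd.prodMk measurable_fst)
    exact lintegral_lintegral_swap hmm.aemeasurable
  rw [e4, ← lintegral_const_mul' _ _ ENNReal.ofReal_ne_top]
  refine lintegral_congr fun γ => ?_
  rw [lintegral_const_mul' _ _ ENNReal.ofReal_ne_top,
    lintegral_const_mul' _ _ ENNReal.ofReal_ne_top]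
  ring

/-! ### Smoothness -/

lemma _root_.Crest.Agent.Lib.MMOT.abs_inner_e0_le (x : EE n) : |inner ℝ (e0 n) x| ≤ ‖x‖ := by
  have := abs_real_inner_le_norm (e0 n) x
  rwa [norm_e0, one_mul] at this

lemma _root_.Crest.Agent.Lib.MMOT.inner_div_mem (x : EE n) :
    inner ℝ (e0 n) x / ‖x‖ ∈ Icc (-1:ℝ) 1 := by
  by_cases hx : x = 0
  · subst hx
    simp
  have hpos : 0 < ‖x‖ := norm_pos_iff.2 hx
  have h := abs_le.1 (abs_inner_e0_le x)
  constructor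
  · rw [le_div_iff₀ hpos]; linarith [h.1]
  · rw [div_le_one hpos]; exact h.2

lemma _root_.Crest.Agent.Lib.MMOT.cos_ang (x : EE n) :
    cos (ang x) = inner ℝ (e0 n) x / ‖x‖ := by
  unfold ang
  exact cos_arccos (inner_div_mem x).1 (inner_div_mem x).2

/-- The closed set carrying the density. -/
def K' : Set (EE n) := {x | ‖x‖ ∈ S.ϱ '' Icc B.τ₁ B.τ₂ ∧ inner ℝ (e0 n) x ≤ cos S.α₁ * ‖x‖ ∧
    cos S.α₂ * ‖x‖ ≤ inner ℝ (e0 n) x}

lemma continuousOn_ϱ : ContinuousOn S.ϱ (Icc B.τ₁ B.τ₂) := fun τ hτ =>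
  (S.ϱ_smooth τ (S.hTU hτ)).continuousAt.continuousWithinAt

lemma isClosed_K' : IsClosed (S.K' (n := n)) := by
  have h1 : IsClosed (S.ϱ '' Icc B.τ₁ B.τ₂) := (isCompact_Icc.image_of_continuousOn S.continuousOn_ϱ).isClosed
  have hin : Continuous fun x : EE n => inner ℝ (e0 n) x := continuous_const.inner continuous_id
  refine (h1.preimage continuous_norm).inter (IsClosed.inter ?_ ?_)
  · exact isClosed_le hin (continuous_const.mul continuous_norm)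
  · exact isClosed_le (continuous_const.mul continuous_norm) hin

lemma β_ne_zero_imp {x : EE n} (h : S.β x ≠ 0) :
    B.h₀ (S.ψ ‖x‖) ≠ 0 ∧ B.k₀ (S.σs * (ang x - S.ϑ (S.ψ ‖x‖))) ≠ 0 := by
  unfold β BB at h
  constructor
  · intro h0
    apply h
    simp [h0]
  · intro h0
    apply h
    simp [h0]

/-- Where the density lives. -/
lemma β_support {x : EE n} (h : S.β x ≠ 0) :
    ∃ τ ∈ Ioo B.τ₁ B.τ₂, ∃ γ ∈ Ioo B.γ₁ B.γ₂, ‖x‖ = S.ϱ τ ∧
      inner ℝ (e0 n) x = ‖x‖ * cos (S.ϑ τ + S.σs * γ) := by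
  obtain ⟨h1, h2⟩ := S.β_ne_zero_imp h
  obtain ⟨hτ, hϱ⟩ := S.ψ_of_h₀ h1
  have hγ := (B.k₀_pos _).1 h2
  refine ⟨_, hτ, _, hγ, hϱ.symm, ?_⟩
  have hpos : 0 < ‖x‖ := by
    rw [← hϱ]
    exact S.ϱ_pos _ (S.Ioo_sub_U hτ)
  have e : S.ϑ (S.ψ ‖x‖) + S.σs * (S.σs * (ang x - S.ϑ (S.ψ ‖x‖))) = ang x := by
    rw [← mul_assoc, S.σs_sq]; ring
  rw [e, cos_ang, mul_div_cancel₀ _ hpos.ne']

lemma mem_K'_of_β {x : EE n} (h : S.β x ≠ 0) : x ∈ S.K' := by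
  obtain ⟨h1, h2⟩ := S.β_ne_zero_imp h
  obtain ⟨hτ, hϱ⟩ := S.ψ_of_h₀ h1
  have hγ := (B.k₀_pos _).1 h2
  have hpos : 0 < ‖x‖ := by
    rw [← hϱ]
    exact S.ϱ_pos _ (S.Ioo_sub_U hτ)
  have e : S.ϑ (S.ψ ‖x‖) + S.σs * (S.σs * (ang x - S.ϑ (S.ψ ‖x‖))) = ang x := by
    rw [← mul_assoc, S.σs_sq]; ring
  have hα := S.hα _ ⟨hτ.1.le, hτ.2.le⟩ _ ⟨hγ.1.le, hγ.2.le⟩
  rw [e] at hα
  have hc1 : cos (ang x) ≤ cos S.α₁ :=
    cos_le_cos_of_nonneg_of_le_pi S.hα₁.le (le_trans hα.2 S.hα₂.le) hα.1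
  have hc2 : cos S.α₂ ≤ cos (ang x) :=
    cos_le_cos_of_nonneg_of_le_pi (le_trans S.hα₁.le hα.1) S.hα₂.le hα.2
  rw [cos_ang] at hc1 hc2
  refine ⟨⟨_, ⟨hτ.1.le, hτ.2.le⟩, hϱ⟩, ?_, ?_⟩
  · rwa [div_le_iff₀ hpos] at hc1
  · rwa [le_div_iff₀ hpos] at hc2

lemma contDiffAt_β_of_mem {x : EE n} (hx : x ∈ S.K') : ContDiffAt ℝ ∞ (S.β (n := n)) x := by
  obtain ⟨⟨τ₀, hτ₀, e⟩, h1, h2⟩ := hx
  have hτU := S.hTU hτ₀
  have hpos : 0 < ‖x‖ := by
    rw [← e]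
    exact S.ϱ_pos _ hτU
  have hx0 : x ≠ 0 := norm_pos_iff.1 hpos
  have hψ0 : S.ψ ‖x‖ = τ₀ := by
    rw [← e]
    exact S.ψ_apply hτU
  have hψU : S.ψ ‖x‖ ∈ S.U := by rw [hψ0]; exact hτU
  have h12 := S.hα₁₂
  have hq1 : inner ℝ (e0 n) x / ‖x‖ < 1 := by
    have : cos S.α₁ < 1 := by
      have := cos_lt_cos_of_nonneg_of_le_pi (le_refl (0:ℝ)) (lt_of_le_of_lt h12 S.hα₂).le S.hα₁
      simpa using this
    rw [div_lt_iff₀ hpos]
    nlinarith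
  have hq2 : -1 < inner ℝ (e0 n) x / ‖x‖ := by
    have : -1 < cos S.α₂ := by
      have := cos_lt_cos_of_nonneg_of_le_pi (le_trans S.hα₁.le h12) (le_refl π) S.hα₂
      simpa using this
    rw [lt_div_iff₀ hpos]
    nlinarith
  have hr : ContDiffAt ℝ ∞ (fun x : EE n => ‖x‖) x := contDiffAt_norm ℝ hx0
  have hq : ContDiffAt ℝ ∞ (fun x : EE n => inner ℝ (e0 n) x / ‖x‖) x :=
    ((contDiff_const.inner ℝ contDiff_id).contDiffAt).div hr hpos.ne'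
  have hang : ContDiffAt ℝ ∞ (ang : EE n → ℝ) x :=
    (contDiffAt_arccos hq2.ne' hq1.ne).comp x hq
  have hψ : ContDiffAt ℝ ∞ (fun x : EE n => S.ψ ‖x‖) x := by
    have h3 := contDiffAt_inverse S.hU hτU (S.ϱ_smooth _ hτU) (S.ϱ_deriv _ hτU)
      (fun τ h => S.ψ_apply h)
    rw [e] at h3
    exact h3.comp x hr
  have hϑ : ContDiffAt ℝ ∞ (fun x : EE n => S.ϑ (S.ψ ‖x‖)) x :=
    (S.ϑ_smooth _ hψU).comp x hψ
  have hd0 : ContDiffAt ℝ ∞ (deriv S.ϱ) (S.ψ ‖x‖) :=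
    (S.ϱ_smooth _ hψU).derivWithin (m := ∞) (by simp)
  have hd : ContDiffAt ℝ ∞ (fun x : EE n => deriv S.ϱ (S.ψ ‖x‖)) x := by
    have := ContDiffAt.comp (g := deriv S.ϱ) (f := fun x : EE n => S.ψ ‖x‖) x hd0 hψ
    exact this
  have hdne : deriv S.ϱ (S.ψ ‖x‖) ≠ 0 := S.ϱ_deriv _ hψU
  have hangpos : 0 < ang x := arccos_pos.2 hq1
  have hanglt : ang x < π := arccos_lt_pi.2 hq2
  have hsin : 0 < sin (ang x) := sin_pos_of_pos_of_lt_pi hangpos hanglt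
  have hA := areaS_pos (n := n)
  have hdenom : ContDiffAt ℝ ∞ (fun x : EE n => |deriv S.ϱ (S.ψ ‖x‖)| * areaS n * ‖x‖ ^ (n + 1) *
      sin (ang x) ^ n) x :=
    (((hd.abs hdne).mul contDiffAt_const).mul (hr.pow _)).mul
      ((contDiff_sin.contDiffAt.comp x hang).pow n)
  have hdpos : 0 < |deriv S.ϱ (S.ψ ‖x‖)| * areaS n * ‖x‖ ^ (n + 1) * sin (ang x) ^ n := by
    have : 0 < |deriv S.ϱ (S.ψ ‖x‖)| := abs_pos.2 hdne
    positivity
  have hg : ContDiffAt ℝ ∞ (fun x : EE n =>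
      1 / (|deriv S.ϱ (S.ψ ‖x‖)| * areaS n * ‖x‖ ^ (n + 1) * sin (ang x) ^ n)) x :=
    contDiffAt_const.div hdenom hdpos.ne'
  have f3 := hg.sqrt (by positivity)
  have f1 : ContDiffAt ℝ ∞ (fun x : EE n => B.h₀ (S.ψ ‖x‖)) x :=
    B.h₀_smooth.contDiffAt.comp x hψ
  have f2 : ContDiffAt ℝ ∞ (fun x : EE n => B.k₀ (S.σs * (ang x - S.ϑ (S.ψ ‖x‖)))) x :=
    B.k₀_smooth.contDiffAt.comp x (contDiffAt_const.mul (hang.sub hϑ))
  exact (f1.mul f2).mul f3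

/-- The square root of the density is smooth. -/
theorem contDiff_β : ContDiff ℝ ∞ (S.β (n := n)) := by
  refine contDiff_iff_contDiffAt.2 fun x => ?_
  by_cases hx : x ∈ S.K'
  · exact S.contDiffAt_β_of_mem hx
  · have hev : S.β =ᶠ[𝓝 x] fun _ => 0 := by
      filter_upwards [S.isClosed_K'.isOpen_compl.mem_nhds hx] with y hy
      by_contra h
      exact hy (S.mem_K'_of_β h)
    exact contDiffAt_const.congr_of_eventuallyEq hev

lemma β_nonneg (x : EE n) : 0 ≤ S.β x := by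
  unfold β BB
  exact mul_nonneg (mul_nonneg (B.h₀_nonneg _) (B.k₀_nonneg _)) (sqrt_nonneg _)

/-- Boundedness of the support. -/
lemma exists_bound_β : ∃ C : ℝ, ∀ x : EE n, S.β x ≠ 0 → ‖x‖ ≤ C := by
  have hc := isCompact_Icc.image_of_continuousOn S.continuousOn_ϱ
  obtain ⟨C, hC⟩ := hc.bddAbove
  refine ⟨C, fun x hx => ?_⟩
  exact hC (S.mem_K'_of_β hx).1

end SheetSpec

namespace Bumps

variable (B : Bumps) {n : ℕ}

/-- The measure in the fibre parameter. -/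
noncomputable def hμ : Measure ℝ := volume.withDensity fun τ => ENNReal.ofReal (B.h₀ τ ^ 2)
/-- The measure in the angular parameter. -/
noncomputable def kμ : Measure ℝ := volume.withDensity fun γ => ENNReal.ofReal (B.k₀ γ ^ 2)
/-- The normalised measure on the sphere. -/
noncomputable def σbar (n : ℕ) : Measure (SS n) := ENNReal.ofReal (1 / areaS n) • sph n
/-- The measure on the fibre. -/
noncomputable def νZ (n : ℕ) : Measure (ℝ × SS n) := B.kμ.prod (σbar n)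

instance : IsProbabilityMeasure B.hμ := ⟨by simp [hμ, B.h₀_int]⟩
instance : IsProbabilityMeasure B.kμ := ⟨by simp [kμ, B.k₀_int]⟩
instance : IsProbabilityMeasure (σbar n) := by
  constructor
  simp only [σbar, Measure.smul_apply, smul_eq_mul]
  have h1 : sph n univ = ENNReal.ofReal (areaS n) := by
    unfold areaS
    rw [ENNReal.ofReal_toReal (measure_ne_top _ _)]
  rw [h1, ← ENNReal.ofReal_mul (by have := areaS_pos (n := n); positivity)]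
  have := areaS_pos (n := n)
  rw [one_div, inv_mul_cancel₀ this.ne']
  simp
instance : IsProbabilityMeasure (B.νZ n) := by
  unfold νZ
  infer_instance

end Bumps

namespace SheetSpec

variable {B : Bumps} (S : SheetSpec B) {n : ℕ}

/-- The image of the base measure under a radial sheet has density `β ^ 2`. -/
theorem map_Ψ : (B.hμ.prod (B.νZ n)).map (S.Ψ (n := n))
    = volume.withDensity fun x => ENNReal.ofReal (S.β x ^ 2) := by
  have hβm : Measurable (S.β (n := n)) := S.contDiff_β.continuous.measurable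
  have hβ2 : Measurable fun x : EE n => ENNReal.ofReal (S.β x ^ 2) :=
    ENNReal.measurable_ofReal.comp (hβm.pow_const 2)
  refine Measure.ext_of_lintegral _ fun f hf => ?_
  rw [lintegral_map hf S.measurable_Ψ, lintegral_withDensity_eq_lintegral_mul _ hβ2 hf]
  simp only [Pi.mul_apply]
  rw [S.lintegral_β f hf hβm]
  have hfΨ : Measurable fun p : ℝ × ℝ × SS n => f (S.Ψ p) := hf.comp S.measurable_Ψ
  rw [lintegral_prod _ hfΨ.aemeasurable]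
  have hh : Measurable fun τ : ℝ => ENNReal.ofReal (B.h₀ τ ^ 2) :=
    ENNReal.measurable_ofReal.comp (B.h₀_smooth.continuous.measurable.pow_const 2)
  have hk : Measurable fun γ : ℝ => ENNReal.ofReal (B.k₀ γ ^ 2) :=
    ENNReal.measurable_ofReal.comp (B.k₀_smooth.continuous.measurable.pow_const 2)
  have hin : Measurable fun τ : ℝ => ∫⁻ z, f (S.Ψ (τ, z)) ∂(B.νZ n) :=
    hfΨ.lintegral_prod_right'
  unfold Bumps.hμ
  rw [lintegral_withDensity_eq_lintegral_mul _ hh hin]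
  simp only [Pi.mul_apply]
  refine lintegral_congr fun τ => ?_
  congr 1
  have hfz : Measurable fun z : ℝ × SS n => f (S.Ψ (τ, z)) := hfΨ.comp measurable_prodMk_left
  unfold Bumps.νZ
  rw [lintegral_prod _ hfz.aemeasurable]
  have hin2 : Measurable fun γ : ℝ => ∫⁻ ξ, f (S.Ψ (τ, γ, ξ)) ∂(Bumps.σbar n) :=
    hfz.lintegral_prod_right'
  unfold Bumps.kμ
  rw [lintegral_withDensity_eq_lintegral_mul _ hk hin2]
  simp only [Pi.mul_apply]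
  refine lintegral_congr fun γ => ?_
  congr 1
  unfold Bumps.σbar
  rw [lintegral_smul_measure, lintegral_const_mul' _ _ ENNReal.ofReal_ne_top]
  rfl

/-- The same, composed with a linear isometry. -/
theorem map_L (L : EE n ≃ₗᵢ[ℝ] EE n) : (B.hμ.prod (B.νZ n)).map (fun p => L (S.Ψ p))
    = volume.withDensity fun x => ENNReal.ofReal (S.β (L.symm x) ^ 2) := by
  have hβm : Measurable (S.β (n := n)) := S.contDiff_β.continuous.measurable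
  have hβ2 : Measurable fun x : EE n => ENNReal.ofReal (S.β x ^ 2) :=
    ENNReal.measurable_ofReal.comp (hβm.pow_const 2)
  have hLm : Measurable L := L.continuous.measurable
  have hLs : Measurable L.symm := L.symm.continuous.measurable
  have h1 : (B.hμ.prod (B.νZ n)).map (fun p => L (S.Ψ p))
      = ((B.hμ.prod (B.νZ n)).map (S.Ψ (n := n))).map L := by
    rw [Measure.map_map hLm S.measurable_Ψ]
    rfl
  rw [h1, S.map_Ψ]
  refine Measure.ext_of_lintegral _ fun f hf => ?_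
  have hβ3 : Measurable fun x : EE n => ENNReal.ofReal (S.β (L.symm x) ^ 2) := hβ2.comp hLs
  have hfL : Measurable fun x => f (L x) := hf.comp hLm
  rw [lintegral_map hf hLm, lintegral_withDensity_eq_lintegral_mul _ hβ2 hfL,
    lintegral_withDensity_eq_lintegral_mul _ hβ3 hf]
  simp only [Pi.mul_apply]
  have hmp := L.symm.measurePreserving
  have hm : Measurable fun x : EE n => ENNReal.ofReal (S.β x ^ 2) * f (L x) :=
    hβ2.mul hfL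
  rw [← hmp.lintegral_comp hm]
  refine lintegral_congr fun x => ?_
  simp

end SheetSpec

end Crest.Agent.Lib.MMOT
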