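import Mathlib
import Crest.Agent.Lib.MMOT.Sheet
import Crest.Agent.Lib.MMOT.Split

/-!
# Bump functions and quantile functions
-/

set_option linter.style.haveILetI false
set_option linter.unusedSectionVars false

namespace Crest.Agent.Lib.MMOT

open MeasureTheory Set Metric Real
open scoped ENNReal ContDiff Topology

/-- A smooth bump supported exactly on an interval with square of integral one. -/
lemma exists_bump {a b : ℝ} (hab : a < b) : ∃ f : ℝ → ℝ, ContDiff ℝ ∞ f ∧ (∀ x, 0 ≤ f x) ∧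
    (∀ x, f x ≠ 0 ↔ x ∈ Ioo a b) ∧ ∫⁻ x, ENNReal.ofReal (f x ^ 2) = 1 := by
  have hr : 0 < (b - a) / 4 := by linarith
  let g : ContDiffBump ((a + b) / 2) := ⟨(b - a) / 4, (b - a) / 2, hr, by linarith⟩
  have hsupp : ∀ x, g x ≠ 0 ↔ x ∈ Ioo a b := by
    intro x
    have h1 : x ∈ Function.support g ↔ x ∈ ball ((a + b) / 2) ((b - a) / 2) := by
      rw [g.support_eq]
    rw [Function.mem_support] at h1
    rw [h1, Real.ball_eq_Ioo]
    have e1 : (a + b) / 2 - (b - a) / 2 = a := by ring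
    have e2 : (a + b) / 2 + (b - a) / 2 = b := by ring
    rw [e1, e2]
  have hgs : ContDiff ℝ ∞ g := g.contDiff
  have hgm : Measurable g := hgs.continuous.measurable
  have hgm2 : Measurable fun x => ENNReal.ofReal (g x ^ 2) :=
    ENNReal.measurable_ofReal.comp (hgm.pow_const 2)
  set I := ∫⁻ x, ENNReal.ofReal (g x ^ 2) with hI
  have hItop : I ≠ ⊤ := by
    have : I ≤ ∫⁻ x in Ioo a b, 1 := by
      rw [hI, ← setLIntegral_eq_of_support_subset (s := Ioo a b)]
      · apply lintegral_mono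
        intro x
        have h1 := g.le_one (x := x)
        have h0 := g.nonneg (x := x)
        have : g x ^ 2 ≤ 1 := by nlinarith
        simpa using this
      · intro x hx
        rw [← hsupp]
        intro h0
        apply hx
        simp [h0]
    simp only [lintegral_const, MeasurableSet.univ, Measure.restrict_apply, univ_inter, one_mul,
      Real.volume_Ioo] at this
    exact ne_top_of_le_ne_top ENNReal.ofReal_ne_top this
  have hI0 : I ≠ 0 := by
    intro hzero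
    rw [hI, lintegral_eq_zero_iff hgm2] at hzero
    have h := hzero
    have hsub : ball ((a + b) / 2) ((b - a) / 4) ⊆ {x | ENNReal.ofReal (g x ^ 2) = 0}ᶜ := by
      intro x hx
      have h1 : g x = 1 := g.one_of_mem_closedBall (ball_subset_closedBall hx)
      simp [h1]
    have hpos : 0 < volume (ball ((a + b) / 2) ((b - a) / 4)) := measure_ball_pos _ _ hr
    have hnull : volume ({x | ENNReal.ofReal (g x ^ 2) = 0}ᶜ) = 0 := by
      have : ∀ᵐ x, ENNReal.ofReal (g x ^ 2) = 0 := h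
      rw [ae_iff] at this
      exact this
    exact hpos.ne' (measure_mono_null hsub hnull)
  have hIr : 0 < I.toReal := ENNReal.toReal_pos hI0 hItop
  refine ⟨fun x => (√I.toReal)⁻¹ * g x, contDiff_const.mul hgs, ?_, ?_, ?_⟩
  · intro x
    exact mul_nonneg (by positivity) g.nonneg
  · intro x
    have hne : (√I.toReal)⁻¹ ≠ 0 := by positivity
    rw [← hsupp]
    simp [hne]
  · have e : ∀ x, ENNReal.ofReal (((√I.toReal)⁻¹ * g x) ^ 2)
        = ENNReal.ofReal (I.toReal⁻¹) * ENNReal.ofReal (g x ^ 2) := by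
      intro x
      rw [← ENNReal.ofReal_mul (by positivity), mul_pow, inv_pow, sq_sqrt hIr.le]
    simp_rw [e]
    rw [lintegral_const_mul' _ _ ENNReal.ofReal_ne_top, ← hI]
    calc ENNReal.ofReal I.toReal⁻¹ * I
        = ENNReal.ofReal I.toReal⁻¹ * ENNReal.ofReal I.toReal := by
          rw [ENNReal.ofReal_toReal hItop]
      _ = 1 := by
          rw [← ENNReal.ofReal_mul (by positivity), inv_mul_cancel₀ hIr.ne']
          simp

/-- Existence of the bump data. -/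
theorem exists_bumps {τ₁ τ₂ γ₁ γ₂ : ℝ} (hτ : τ₁ < τ₂) (hγ : γ₁ < γ₂) :
    ∃ B : Bumps, B.τ₁ = τ₁ ∧ B.τ₂ = τ₂ ∧ B.γ₁ = γ₁ ∧ B.γ₂ = γ₂ := by
  obtain ⟨h, h1, h2, h3, h4⟩ := exists_bump hτ
  obtain ⟨k, k1, k2, k3, k4⟩ := exists_bump hγ
  exact ⟨⟨τ₁, τ₂, γ₁, γ₂, hτ, hγ, h, k, h1, k1, h2, k2, h3, k3, h4, k4⟩, rfl, rfl, rfl, rfl⟩

namespace Bumps

variable (B : Bumps)

/-- Quantile function of the measure `hμ`. -/
theorem exists_quantile : ∃ V : ℝ → ℝ, Continuous V ∧ (∀ w, V w ∈ Icc B.τ₁ B.τ₂) ∧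
    (∀ w ∈ Ioo (0:ℝ) 1, V w ∈ Ioo B.τ₁ B.τ₂) ∧ InjOn V (Ioo (0:ℝ) 1) ∧ unitL.map V = B.hμ := by
  set h2 : ℝ → ℝ := fun τ => B.h₀ τ ^ 2 with hh2
  have hcont : Continuous h2 := B.h₀_smooth.continuous.pow 2
  set W : ℝ → ℝ := fun τ => ∫ t in B.τ₁..τ, h2 t with hW
  have hWd : ∀ τ, HasDerivAt W (h2 τ) τ := fun τ =>
    intervalIntegral.integral_hasDerivAt_right (hcont.intervalIntegrable _ _)
      (hcont.stronglyMeasurableAtFilter _ _) hcont.continuousAt
  have hWc : Continuous W := continuous_iff_continuousAt.2 fun τ => (hWd τ).continuousAt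
  have hτ := B.hτ
  have hpos : ∀ τ ∈ Ioo B.τ₁ B.τ₂, 0 < h2 τ := by
    intro τ hτ'
    have := (B.h₀_pos τ).2 hτ'
    positivity
  have hWmono : StrictMonoOn W (Icc B.τ₁ B.τ₂) := by
    apply strictMonoOn_of_deriv_pos (convex_Icc _ _) hWc.continuousOn
    intro τ hτ'
    rw [interior_Icc] at hτ'
    rw [(hWd τ).deriv]
    exact hpos τ hτ'
  have hW1 : W B.τ₁ = 0 := by simp [hW]
  have hW2 : W B.τ₂ = 1 := by
    have hnn : ∀ t, 0 ≤ h2 t := fun t => by positivity
    have hint : ∫ t in B.τ₁..B.τ₂, h2 t = ∫ t in Ioo B.τ₁ B.τ₂, h2 t := by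
      rw [intervalIntegral.integral_of_le hτ.le, integral_Ioc_eq_integral_Ioo]
    have hsup : ∫⁻ τ, ENNReal.ofReal (h2 τ) = ∫⁻ τ in Ioo B.τ₁ B.τ₂, ENNReal.ofReal (h2 τ) := by
      symm
      apply setLIntegral_eq_of_support_subset
      intro τ hτ'
      by_contra hne
      apply hτ'
      have : B.h₀ τ = 0 := by
        by_contra h
        exact hne ((B.h₀_pos τ).1 h)
      simp [hh2, this]
    have hone : ∫⁻ τ in Ioo B.τ₁ B.τ₂, ENNReal.ofReal (h2 τ) = 1 := by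
      rw [← hsup]
      exact B.h₀_int
    have hIbl : IntegrableOn h2 (Ioo B.τ₁ B.τ₂) :=
      (hcont.integrableOn_Icc (a := B.τ₁) (b := B.τ₂)).mono_set Ioo_subset_Icc_self
    have := ofReal_integral_eq_lintegral_ofReal hIbl (Filter.Eventually.of_forall hnn)
    rw [hone] at this
    have h3 : (∫ t in Ioo B.τ₁ B.τ₂, h2 t) = 1 := by
      have h4 : 0 ≤ ∫ t in Ioo B.τ₁ B.τ₂, h2 t := integral_nonneg hnn
      rw [ENNReal.ofReal_eq_one] at this
      exact this
    simp only [hW]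
    rw [hint, h3]
  -- the homeomorphism
  have hmaps : ∀ t : Icc B.τ₁ B.τ₂, W t ∈ Icc (0:ℝ) 1 := by
    intro t
    have h1 := hWmono.monotoneOn (left_mem_Icc.2 hτ.le) t.2 t.2.1
    have h2' := hWmono.monotoneOn t.2 (right_mem_Icc.2 hτ.le) t.2.2
    rw [hW1] at h1
    rw [hW2] at h2'
    exact ⟨h1, h2'⟩
  let f : Icc B.τ₁ B.τ₂ → Icc (0:ℝ) 1 := fun t => ⟨W t, hmaps t⟩
  have hfc : Continuous f := (hWc.comp continuous_subtype_val).subtype_mk _
  have hfb : Function.Bijective f := by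
    constructor
    · intro a b h
      have : W a = W b := congrArg Subtype.val h
      exact Subtype.ext (hWmono.injOn a.2 b.2 this)
    · intro w
      have : Icc (W B.τ₁) (W B.τ₂) ⊆ W '' Icc B.τ₁ B.τ₂ :=
        intermediate_value_Icc hτ.le hWc.continuousOn
      rw [hW1, hW2] at this
      obtain ⟨t, ht, e⟩ := this w.2
      exact ⟨⟨t, ht⟩, Subtype.ext e⟩
  let e : Icc B.τ₁ B.τ₂ ≃ₜ Icc (0:ℝ) 1 :=
    Continuous.homeoOfEquivCompactToT2 (f := Equiv.ofBijective f hfb) hfc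
  let V : ℝ → ℝ := fun w => (e.symm (projIcc 0 1 zero_le_one w) : ℝ)
  have hVc : Continuous V :=
    continuous_subtype_val.comp (e.symm.continuous.comp continuous_projIcc)
  have hVW : ∀ w ∈ Icc (0:ℝ) 1, W (V w) = w := by
    intro w hw
    have hp : projIcc 0 1 zero_le_one w = ⟨w, hw⟩ := projIcc_of_mem _ hw
    have h1 : f (e.symm ⟨w, hw⟩) = ⟨w, hw⟩ := e.apply_symm_apply _
    have h2' := congrArg Subtype.val h1
    show W (e.symm (projIcc 0 1 zero_le_one w) : ℝ) = w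
    rw [hp]
    exact h2'
  have hWV : ∀ τ ∈ Icc B.τ₁ B.τ₂, V (W τ) = τ := by
    intro τ hτ'
    have h1 := hmaps ⟨τ, hτ'⟩
    have h2' : W (V (W τ)) = W τ := hVW _ h1
    have h3 : V (W τ) ∈ Icc B.τ₁ B.τ₂ := (e.symm _).2
    exact hWmono.injOn h3 hτ' h2'
  have hVmem : ∀ w, V w ∈ Icc B.τ₁ B.τ₂ := fun w => (e.symm _).2
  have hVI : ∀ w ∈ Ioo (0:ℝ) 1, V w ∈ Ioo B.τ₁ B.τ₂ := by
    intro w hw
    have h1 := hVW w ⟨hw.1.le, hw.2.le⟩
    have h2' := hVmem w
    constructor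
    · apply lt_of_le_of_ne h2'.1
      intro h
      rw [← h, hW1] at h1
      exact hw.1.ne h1
    · apply lt_of_le_of_ne h2'.2
      intro h
      rw [h, hW2] at h1
      exact hw.2.ne' h1
  have hVinj : InjOn V (Ioo (0:ℝ) 1) := by
    intro a ha b hb h
    rw [← hVW a ⟨ha.1.le, ha.2.le⟩, ← hVW b ⟨hb.1.le, hb.2.le⟩, h]
  refine ⟨V, hVc, hVmem, hVI, hVinj, ?_⟩
  -- the image measure
  refine Measure.ext_of_lintegral _ fun g hg => ?_
  have himg : W '' Ioo B.τ₁ B.τ₂ = Ioo (0:ℝ) 1 := by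
    ext w
    constructor
    · rintro ⟨τ, hτ', rfl⟩
      have hc : τ ∈ Icc B.τ₁ B.τ₂ := ⟨hτ'.1.le, hτ'.2.le⟩
      have h1 := hWmono (left_mem_Icc.2 hτ.le) hc hτ'.1
      have h2' := hWmono hc (right_mem_Icc.2 hτ.le) hτ'.2
      rw [hW1] at h1
      rw [hW2] at h2'
      exact ⟨h1, h2'⟩
    · intro hw
      exact ⟨V w, hVI w hw, hVW w ⟨hw.1.le, hw.2.le⟩⟩
  have hinj : InjOn W (Ioo B.τ₁ B.τ₂) := hWmono.injOn.mono Ioo_subset_Icc_self
  have hder : ∀ τ ∈ Ioo B.τ₁ B.τ₂, HasDerivWithinAt W (h2 τ) (Ioo B.τ₁ B.τ₂) τ :=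
    fun τ _ => (hWd τ).hasDerivWithinAt
  rw [lintegral_map hg hVc.measurable]
  have key := lintegral_image_eq_lintegral_abs_deriv_mul measurableSet_Ioo hder hinj (fun w => g (V w))
  rw [himg] at key
  rw [key]
  unfold hμ
  have hh : Measurable fun τ : ℝ => ENNReal.ofReal (h2 τ) :=
    ENNReal.measurable_ofReal.comp hcont.measurable
  rw [lintegral_withDensity_eq_lintegral_mul _ hh hg]
  symm
  rw [← setLIntegral_eq_of_support_subset (s := Ioo B.τ₁ B.τ₂)]
  · refine setLIntegral_congr_fun measurableSet_Ioo fun τ hτ' => ?_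
    have e1 : V (W τ) = τ := hWV τ ⟨hτ'.1.le, hτ'.2.le⟩
    simp only [Pi.mul_apply]
    rw [e1, abs_of_nonneg (by positivity)]
  · intro τ hτ'
    by_contra hne
    apply hτ'
    have : B.h₀ τ = 0 := by
      by_contra h
      exact hne ((B.h₀_pos τ).1 h)
    simp [hh2, this]

end Bumps

end Crest.Agent.Lib.MMOT
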