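import Mathlib

/-!
# The interface between the real analysis of the family and the geometric construction
-/

namespace Crest.Agent.Lib.MMOT

open Set Real
open scoped ContDiff

/-- The real functions and inequalities needed for the construction. -/
structure FamData (s : ℝ) where
  hs : 0 < s
  D₀ : ℝ
  η : ℝ
  hη : 0 < η
  hD : 0 < D₀ - 2 * η
  P : ℝ → ℝ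
  r₁ : ℝ → ℝ
  r₂ : ℝ → ℝ
  R : ℝ → ℝ
  θ : ℝ → ℝ
  U₀ : ℝ → ℝ
  U₁ : ℝ → ℝ
  U₂ : ℝ → ℝ
  U₃ : ℝ → ℝ
  N : ℝ
  Rb : ℝ
  M : ℝ
  ℓ : ℝ
  meas_P : Measurable P
  meas_r₁ : Measurable r₁
  meas_r₂ : Measurable r₂
  meas_R : Measurable R
  meas_θ : Measurable θ
  smooth_P : ∀ D ∈ Ioo (D₀ - 2 * η) (D₀ + 2 * η), ContDiffAt ℝ ∞ P D
  smooth_r₁ : ∀ D ∈ Ioo (D₀ - 2 * η) (D₀ + 2 * η), ContDiffAt ℝ ∞ r₁ D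
  smooth_r₂ : ∀ D ∈ Ioo (D₀ - 2 * η) (D₀ + 2 * η), ContDiffAt ℝ ∞ r₂ D
  smooth_R : ∀ D ∈ Ioo (D₀ - 2 * η) (D₀ + 2 * η), ContDiffAt ℝ ∞ R D
  smooth_θ : ∀ D ∈ Ioo (D₀ - 2 * η) (D₀ + 2 * η), ContDiffAt ℝ ∞ θ D
  deriv_P : ∀ D ∈ Ioo (D₀ - 2 * η) (D₀ + 2 * η), deriv P D ≠ 0
  deriv_r₁ : ∀ D ∈ Ioo (D₀ - 2 * η) (D₀ + 2 * η), deriv r₁ D ≠ 0
  deriv_r₂ : ∀ D ∈ Ioo (D₀ - 2 * η) (D₀ + 2 * η), deriv r₂ D ≠ 0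
  deriv_R : ∀ D ∈ Ioo (D₀ - 2 * η) (D₀ + 2 * η), deriv R D ≠ 0
  inj_P : InjOn P (Ioo (D₀ - 2 * η) (D₀ + 2 * η))
  inj_r₁ : InjOn r₁ (Ioo (D₀ - 2 * η) (D₀ + 2 * η))
  inj_r₂ : InjOn r₂ (Ioo (D₀ - 2 * η) (D₀ + 2 * η))
  inj_R : InjOn R (Ioo (D₀ - 2 * η) (D₀ + 2 * η))
  P_pos : ∀ D ∈ Ioo (D₀ - 2 * η) (D₀ + 2 * η), 0 < P D
  P_lt : ∀ D ∈ Ioo (D₀ - 2 * η) (D₀ + 2 * η), P D < 1 / 2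
  r₁_gt : ∀ D ∈ Ioo (D₀ - 2 * η) (D₀ + 2 * η), 4 / 3 < r₁ D
  r₁_lt : ∀ D ∈ Ioo (D₀ - 2 * η) (D₀ + 2 * η), r₁ D < 5 / 3
  r₂_gt : ∀ D ∈ Ioo (D₀ - 2 * η) (D₀ + 2 * η), 4 / 3 < r₂ D
  r₂_lt : ∀ D ∈ Ioo (D₀ - 2 * η) (D₀ + 2 * η), r₂ D < 5 / 3
  R_gt : ∀ D ∈ Ioo (D₀ - 2 * η) (D₀ + 2 * η), 3 / 4 < R D
  R_lt : ∀ D ∈ Ioo (D₀ - 2 * η) (D₀ + 2 * η), R D < 5 / 4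
  θ_gt : ∀ D ∈ Ioo (D₀ - 2 * η) (D₀ + 2 * η), π / 4 < θ D
  θ_lt : ∀ D ∈ Ioo (D₀ - 2 * η) (D₀ + 2 * η), θ D < π / 2
  cont_U₀ : ContinuousOn U₀ (Icc (D₀ - η) (D₀ + η))
  cont_U₁ : ContinuousOn U₁ (Icc (D₀ - η) (D₀ + η))
  cont_U₂ : ContinuousOn U₂ (Icc (D₀ - η) (D₀ + η))
  cont_U₃ : ContinuousOn U₃ (Icc (D₀ - η) (D₀ + η))
  /-- the radial inequality -/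
  e1_le : ∀ D₁ ∈ Icc (D₀ - η) (D₀ + η), ∀ D₂ ∈ Icc (D₀ - η) (D₀ + η), ∀ D₃ ∈ Icc (D₀ - η) (D₀ + η),
    U₀ D₁ + U₁ D₂ + U₂ D₃ ≤ (r₁ D₁ + r₂ D₂) ^ (-s) + (r₁ D₁ + P D₃) ^ (-s) + (r₂ D₂ - P D₃) ^ (-s)
  e1_eq : ∀ D₁ ∈ Icc (D₀ - η) (D₀ + η), ∀ D₂ ∈ Icc (D₀ - η) (D₀ + η), ∀ D₃ ∈ Icc (D₀ - η) (D₀ + η),
    U₀ D₁ + U₁ D₂ + U₂ D₃ = (r₁ D₁ + r₂ D₂) ^ (-s) + (r₁ D₁ + P D₃) ^ (-s) + (r₂ D₂ - P D₃) ^ (-s) →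
      D₁ = D₂ ∧ D₂ = D₃
  /-- the angular inequality -/
  star : ∀ D₁ ∈ Icc (D₀ - η) (D₀ + η), ∀ D₂ ∈ Icc (D₀ - η) (D₀ + η), ∀ D₃ ∈ Icc (D₀ - η) (D₀ + η),
    P D₃ * (r₁ D₁ + r₂ D₂) ^ (s + 2) + r₂ D₂ * (r₁ D₁ + P D₃) ^ (s + 2)
      < r₁ D₁ * (r₂ D₂ - P D₃) ^ (s + 2)
  tight1 : ∀ D ∈ Icc (D₀ - η) (D₀ + η),
    U₀ D + U₁ D + U₂ D = (r₁ D + r₂ D) ^ (-s) + (r₁ D + P D) ^ (-s) + (r₂ D - P D) ^ (-s)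
  /-- the second family -/
  hN : ∀ D ∈ Icc (D₀ - η) (D₀ + η),
    N = (s / 2) * D ^ (-(s + 2)) + 2 * ((s / 2) * (2 * (R D * sin (θ D))) ^ (-(s + 2)))
  hU₂ : ∀ D ∈ Icc (D₀ - η) (D₀ + η),
    U₂ D = (1 + s / 2) * (2 * D ^ (-s) + (2 * (R D * sin (θ D))) ^ (-s))
      - (2 * ((s / 2) * D ^ (-(s + 2))) +
          ((s / 2) * D ^ (-(s + 2))) ^ 2 / ((s / 2) * (2 * (R D * sin (θ D))) ^ (-(s + 2))))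
        * P D ^ 2 - 2 * N * Rb ^ 2
  hU₃ : ∀ D ∈ Icc (D₀ - η) (D₀ + η), U₃ D = -N * (R D ^ 2 - Rb ^ 2)
  geom : ∀ D ∈ Icc (D₀ - η) (D₀ + η), P D ^ 2 + R D ^ 2 + 2 * P D * R D * cos (θ D) = D ^ 2
  tight2 : ∀ D ∈ Icc (D₀ - η) (D₀ + η),
    U₂ D + U₃ D + U₃ D = 2 * D ^ (-s) + (2 * (R D * sin (θ D))) ^ (-s)
  /-- signs -/
  U₀_neg : ∀ D ∈ Icc (D₀ - η) (D₀ + η), U₀ D < 0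
  U₁_neg : ∀ D ∈ Icc (D₀ - η) (D₀ + η), U₁ D < 0
  U₃_nonpos : ∀ D ∈ Icc (D₀ - η) (D₀ + η), U₃ D ≤ 0
  U₂_le : ∀ D ∈ Icc (D₀ - η) (D₀ + η), U₂ D ≤ M
  M_pos : 0 < M
  ℓ_pos : 0 < ℓ
  hℓ : 3 * M < ℓ ^ (-s)
  P_ℓ : ∀ D ∈ Icc (D₀ - η) (D₀ + η), 2 * P D < ℓ
  r₁_spread : ∀ D ∈ Icc (D₀ - η) (D₀ + η), ∀ D' ∈ Icc (D₀ - η) (D₀ + η), |r₁ D - r₁ D'| < ℓ / 2
  r₂_spread : ∀ D ∈ Icc (D₀ - η) (D₀ + η), ∀ D' ∈ Icc (D₀ - η) (D₀ + η), |r₂ D - r₂ D'| < ℓ / 2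
  cross₀ : ∀ D ∈ Icc (D₀ - η) (D₀ + η), ∀ D' ∈ Icc (D₀ - η) (D₀ + η), ∀ D'' ∈ Icc (D₀ - η) (D₀ + η),
    U₂ D + U₀ D' < (P D + r₁ D') ^ (-s) + (P D + R D'') ^ (-s)
      + (r₁ D' ^ 2 + R D'' ^ 2 + 2 * r₁ D' * R D'' * (1 / 10)) ^ (-s / 2)
  cross₁ : ∀ D ∈ Icc (D₀ - η) (D₀ + η), ∀ D' ∈ Icc (D₀ - η) (D₀ + η), ∀ D'' ∈ Icc (D₀ - η) (D₀ + η),
    U₂ D + U₁ D' < (P D + r₂ D') ^ (-s) + (P D + R D'') ^ (-s)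
      + (r₂ D' ^ 2 + R D'' ^ 2 + 2 * r₂ D' * R D'' * (1 / 10)) ^ (-s / 2)
  cos_small : ∀ D ∈ Icc (D₀ - η) (D₀ + η), cos (θ D) < 1 / 20

end Crest.Agent.Lib.MMOT
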