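import Mathlib

/-!
# Pointwise inequalities for the inverse power cost
-/

set_option linter.style.haveILetI false
set_option linter.unusedSectionVars false

namespace Crest.Agent.Lib.MMOT

open Real

/-- Tangent line for a negative power, weak form. -/
lemma tangent_rpow {a z z₀ : ℝ} (ha : 0 < a) (hz : 0 < z) (hz₀ : 0 < z₀) :
    z₀ ^ (-a) - a * z₀ ^ (-a - 1) * (z - z₀) ≤ z ^ (-a) := by
  have hy : 0 < z / z₀ := div_pos hz hz₀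
  have h1 : 1 - a * (z / z₀ - 1) ≤ (z / z₀) ^ (-a) := by
    rw [rpow_def_of_pos hy]
    have h2 : log (z / z₀) ≤ z / z₀ - 1 := log_le_sub_one_of_pos hy
    have h3 := add_one_le_exp (log (z / z₀) * -a)
    nlinarith
  have h4 : (z / z₀) ^ (-a) = z ^ (-a) / z₀ ^ (-a) := div_rpow hz.le hz₀.le _
  have hp : 0 < z₀ ^ (-a) := rpow_pos_of_pos hz₀ _
  have h5 : z₀ ^ (-a - 1) = z₀ ^ (-a) / z₀ := rpow_sub_one hz₀.ne' _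
  rw [h4, le_div_iff₀ hp] at h1
  rw [h5]
  have e : z₀ ^ (-a) - a * (z₀ ^ (-a) / z₀) * (z - z₀) = (1 - a * (z / z₀ - 1)) * z₀ ^ (-a) := by
    field_simp
  rw [e]
  exact h1

/-- Tangent line for a negative power, strict form. -/
lemma tangent_rpow_strict {a z z₀ : ℝ} (ha : 0 < a) (hz : 0 < z) (hz₀ : 0 < z₀) (hne : z ≠ z₀) :
    z₀ ^ (-a) - a * z₀ ^ (-a - 1) * (z - z₀) < z ^ (-a) := by
  have hy : 0 < z / z₀ := div_pos hz hz₀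
  have hy1 : z / z₀ ≠ 1 := by
    intro h
    rw [div_eq_one_iff_eq hz₀.ne'] at h
    exact hne h
  have h1 : 1 - a * (z / z₀ - 1) < (z / z₀) ^ (-a) := by
    rw [rpow_def_of_pos hy]
    have h2 : log (z / z₀) < z / z₀ - 1 := log_lt_sub_one_of_pos hy hy1
    have h3 := add_one_le_exp (log (z / z₀) * -a)
    nlinarith
  have h4 : (z / z₀) ^ (-a) = z ^ (-a) / z₀ ^ (-a) := div_rpow hz.le hz₀.le _
  have hp : 0 < z₀ ^ (-a) := rpow_pos_of_pos hz₀ _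
  have h5 : z₀ ^ (-a - 1) = z₀ ^ (-a) / z₀ := rpow_sub_one hz₀.ne' _
  rw [h4, lt_div_iff₀ hp] at h1
  rw [h5]
  have e : z₀ ^ (-a) - a * (z₀ ^ (-a) / z₀) * (z - z₀) = (1 - a * (z / z₀ - 1)) * z₀ ^ (-a) := by
    field_simp
  rw [e]
  exact h1

lemma sq_rpow {d : ℝ} (hd : 0 < d) (t : ℝ) : (d ^ 2) ^ t = d ^ (2 * t) := by
  rw [← rpow_natCast, ← rpow_mul hd.le]
  norm_num

/-- The tangent inequality in the squared distance. -/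
lemma tangent_sq {s d ρ : ℝ} (hs : 0 < s) (hd : 0 < d) (hρ : 0 < ρ) :
    ρ ^ (-s) + (s / 2) * ρ ^ (-(s + 2)) * (ρ ^ 2 - d ^ 2) ≤ d ^ (-s) := by
  have h := tangent_rpow (a := s / 2) (z := d ^ 2) (z₀ := ρ ^ 2) (by positivity) (by positivity)
    (by positivity)
  rw [sq_rpow hd, sq_rpow hρ, sq_rpow hρ] at h
  have e1 : 2 * -(s / 2) = -s := by ring
  have e2 : 2 * (-(s / 2) - 1) = -(s + 2) := by ring
  rw [e1, e2] at h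
  nlinarith

/-- The upper bound for a distance gives a lower bound for the cost. -/
lemma rpow_neg_anti {s d ρ : ℝ} (hs : 0 < s) (hd : 0 < d) (hdρ : d ≤ ρ) : ρ ^ (-s) ≤ d ^ (-s) :=
  rpow_le_rpow_of_nonpos hd hdρ (by linarith)

lemma rpow_neg_div_two {s d Q : ℝ} (hs : 0 < s) (hd : 0 < d) (hdQ : d ^ 2 ≤ Q) :
    Q ^ (-s / 2) ≤ d ^ (-s) := by
  have hd2 : 0 < d ^ 2 := by positivity
  have h := rpow_le_rpow_of_nonpos hd2 hdQ (z := -s / 2) (by linarith)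
  rw [sq_rpow hd] at h
  have e : 2 * (-s / 2) = -s := by ring
  rwa [e] at h

variable {E : Type*} [NormedAddCommGroup E] [InnerProductSpace ℝ E]

/-- The second family of tight triples: an inequality for all positions. -/
theorem e2_ineq {s D B : ℝ} (hs : 0 < s) (hD : 0 < D) (hB : 0 < B) (x₃ x₄ x₅ : E)
    (h34 : x₃ ≠ x₄) (h35 : x₃ ≠ x₅) (h45 : x₄ ≠ x₅) :
    (1 + s / 2) * (2 * D ^ (-s) + B ^ (-s))
        - (2 * ((s / 2) * D ^ (-(s + 2))) + ((s / 2) * D ^ (-(s + 2))) ^ 2 / ((s / 2) * B ^ (-(s + 2))))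
          * ‖x₃‖ ^ 2
        - ((s / 2) * D ^ (-(s + 2)) + 2 * ((s / 2) * B ^ (-(s + 2)))) * ‖x₄‖ ^ 2
        - ((s / 2) * D ^ (-(s + 2)) + 2 * ((s / 2) * B ^ (-(s + 2)))) * ‖x₅‖ ^ 2
      ≤ ‖x₃ - x₄‖ ^ (-s) + ‖x₃ - x₅‖ ^ (-s) + ‖x₄ - x₅‖ ^ (-s) := by
  set Λ := (s / 2) * D ^ (-(s + 2)) with hΛ
  set Γ := (s / 2) * B ^ (-(s + 2)) with hΓ
  have hΛp : 0 < Λ := by positivity
  have hΓp : 0 < Γ := by positivity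
  have hd34 : 0 < ‖x₃ - x₄‖ := norm_pos_iff.2 (sub_ne_zero.2 h34)
  have hd35 : 0 < ‖x₃ - x₅‖ := norm_pos_iff.2 (sub_ne_zero.2 h35)
  have hd45 : 0 < ‖x₄ - x₅‖ := norm_pos_iff.2 (sub_ne_zero.2 h45)
  have t1 := tangent_sq hs hd34 hD
  have t2 := tangent_sq hs hd35 hD
  have t3 := tangent_sq hs hd45 hB
  -- identities for the powers
  have eD : (s / 2) * D ^ (-(s + 2)) * D ^ 2 = (s / 2) * D ^ (-s) := by
    rw [← rpow_natCast D 2, mul_assoc, ← rpow_add hD]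
    norm_num
  have eB : (s / 2) * B ^ (-(s + 2)) * B ^ 2 = (s / 2) * B ^ (-s) := by
    rw [← rpow_natCast B 2, mul_assoc, ← rpow_add hB]
    norm_num
  rw [← hΛ] at t1 t2 eD
  rw [← hΓ] at t3 eB
  -- the square
  set y : E := (Λ / Γ) • x₃ + x₄ + x₅ with hy
  have hsq : 0 ≤ inner ℝ y y := real_inner_self_nonneg
  have hexp : inner ℝ y y = (Λ / Γ) ^ 2 * ‖x₃‖ ^ 2 + ‖x₄‖ ^ 2 + ‖x₅‖ ^ 2
      + 2 * (Λ / Γ) * inner ℝ x₃ x₄ + 2 * (Λ / Γ) * inner ℝ x₃ x₅ + 2 * inner ℝ x₄ x₅ := by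
    simp only [hy, inner_add_left, inner_add_right, inner_smul_left, inner_smul_right,
      real_inner_self_eq_norm_sq, RCLike.conj_to_real, real_inner_comm x₃ x₄, real_inner_comm x₃ x₅,
      real_inner_comm x₄ x₅]
    ring
  have hn1 := norm_sub_sq_real x₃ x₄
  have hn2 := norm_sub_sq_real x₃ x₅
  have hn3 := norm_sub_sq_real x₄ x₅
  have hmul : 0 ≤ Γ * inner ℝ y y := mul_nonneg hΓp.le hsq
  rw [hexp] at hmul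
  have e1 : Γ * ((Λ / Γ) ^ 2 * ‖x₃‖ ^ 2 + ‖x₄‖ ^ 2 + ‖x₅‖ ^ 2
      + 2 * (Λ / Γ) * inner ℝ x₃ x₄ + 2 * (Λ / Γ) * inner ℝ x₃ x₅ + 2 * inner ℝ x₄ x₅)
      = Λ ^ 2 / Γ * ‖x₃‖ ^ 2 + Γ * ‖x₄‖ ^ 2 + Γ * ‖x₅‖ ^ 2
        + 2 * Λ * inner ℝ x₃ x₄ + 2 * Λ * inner ℝ x₃ x₅ + 2 * Γ * inner ℝ x₄ x₅ := by
    field_simp
  rw [e1] at hmul
  have t1' : D ^ (-s) + Λ * D ^ 2 - Λ * ‖x₃ - x₄‖ ^ 2 ≤ ‖x₃ - x₄‖ ^ (-s) := by nlinarith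
  have t2' : D ^ (-s) + Λ * D ^ 2 - Λ * ‖x₃ - x₅‖ ^ 2 ≤ ‖x₃ - x₅‖ ^ (-s) := by nlinarith
  have t3' : B ^ (-s) + Γ * B ^ 2 - Γ * ‖x₄ - x₅‖ ^ 2 ≤ ‖x₄ - x₅‖ ^ (-s) := by nlinarith
  rw [eD] at t1' t2'
  rw [eB] at t3'
  rw [hn1] at t1'
  rw [hn2] at t2'
  rw [hn3] at t3'
  nlinarith

/-- An algebraic lemma for the angular bracket. -/
lemma bracket {r₁ r₂ r₃ A B C a b d : ℝ} (h1 : 0 < r₁) (h2 : 0 < r₂) (h3 : 0 < r₃) (hA : 0 < A)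
    (hB : 0 < B) (hC : 0 < C) (hstar : r₃ * A + r₂ * B < r₁ * C) (ha : 0 ≤ a) (hb : 0 ≤ b)
    (hd0 : 0 ≤ d) (hd : d ≤ a + b) :
    0 ≤ r₁ * r₂ / A * a ^ 2 + r₁ * r₃ / B * b ^ 2 - r₂ * r₃ / C * d ^ 2 ∧
      (r₁ * r₂ / A * a ^ 2 + r₁ * r₃ / B * b ^ 2 - r₂ * r₃ / C * d ^ 2 = 0 → a = 0 ∧ b = 0) := by
  set w := (r₃ * A + r₂ * B) / (r₁ * C) with hw
  have hw1 : w < 1 := by
    rw [hw, div_lt_one (by positivity)]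
    exact hstar
  have hκ₁ : 0 < r₁ * r₂ / A := by positivity
  have hκ₂ : 0 < r₁ * r₃ / B := by positivity
  have hκ₃ : 0 < r₂ * r₃ / C := by positivity
  have key : r₂ * r₃ / C * (a + b) ^ 2 ≤ w * (r₁ * r₂ / A * a ^ 2 + r₁ * r₃ / B * b ^ 2) := by
    have e : w * (r₁ * r₂ / A * a ^ 2 + r₁ * r₃ / B * b ^ 2) - r₂ * r₃ / C * (a + b) ^ 2
        = (r₂ * B * a - r₃ * A * b) ^ 2 / (A * B * C) := by
      rw [hw]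
      field_simp
      ring
    have : 0 ≤ (r₂ * B * a - r₃ * A * b) ^ 2 / (A * B * C) := by positivity
    linarith
  have hd2 : d ^ 2 ≤ (a + b) ^ 2 := by nlinarith
  have key2 : r₂ * r₃ / C * d ^ 2 ≤ w * (r₁ * r₂ / A * a ^ 2 + r₁ * r₃ / B * b ^ 2) :=
    le_trans (mul_le_mul_of_nonneg_left hd2 hκ₃.le) key
  have hS : 0 ≤ r₁ * r₂ / A * a ^ 2 + r₁ * r₃ / B * b ^ 2 := by positivity
  have hlow : (1 - w) * (r₁ * r₂ / A * a ^ 2 + r₁ * r₃ / B * b ^ 2)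
      ≤ r₁ * r₂ / A * a ^ 2 + r₁ * r₃ / B * b ^ 2 - r₂ * r₃ / C * d ^ 2 := by linarith
  have hw' : 0 < 1 - w := by linarith
  constructor
  · exact le_trans (mul_nonneg hw'.le hS) hlow
  · intro h0
    rw [h0] at hlow
    have hS0 : r₁ * r₂ / A * a ^ 2 + r₁ * r₃ / B * b ^ 2 ≤ 0 := by
      by_contra hpos
      have := mul_pos hw' (not_le.1 hpos)
      linarith
    have ha2 : r₁ * r₂ / A * a ^ 2 = 0 := by
      have h11 : 0 ≤ r₁ * r₂ / A * a ^ 2 := by positivity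
      have h12 : 0 ≤ r₁ * r₃ / B * b ^ 2 := by positivity
      linarith
    have hb2 : r₁ * r₃ / B * b ^ 2 = 0 := by
      have h11 : 0 ≤ r₁ * r₂ / A * a ^ 2 := by positivity
      have h12 : 0 ≤ r₁ * r₃ / B * b ^ 2 := by positivity
      linarith
    constructor
    · have := (mul_eq_zero.1 ha2).resolve_left hκ₁.ne'
      exact pow_eq_zero_iff (two_ne_zero) |>.1 this
    · have := (mul_eq_zero.1 hb2).resolve_left hκ₂.ne'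
      exact pow_eq_zero_iff (two_ne_zero) |>.1 this

/-- Distances in the first family of triples. -/
lemma dist_opp {r r' : ℝ} {ω ω' : E} (hω : ‖ω‖ = 1) (hω' : ‖ω'‖ = 1) :
    ‖-(r • ω) - r' • ω'‖ ^ 2 = (r + r') ^ 2 - r * r' * ‖ω - ω'‖ ^ 2 := by
  have h1 := norm_sub_sq_real ω ω'
  have h2 : ‖-(r • ω) - r' • ω'‖ ^ 2 = ‖r • ω + r' • ω'‖ ^ 2 := by
    rw [← norm_neg (r • ω + r' • ω')]
    congr 2
    abel
  rw [h2, norm_add_sq_real, norm_smul, norm_smul, inner_smul_left, inner_smul_right, hω, hω']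
  rw [hω, hω'] at h1
  simp only [norm_eq_abs, RCLike.conj_to_real, mul_one, sq_abs]
  nlinarith

lemma dist_same {r r' : ℝ} {ω ω' : E} (hω : ‖ω‖ = 1) (hω' : ‖ω'‖ = 1) :
    ‖r • ω - r' • ω'‖ ^ 2 = (r - r') ^ 2 + r * r' * ‖ω - ω'‖ ^ 2 := by
  have h1 := norm_sub_sq_real ω ω'
  rw [norm_sub_sq_real, norm_smul, norm_smul, inner_smul_left, inner_smul_right, hω, hω']
  rw [hω, hω'] at h1
  simp only [norm_eq_abs, RCLike.conj_to_real, mul_one, sq_abs]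
  nlinarith

/-- The first family of tight triples: the reduction to radial positions. -/
theorem e1_ineq {s r₁ r₂ r₃ : ℝ} (hs : 0 < s) (h1 : 0 < r₁) (h2 : 0 < r₂) (h3 : 0 < r₃)
    (h32 : r₃ < r₂)
    (hstar : r₃ * (r₁ + r₂) ^ (s + 2) + r₂ * (r₁ + r₃) ^ (s + 2) < r₁ * (r₂ - r₃) ^ (s + 2))
    {ω₁ ω₂ ω₃ : E} (hω₁ : ‖ω₁‖ = 1) (hω₂ : ‖ω₂‖ = 1) (hω₃ : ‖ω₃‖ = 1)
    (h12 : -(r₁ • ω₁) ≠ r₂ • ω₂) (h13 : -(r₁ • ω₁) ≠ r₃ • ω₃) (h23 : r₂ • ω₂ ≠ r₃ • ω₃) :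
    (r₁ + r₂) ^ (-s) + (r₁ + r₃) ^ (-s) + (r₂ - r₃) ^ (-s)
        ≤ ‖-(r₁ • ω₁) - r₂ • ω₂‖ ^ (-s) + ‖-(r₁ • ω₁) - r₃ • ω₃‖ ^ (-s) + ‖r₂ • ω₂ - r₃ • ω₃‖ ^ (-s) ∧
      (‖-(r₁ • ω₁) - r₂ • ω₂‖ ^ (-s) + ‖-(r₁ • ω₁) - r₃ • ω₃‖ ^ (-s) + ‖r₂ • ω₂ - r₃ • ω₃‖ ^ (-s)
          = (r₁ + r₂) ^ (-s) + (r₁ + r₃) ^ (-s) + (r₂ - r₃) ^ (-s) → ω₁ = ω₂ ∧ ω₁ = ω₃) := by
  set a := ‖ω₁ - ω₂‖ with ha
  set b := ‖ω₁ - ω₃‖ with hb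
  set d := ‖ω₂ - ω₃‖ with hd
  have hdtri : d ≤ a + b := by
    have := norm_sub_le_norm_sub_add_norm_sub ω₂ ω₁ ω₃
    rwa [norm_sub_rev ω₂ ω₁] at this
  have hd12 : 0 < ‖-(r₁ • ω₁) - r₂ • ω₂‖ := norm_pos_iff.2 (sub_ne_zero.2 h12)
  have hd13 : 0 < ‖-(r₁ • ω₁) - r₃ • ω₃‖ := norm_pos_iff.2 (sub_ne_zero.2 h13)
  have hd23 : 0 < ‖r₂ • ω₂ - r₃ • ω₃‖ := norm_pos_iff.2 (sub_ne_zero.2 h23)
  have hρ12 : 0 < r₁ + r₂ := by positivity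
  have hρ13 : 0 < r₁ + r₃ := by positivity
  have hρ23 : 0 < r₂ - r₃ := by linarith
  have t1 := tangent_sq hs hd12 hρ12
  have t2 := tangent_sq hs hd13 hρ13
  have t3 := tangent_sq hs hd23 hρ23
  rw [dist_opp hω₁ hω₂] at t1
  rw [dist_opp hω₁ hω₃] at t2
  rw [dist_same hω₂ hω₃] at t3
  set A := (r₁ + r₂) ^ (s + 2) with hA
  set B := (r₁ + r₃) ^ (s + 2) with hB
  set C := (r₂ - r₃) ^ (s + 2) with hC
  have hAp : 0 < A := rpow_pos_of_pos hρ12 _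
  have hBp : 0 < B := rpow_pos_of_pos hρ13 _
  have hCp : 0 < C := rpow_pos_of_pos hρ23 _
  have iA : (r₁ + r₂) ^ (-(s + 2)) = A⁻¹ := rpow_neg hρ12.le _
  have iB : (r₁ + r₃) ^ (-(s + 2)) = B⁻¹ := rpow_neg hρ13.le _
  have iC : (r₂ - r₃) ^ (-(s + 2)) = C⁻¹ := rpow_neg hρ23.le _
  rw [iA] at t1
  rw [iB] at t2
  rw [iC] at t3
  obtain ⟨hG, hG0⟩ := bracket h1 h2 h3 hAp hBp hCp hstar (norm_nonneg _) (norm_nonneg _)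
    (norm_nonneg _) hdtri
  have e1 : (r₁ + r₂) ^ 2 - ((r₁ + r₂) ^ 2 - r₁ * r₂ * a ^ 2) = r₁ * r₂ * a ^ 2 := by ring
  have e2 : (r₁ + r₃) ^ 2 - ((r₁ + r₃) ^ 2 - r₁ * r₃ * b ^ 2) = r₁ * r₃ * b ^ 2 := by ring
  have e3 : (r₂ - r₃) ^ 2 - ((r₂ - r₃) ^ 2 + r₂ * r₃ * d ^ 2) = -(r₂ * r₃ * d ^ 2) := by ring
  rw [e1] at t1
  rw [e2] at t2
  rw [e3] at t3
  have e1' : s / 2 * A⁻¹ * (r₁ * r₂ * a ^ 2) = s / 2 * (r₁ * r₂ / A * a ^ 2) := by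
    field_simp
  have e2' : s / 2 * B⁻¹ * (r₁ * r₃ * b ^ 2) = s / 2 * (r₁ * r₃ / B * b ^ 2) := by
    field_simp
  have e3' : s / 2 * C⁻¹ * -(r₂ * r₃ * d ^ 2) = - (s / 2 * (r₂ * r₃ / C * d ^ 2)) := by
    field_simp
  rw [e1'] at t1
  rw [e2'] at t2
  rw [e3'] at t3
  set G := r₁ * r₂ / A * a ^ 2 + r₁ * r₃ / B * b ^ 2 - r₂ * r₃ / C * d ^ 2 with hGdef
  have hs2 : 0 < s / 2 := by positivity
  have hfinal : (r₁ + r₂) ^ (-s) + (r₁ + r₃) ^ (-s) + (r₂ - r₃) ^ (-s) + s / 2 * G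
      ≤ ‖-(r₁ • ω₁) - r₂ • ω₂‖ ^ (-s) + ‖-(r₁ • ω₁) - r₃ • ω₃‖ ^ (-s) + ‖r₂ • ω₂ - r₃ • ω₃‖ ^ (-s) := by
    rw [hGdef]
    linarith
  have hsG : 0 ≤ s / 2 * G := mul_nonneg hs2.le hG
  constructor
  · linarith
  · intro heq
    rw [heq] at hfinal
    have hG2 : s / 2 * G ≤ 0 := by linarith
    have hG3 : G = 0 := by
      have : G ≤ 0 := by
        by_contra hp
        have := mul_pos hs2 (not_le.1 hp)
        linarith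
      exact le_antisymm this hG
    obtain ⟨ha0, hb0⟩ := hG0 hG3
    exact ⟨sub_eq_zero.1 (norm_eq_zero.1 ha0), sub_eq_zero.1 (norm_eq_zero.1 hb0)⟩

end Crest.Agent.Lib.MMOT
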