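import Mathlib
import Crest.Agent.Lib.MMOT.FamData
import Crest.Agent.Lib.MMOT.Ineq
import Crest.Agent.Lib.MMOT.Sheet

/-!
# The five sheets as points of the ambient space, and the dual inequalities between them
-/

set_option linter.style.haveILetI false
set_option linter.unusedSectionVars false

namespace Crest.Agent.Lib.MMOT

open Set Real
open scoped ContDiff

/-- The real valued cost on triples. -/
noncomputable def creal {E : Type*} [NormedAddCommGroup E] (s : ℝ) (x y w : E) : ℝ :=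
  ‖x - y‖ ^ (-s) + ‖x - w‖ ^ (-s) + ‖y - w‖ ^ (-s)

lemma creal_swap12 {E : Type*} [NormedAddCommGroup E] (s : ℝ) (x y w : E) :
    creal s x y w = creal s y x w := by
  unfold creal
  rw [norm_sub_rev y x]
  ring

lemma creal_swap23 {E : Type*} [NormedAddCommGroup E] (s : ℝ) (x y w : E) :
    creal s x y w = creal s x w y := by
  unfold creal
  rw [norm_sub_rev w y]
  ring

lemma creal_pos {E : Type*} [NormedAddCommGroup E] {s : ℝ} {x y w : E} (h1 : x ≠ y) :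
    0 < creal s x y w := by
  unfold creal
  have h : 0 < ‖x - y‖ := norm_pos_iff.2 (sub_ne_zero.2 h1)
  have h2 : 0 ≤ ‖x - w‖ ^ (-s) := rpow_nonneg (norm_nonneg _) _
  have h3 : 0 ≤ ‖y - w‖ ^ (-s) := rpow_nonneg (norm_nonneg _) _
  have := rpow_pos_of_pos h (-s)
  linarith

lemma le_creal_of_dist {E : Type*} [NormedAddCommGroup E] {s : ℝ} {x y w : E} (h1 : x ≠ y) :
    ‖x - y‖ ^ (-s) ≤ creal s x y w := by
  unfold creal
  have h2 : 0 ≤ ‖x - w‖ ^ (-s) := rpow_nonneg (norm_nonneg _) _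
  have h3 : 0 ≤ ‖y - w‖ ^ (-s) := rpow_nonneg (norm_nonneg _) _
  linarith

namespace FamData

variable {s : ℝ} (F : FamData s) {n : ℕ}

/-- The first sheet. -/
noncomputable def p0 (D γ : ℝ) (ξ : SS n) : EE n := -(F.r₁ D • vv γ (ξ : FF n))
/-- The second sheet. -/
noncomputable def p1 (D γ : ℝ) (ξ : SS n) : EE n := F.r₂ D • vv γ (ξ : FF n)
/-- The central sheet. -/
noncomputable def p2 (D γ : ℝ) (ξ : SS n) : EE n := F.P D • vv γ (ξ : FF n)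
/-- The fourth sheet. -/
noncomputable def p3 (D γ : ℝ) (ξ : SS n) : EE n := -(F.R D • vv (F.θ D + γ) (ξ : FF n))
/-- The fifth sheet. -/
noncomputable def p4 (D γ : ℝ) (ξ : SS n) : EE n := -(F.R D • vv (γ - F.θ D) (ξ : FF n))

/-- The domain in the radial parameter. -/
abbrev TT : Set ℝ := Icc (F.D₀ - F.η) (F.D₀ + F.η)

/-- The open domain in the radial parameter. -/
abbrev UU : Set ℝ := Ioo (F.D₀ - 2 * F.η) (F.D₀ + 2 * F.η)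

lemma TT_sub_UU : F.TT ⊆ F.UU := fun _ hx =>
  ⟨by linarith [hx.1, F.hη], by linarith [hx.2, F.hη]⟩

lemma D_pos {D : ℝ} (hD : D ∈ F.TT) : 0 < D := by
  have := F.hD
  have h1 := hD.1
  have := F.hη
  linarith

section bounds
variable {D : ℝ} (hD : D ∈ F.TT)
include hD
lemma Pp : 0 < F.P D := F.P_pos D (F.TT_sub_UU hD)
lemma Pl : F.P D < 1 / 2 := F.P_lt D (F.TT_sub_UU hD)
lemma r1g : 4 / 3 < F.r₁ D := F.r₁_gt D (F.TT_sub_UU hD)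
lemma r1l : F.r₁ D < 5 / 3 := F.r₁_lt D (F.TT_sub_UU hD)
lemma r2g : 4 / 3 < F.r₂ D := F.r₂_gt D (F.TT_sub_UU hD)
lemma r2l : F.r₂ D < 5 / 3 := F.r₂_lt D (F.TT_sub_UU hD)
lemma Rg : 3 / 4 < F.R D := F.R_gt D (F.TT_sub_UU hD)
lemma Rl : F.R D < 5 / 4 := F.R_lt D (F.TT_sub_UU hD)
lemma θg : π / 4 < F.θ D := F.θ_gt D (F.TT_sub_UU hD)
lemma θl : F.θ D < π / 2 := F.θ_lt D (F.TT_sub_UU hD)
end bounds

/-! ### Norms -/

lemma norm_p0 {D : ℝ} (hD : D ∈ F.TT) (γ : ℝ) (ξ : SS n) : ‖F.p0 D γ ξ‖ = F.r₁ D := by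
  unfold p0
  rw [norm_neg, norm_smul, norm_vv, mul_one, norm_of_nonneg (by linarith [F.r1g hD])]

lemma norm_p1 {D : ℝ} (hD : D ∈ F.TT) (γ : ℝ) (ξ : SS n) : ‖F.p1 D γ ξ‖ = F.r₂ D := by
  unfold p1
  rw [norm_smul, norm_vv, mul_one, norm_of_nonneg (by linarith [F.r2g hD])]

lemma norm_p2 {D : ℝ} (hD : D ∈ F.TT) (γ : ℝ) (ξ : SS n) : ‖F.p2 D γ ξ‖ = F.P D := by
  unfold p2
  rw [norm_smul, norm_vv, mul_one, norm_of_nonneg (F.Pp hD).le]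

lemma norm_p3 {D : ℝ} (hD : D ∈ F.TT) (γ : ℝ) (ξ : SS n) : ‖F.p3 D γ ξ‖ = F.R D := by
  unfold p3
  rw [norm_neg, norm_smul, norm_vv, mul_one, norm_of_nonneg (by linarith [F.Rg hD])]

lemma norm_p4 {D : ℝ} (hD : D ∈ F.TT) (γ : ℝ) (ξ : SS n) : ‖F.p4 D γ ξ‖ = F.R D := by
  unfold p4
  rw [norm_neg, norm_smul, norm_vv, mul_one, norm_of_nonneg (by linarith [F.Rg hD])]

/-! ### The first family -/

/-- The angular parameter. -/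
lemma vv_injOn {α α' : ℝ} {ξ ξ' : SS n} (hα : α ∈ Ioo (0:ℝ) π) (hα' : α' ∈ Ioo (0:ℝ) π)
    (h : vv α (ξ : FF n) = vv α' (ξ' : FF n)) : α = α' ∧ ξ = ξ' := by
  have h1 : cos α = cos α' := by
    have := congrArg (fun x : EE n => inner ℝ (e0 n) x) h
    simpa [inner_e0_vv] using this
  have h2 : α = α' := injOn_cos ⟨hα.1.le, hα.2.le⟩ ⟨hα'.1.le, hα'.2.le⟩ h1
  subst h2
  refine ⟨rfl, ?_⟩
  unfold vv at h
  have h3 := add_left_cancel h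
  have hs : sin α ≠ 0 := (sin_pos_of_pos_of_lt_pi hα.1 hα.2).ne'
  have h4 := smul_right_injective _ hs h3
  exact Subtype.ext (emb_injective h4)

theorem e1_point {D₁ D₂ D₃ γ₁ γ₂ γ₃ : ℝ} {ξ₁ ξ₂ ξ₃ : SS n}
    (h₁ : D₁ ∈ F.TT) (h₂ : D₂ ∈ F.TT) (h₃ : D₃ ∈ F.TT)
    (h12 : F.p0 D₁ γ₁ ξ₁ ≠ F.p1 D₂ γ₂ ξ₂) (h13 : F.p0 D₁ γ₁ ξ₁ ≠ F.p2 D₃ γ₃ ξ₃)
    (h23 : F.p1 D₂ γ₂ ξ₂ ≠ F.p2 D₃ γ₃ ξ₃) :
    F.U₀ D₁ + F.U₁ D₂ + F.U₂ D₃ ≤ creal s (F.p0 D₁ γ₁ ξ₁) (F.p1 D₂ γ₂ ξ₂) (F.p2 D₃ γ₃ ξ₃) ∧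
    (F.U₀ D₁ + F.U₁ D₂ + F.U₂ D₃ = creal s (F.p0 D₁ γ₁ ξ₁) (F.p1 D₂ γ₂ ξ₂) (F.p2 D₃ γ₃ ξ₃) →
      D₁ = D₂ ∧ D₂ = D₃ ∧ vv γ₁ (ξ₁ : FF n) = vv γ₂ (ξ₂ : FF n) ∧
        vv γ₁ (ξ₁ : FF n) = vv γ₃ (ξ₃ : FF n)) := by
  have hr₁ := F.r1g h₁
  have hr₂ := F.r2g h₂
  have hP := F.Pp h₃
  have hPl := F.Pl h₃
  obtain ⟨h1, h2⟩ := e1_ineq F.hs (by linarith) (by linarith) hP (by linarith) (F.star D₁ h₁ D₂ h₂ D₃ h₃)
    (norm_vv γ₁ ξ₁) (norm_vv γ₂ ξ₂) (norm_vv γ₃ ξ₃) h12 h13 h23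
  have hle := F.e1_le D₁ h₁ D₂ h₂ D₃ h₃
  constructor
  · exact le_trans hle h1
  · intro he
    have heq : F.U₀ D₁ + F.U₁ D₂ + F.U₂ D₃ =
        (F.r₁ D₁ + F.r₂ D₂) ^ (-s) + (F.r₁ D₁ + F.P D₃) ^ (-s) + (F.r₂ D₂ - F.P D₃) ^ (-s) := by
      apply le_antisymm hle
      rw [he]
      exact h1
    obtain ⟨a, b⟩ := F.e1_eq D₁ h₁ D₂ h₂ D₃ h₃ heq
    obtain ⟨c, d⟩ := h2 (by rw [← heq]; exact he.symm)
    exact ⟨a, b, c, d⟩

/-! ### The second family -/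

/-- The dual inequality of the second family, for all positions of the last two points. -/
theorem e2_point {D D₂ D₃ γ : ℝ} {ξ : SS n} (hD : D ∈ F.TT) (h₂ : D₂ ∈ F.TT) (h₃ : D₃ ∈ F.TT)
    {x₄ x₅ : EE n} (hx₄ : ‖x₄‖ = F.R D₂) (hx₅ : ‖x₅‖ = F.R D₃)
    (h34 : F.p2 D γ ξ ≠ x₄) (h35 : F.p2 D γ ξ ≠ x₅) (h45 : x₄ ≠ x₅) :
    F.U₂ D + F.U₃ D₂ + F.U₃ D₃ ≤ creal s (F.p2 D γ ξ) x₄ x₅ := by
  have hDp := F.D_pos hD
  have hsin : 0 < sin (F.θ D) := by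
    apply sin_pos_of_pos_of_lt_pi
    · linarith [F.θg hD, pi_pos]
    · linarith [F.θl hD, pi_pos]
  have hRp : 0 < F.R D := by linarith [F.Rg hD]
  have hB : 0 < 2 * (F.R D * sin (F.θ D)) := by positivity
  have h := e2_ineq F.hs hDp hB (F.p2 D γ ξ) x₄ x₅ h34 h35 h45
  rw [norm_p2 F hD, hx₄, hx₅, ← F.hN D hD] at h
  unfold creal
  refine le_trans (le_of_eq ?_) h
  rw [F.hU₂ D hD, F.hU₃ D₂ h₂, F.hU₃ D₃ h₃]
  ring

lemma vv_vv_same (a b : ℝ) (ξ : SS n) :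
    inner ℝ (vv a (ξ : FF n)) (vv b (ξ : FF n)) = cos (a - b) := by
  have hξ : inner ℝ (ξ : FF n) (ξ : FF n) = 1 := by
    rw [real_inner_self_eq_norm_sq]
    simp
  rw [inner_vv_vv, hξ, cos_sub]
  ring

lemma norm_sub_sq_p2_p3 (D' D γ : ℝ) (ξ : SS n) :
    ‖F.p2 D' γ ξ - F.p3 D γ ξ‖ ^ 2
      = F.P D' ^ 2 + F.R D ^ 2 + 2 * F.P D' * F.R D * cos (F.θ D) := by
  have e : F.p2 D' γ ξ - F.p3 D γ ξ = F.P D' • vv γ (ξ : FF n) + F.R D • vv (F.θ D + γ) (ξ : FF n) := by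
    unfold p2 p3
    abel
  rw [e, norm_add_sq_real, norm_smul, norm_smul, norm_vv, norm_vv, inner_smul_left,
    inner_smul_right, vv_vv_same]
  have hc : cos (γ - (F.θ D + γ)) = cos (F.θ D) := by
    rw [show γ - (F.θ D + γ) = -F.θ D by ring, cos_neg]
  rw [hc]
  simp only [norm_eq_abs, mul_one, sq_abs, RCLike.conj_to_real]
  ring

lemma norm_sub_sq_p2_p4 (D' D γ : ℝ) (ξ : SS n) :
    ‖F.p2 D' γ ξ - F.p4 D γ ξ‖ ^ 2
      = F.P D' ^ 2 + F.R D ^ 2 + 2 * F.P D' * F.R D * cos (F.θ D) := by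
  have e : F.p2 D' γ ξ - F.p4 D γ ξ = F.P D' • vv γ (ξ : FF n) + F.R D • vv (γ - F.θ D) (ξ : FF n) := by
    unfold p2 p4
    abel
  rw [e, norm_add_sq_real, norm_smul, norm_smul, norm_vv, norm_vv, inner_smul_left,
    inner_smul_right, vv_vv_same]
  have hc : cos (γ - (γ - F.θ D)) = cos (F.θ D) := by
    rw [show γ - (γ - F.θ D) = F.θ D by ring]
  rw [hc]
  simp only [norm_eq_abs, mul_one, sq_abs, RCLike.conj_to_real]
  ring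

lemma norm_p3_p4 {D : ℝ} (hD : D ∈ F.TT) (γ : ℝ) (ξ : SS n) :
    ‖F.p3 D γ ξ - F.p4 D γ ξ‖ = 2 * (F.R D * sin (F.θ D)) := by
  have hsin : 0 < sin (F.θ D) := by
    apply sin_pos_of_pos_of_lt_pi
    · linarith [F.θg hD, pi_pos]
    · linarith [F.θl hD, pi_pos]
  have hRp : 0 < F.R D := by linarith [F.Rg hD]
  have e : F.p3 D γ ξ - F.p4 D γ ξ = F.R D • (vv (γ - F.θ D) (ξ : FF n) - vv (F.θ D + γ) (ξ : FF n)) := by
    unfold p3 p4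
    rw [smul_sub]
    abel
  have h2 : ‖vv (γ - F.θ D) (ξ : FF n) - vv (F.θ D + γ) (ξ : FF n)‖ ^ 2 = (2 * sin (F.θ D)) ^ 2 := by
    rw [norm_sub_sq_real, norm_vv, norm_vv, vv_vv_same]
    have : γ - F.θ D - (F.θ D + γ) = -(2 * F.θ D) := by ring
    rw [this, cos_neg, cos_two_mul]
    have := sin_sq_add_cos_sq (F.θ D)
    nlinarith
  have h3 : ‖vv (γ - F.θ D) (ξ : FF n) - vv (F.θ D + γ) (ξ : FF n)‖ = 2 * sin (F.θ D) :=
    (sq_eq_sq₀ (norm_nonneg _) (by positivity)).1 h2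
  rw [e, norm_smul, h3, norm_of_nonneg hRp.le]
  ring

lemma p2_p3_dist {D : ℝ} (hD : D ∈ F.TT) (γ : ℝ) (ξ : SS n) : ‖F.p2 D γ ξ - F.p3 D γ ξ‖ = D := by
  have h := F.norm_sub_sq_p2_p3 D D γ ξ
  rw [F.geom D hD] at h
  exact (sq_eq_sq₀ (norm_nonneg _) (F.D_pos hD).le).1 h

lemma p2_p4_dist {D : ℝ} (hD : D ∈ F.TT) (γ : ℝ) (ξ : SS n) : ‖F.p2 D γ ξ - F.p4 D γ ξ‖ = D := by
  have h := F.norm_sub_sq_p2_p4 D D γ ξ
  rw [F.geom D hD] at h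
  exact (sq_eq_sq₀ (norm_nonneg _) (F.D_pos hD).le).1 h

/-- The value of the cost on the tight triples of the second family. -/
lemma tight2_point {D : ℝ} (hD : D ∈ F.TT) (γ : ℝ) (ξ : SS n) :
    creal s (F.p2 D γ ξ) (F.p3 D γ ξ) (F.p4 D γ ξ) = F.U₂ D + F.U₃ D + F.U₃ D := by
  unfold creal
  rw [F.p2_p3_dist hD, F.p2_p4_dist hD, F.norm_p3_p4 hD, F.tight2 D hD]
  ring

/-- Distances on the line. -/
lemma norm_line_add (a b : ℝ) (ha : 0 ≤ a) (hb : 0 ≤ b) (u : EE n) (hu : ‖u‖ = 1) :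
    ‖-(a • u) - b • u‖ = a + b := by
  have : -(a • u) - b • u = -((a + b) • u) := by rw [add_smul]; abel
  rw [this, norm_neg, norm_smul, hu, mul_one, norm_of_nonneg (by positivity)]

lemma norm_line_sub (a b : ℝ) (hab : b ≤ a) (u : EE n) (hu : ‖u‖ = 1) :
    ‖a • u - b • u‖ = a - b := by
  rw [← sub_smul, norm_smul, hu, mul_one, norm_of_nonneg (by linarith)]

/-- The value of the cost on the triples of the first family with a shifted central point. -/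
lemma line_point {D D' : ℝ} (hD : D ∈ F.TT) (hD' : D' ∈ F.TT) (γ : ℝ) (ξ : SS n) :
    creal s (F.p0 D γ ξ) (F.p1 D γ ξ) (F.p2 D' γ ξ)
      = (F.r₁ D + F.r₂ D) ^ (-s) + (F.r₁ D + F.P D') ^ (-s) + (F.r₂ D - F.P D') ^ (-s) := by
  unfold creal p0 p1 p2
  have hu := norm_vv γ ξ
  have hr₁ := F.r1g hD
  have hr₂ := F.r2g hD
  have hP := F.Pp hD'
  have hPl := F.Pl hD'
  rw [norm_line_add _ _ (by linarith) (by linarith) _ hu,
    norm_line_add _ _ (by linarith) (by linarith) _ hu,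
    norm_line_sub _ _ (by linarith) _ hu]

/-- The value of the cost on the triples of the second family with a shifted central point. -/
lemma tri_point {D D' : ℝ} (hD : D ∈ F.TT) (γ : ℝ) (ξ : SS n) (hP : 0 < F.P D') :
    creal s (F.p2 D' γ ξ) (F.p3 D γ ξ) (F.p4 D γ ξ)
      = 2 * (F.P D' ^ 2 + F.R D ^ 2 + 2 * F.P D' * F.R D * cos (F.θ D)) ^ (-s / 2)
        + (2 * (F.R D * sin (F.θ D))) ^ (-s) := by
  unfold creal
  have hc : 0 < cos (F.θ D) := by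
    apply cos_pos_of_mem_Ioo
    constructor
    · linarith [F.θg hD, pi_pos]
    · exact F.θl hD
  have hR : 0 < F.R D := by linarith [F.Rg hD]
  have hQ : 0 < F.P D' ^ 2 + F.R D ^ 2 + 2 * F.P D' * F.R D * cos (F.θ D) := by positivity
  have e : ∀ d : ℝ, 0 ≤ d → d ^ 2 = F.P D' ^ 2 + F.R D ^ 2 + 2 * F.P D' * F.R D * cos (F.θ D) →
      d ^ (-s) = (F.P D' ^ 2 + F.R D ^ 2 + 2 * F.P D' * F.R D * cos (F.θ D)) ^ (-s / 2) := by
    intro d hd hd2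
    have hd' : 0 < d := by
      rcases hd.lt_or_eq with h | h
      · exact h
      · rw [← h] at hd2
        nlinarith
    rw [← hd2, sq_rpow hd']
    congr 1
    ring
  rw [e _ (norm_nonneg _) (F.norm_sub_sq_p2_p3 D' D γ ξ),
    e _ (norm_nonneg _) (F.norm_sub_sq_p2_p4 D' D γ ξ), F.norm_p3_p4 hD]
  ring

/-! ### Separations and the remaining triples -/

lemma vv_sub_e0 {γ : ℝ} (hγ : 0 ≤ γ) (ξ : SS n) : ‖vv γ (ξ : FF n) - e0 n‖ ≤ γ := by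
  have h : ‖vv γ (ξ : FF n) - e0 n‖ ^ 2 ≤ γ ^ 2 := by
    rw [norm_sub_sq_real, norm_vv, norm_e0, real_inner_comm, inner_e0_vv]
    have := one_sub_sq_div_two_le_cos (x := γ)
    nlinarith
  exact (sq_le_sq₀ (norm_nonneg _) hγ).1 h

lemma vv_sub_vv {γ γ' : ℝ} (hγ : 0 ≤ γ) (hγ' : 0 ≤ γ') (ξ ξ' : SS n) :
    ‖vv γ (ξ : FF n) - vv γ' (ξ' : FF n)‖ ≤ γ + γ' := by
  have h := norm_sub_le_norm_sub_add_norm_sub (vv γ (ξ : FF n)) (e0 n) (vv γ' (ξ' : FF n))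
  rw [norm_sub_rev (e0 n)] at h
  linarith [vv_sub_e0 hγ ξ, vv_sub_e0 hγ' ξ']

end FamData

end Crest.Agent.Lib.MMOT
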