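import Mathlib
import Crest.Agent.Lib.MMOT.Points

/-!
# The dual inequalities for all triples of points of the five sheets
-/

set_option linter.style.haveILetI false
set_option linter.unusedSectionVars false

namespace Crest.Agent.Lib.MMOT

open Set Real
open scoped ContDiff

namespace FamData

variable {s : ℝ} (F : FamData s) {n : ℕ}

/-- The upper end of the angular interval. -/
noncomputable def g2 : ℝ := min (1 / 80) (F.ℓ / 8)
/-- The lower end of the angular interval. -/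
noncomputable def g1 : ℝ := F.g2 / 2
/-- The angular interval. -/
abbrev GG : Set ℝ := Ioo F.g1 F.g2

lemma g2_pos : 0 < F.g2 := lt_min (by norm_num) (by have := F.ℓ_pos; positivity)
lemma g1_pos : 0 < F.g1 := by have := F.g2_pos; unfold g1; positivity
lemma g1_lt : F.g1 < F.g2 := by have := F.g2_pos; unfold g1; linarith
lemma g2_le : F.g2 ≤ 1 / 80 := min_le_left _ _
lemma g2_le' : F.g2 ≤ F.ℓ / 8 := min_le_right _ _

section
variable {γ : ℝ} (hγ : γ ∈ F.GG)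
include hγ
lemma γp : 0 < γ := lt_trans F.g1_pos hγ.1
lemma γl : γ < 1 / 80 := lt_of_lt_of_le hγ.2 F.g2_le
lemma γl' : γ < F.ℓ / 8 := lt_of_lt_of_le hγ.2 F.g2_le'
end

lemma abs_inner_vv_le (a b : ℝ) (ξ ξ' : SS n) :
    |inner ℝ (vv a (ξ : FF n)) (vv b (ξ' : FF n))| ≤ |sin a| + |cos b| := by
  rw [inner_vv_vv]
  have h1 : |inner ℝ (ξ : FF n) (ξ' : FF n)| ≤ 1 := by
    have := abs_real_inner_le_norm (ξ : FF n) (ξ' : FF n)
    simpa using this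
  have h2 := abs_sin_le_one b
  have h3 := abs_cos_le_one a
  calc |cos a * cos b + sin a * sin b * inner ℝ (ξ : FF n) (ξ' : FF n)|
      ≤ |cos a * cos b| + |sin a * sin b * inner ℝ (ξ : FF n) (ξ' : FF n)| := abs_add_le _ _
    _ = |cos a| * |cos b| + |sin a| * |sin b| * |inner ℝ (ξ : FF n) (ξ' : FF n)| := by
        rw [abs_mul, abs_mul, abs_mul]
    _ ≤ 1 * |cos b| + |sin a| * 1 * 1 := by
        gcongr
    _ = _ := by ring

lemma abs_sin_small {γ : ℝ} (h0 : 0 < γ) (h1 : γ < 1 / 80) : |sin γ| ≤ γ := by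
  have hs : 0 ≤ sin γ := sin_nonneg_of_nonneg_of_le_pi h0.le (by linarith [pi_pos, pi_gt_three])
  rw [abs_of_nonneg hs]
  exact sin_le h0.le

/-- The inner product of directions in the outer sheets and in the triangle sheets is small. -/
lemma inner_small₃ {D γ γ' : ℝ} (hD : D ∈ F.TT) (hγ : γ ∈ F.GG) (hγ' : γ' ∈ F.GG) (ξ ξ' : SS n) :
    |inner ℝ (vv γ (ξ : FF n)) (vv (F.θ D + γ') (ξ' : FF n))| ≤ 1 / 10 := by
  refine le_trans (abs_inner_vv_le _ _ _ _) ?_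
  have h1 := abs_sin_small (F.γp hγ) (F.γl hγ)
  have h2 := abs_sin_small (F.γp hγ') (F.γl hγ')
  have hc := F.cos_small D hD
  have hcp : 0 < cos (F.θ D) := by
    apply cos_pos_of_mem_Ioo
    exact ⟨by linarith [F.θg hD, pi_pos], F.θl hD⟩
  have h3 : |cos (F.θ D + γ')| ≤ cos (F.θ D) + |sin γ'| := by
    rw [cos_add]
    calc |cos (F.θ D) * cos γ' - sin (F.θ D) * sin γ'|
        ≤ |cos (F.θ D) * cos γ'| + |sin (F.θ D) * sin γ'| := abs_sub _ _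
      _ = |cos (F.θ D)| * |cos γ'| + |sin (F.θ D)| * |sin γ'| := by rw [abs_mul, abs_mul]
      _ ≤ cos (F.θ D) * 1 + 1 * |sin γ'| := by
          rw [abs_of_pos hcp]
          gcongr
          · exact abs_cos_le_one _
          · exact abs_sin_le_one _
      _ = _ := by ring
  have := F.γl hγ
  have := F.γl hγ'
  linarith

lemma inner_small₄ {D γ γ' : ℝ} (hD : D ∈ F.TT) (hγ : γ ∈ F.GG) (hγ' : γ' ∈ F.GG) (ξ ξ' : SS n) :
    |inner ℝ (vv γ (ξ : FF n)) (vv (γ' - F.θ D) (ξ' : FF n))| ≤ 1 / 10 := by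
  refine le_trans (abs_inner_vv_le _ _ _ _) ?_
  have h1 := abs_sin_small (F.γp hγ) (F.γl hγ)
  have h2 := abs_sin_small (F.γp hγ') (F.γl hγ')
  have hc := F.cos_small D hD
  have hcp : 0 < cos (F.θ D) := by
    apply cos_pos_of_mem_Ioo
    exact ⟨by linarith [F.θg hD, pi_pos], F.θl hD⟩
  have h3 : |cos (γ' - F.θ D)| ≤ cos (F.θ D) + |sin γ'| := by
    rw [cos_sub]
    calc |cos γ' * cos (F.θ D) + sin γ' * sin (F.θ D)|
        ≤ |cos γ' * cos (F.θ D)| + |sin γ' * sin (F.θ D)| := abs_add_le _ _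
      _ = |cos γ'| * |cos (F.θ D)| + |sin γ'| * |sin (F.θ D)| := by rw [abs_mul, abs_mul]
      _ ≤ 1 * cos (F.θ D) + |sin γ'| * 1 := by
          rw [abs_of_pos hcp]
          gcongr
          · exact abs_cos_le_one _
          · exact abs_sin_le_one _
      _ = _ := by ring
  have := F.γl hγ
  have := F.γl hγ'
  linarith

/-- The common form of the cross inequalities. -/
lemma cross_core (hs : 0 < s) {x y z : EE n} {pp r RR : ℝ} (hr : 0 < r) (hRR : 0 < RR) (hpp : 0 < pp)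
    (hx : ‖x‖ = pp) (hy : ‖y‖ = r) (hz : ‖z‖ = RR)
    (hxy : x ≠ y) (hxz : x ≠ z) (hyz : y ≠ z)
    (hin : ‖y - z‖ ^ 2 ≤ r ^ 2 + RR ^ 2 + 2 * r * RR * (1 / 10)) :
    (pp + r) ^ (-s) + (pp + RR) ^ (-s) + (r ^ 2 + RR ^ 2 + 2 * r * RR * (1 / 10)) ^ (-s / 2)
      ≤ creal s x y z := by
  unfold creal
  have h1 : (pp + r) ^ (-s) ≤ ‖x - y‖ ^ (-s) := by
    apply rpow_neg_anti hs (norm_pos_iff.2 (sub_ne_zero.2 hxy))
    calc ‖x - y‖ ≤ ‖x‖ + ‖y‖ := norm_sub_le _ _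
      _ = _ := by rw [hx, hy]
  have h2 : (pp + RR) ^ (-s) ≤ ‖x - z‖ ^ (-s) := by
    apply rpow_neg_anti hs (norm_pos_iff.2 (sub_ne_zero.2 hxz))
    calc ‖x - z‖ ≤ ‖x‖ + ‖z‖ := norm_sub_le _ _
      _ = _ := by rw [hx, hz]
  have h3 := rpow_neg_div_two hs (norm_pos_iff.2 (sub_ne_zero.2 hyz)) hin
  linarith

lemma norm_sub_sq_neg_neg {r RR : ℝ} {u w : EE n} (hr : 0 < r) (hRR : 0 < RR) (hu : ‖u‖ = 1)
    (hw : ‖w‖ = 1) (hin : |inner ℝ u w| ≤ 1 / 10) :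
    ‖-(r • u) - -(RR • w)‖ ^ 2 ≤ r ^ 2 + RR ^ 2 + 2 * r * RR * (1 / 10) := by
  have e : -(r • u) - -(RR • w) = RR • w - r • u := by abel
  rw [e, norm_sub_sq_real, norm_smul, norm_smul, inner_smul_left, inner_smul_right, hu, hw,
    norm_of_nonneg hr.le, norm_of_nonneg hRR.le, real_inner_comm]
  simp only [RCLike.conj_to_real]
  have h := (abs_le.1 hin).1
  have hp : 0 < r * RR := by positivity
  nlinarith

lemma norm_sub_sq_pos_neg {r RR : ℝ} {u w : EE n} (hr : 0 < r) (hRR : 0 < RR) (hu : ‖u‖ = 1)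
    (hw : ‖w‖ = 1) (hin : |inner ℝ u w| ≤ 1 / 10) :
    ‖r • u - -(RR • w)‖ ^ 2 ≤ r ^ 2 + RR ^ 2 + 2 * r * RR * (1 / 10) := by
  have e : r • u - -(RR • w) = r • u + RR • w := by abel
  rw [e, norm_add_sq_real, norm_smul, norm_smul, inner_smul_left, inner_smul_right, hu, hw,
    norm_of_nonneg hr.le, norm_of_nonneg hRR.le]
  simp only [RCLike.conj_to_real]
  have h := (abs_le.1 hin).2
  have hp : 0 < r * RR := by positivity
  nlinarith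

/-- A general bound for two points of an outer sheet. -/
lemma outer_diam {r r' γ γ' : ℝ} {ξ ξ' : SS n} (hr' : 0 < r') (hrl : r' < 5 / 3)
    (hsp : |r - r'| < F.ℓ / 2) (hγ : γ ∈ F.GG) (hγ' : γ' ∈ F.GG) :
    ‖r • vv γ (ξ : FF n) - r' • vv γ' (ξ' : FF n)‖ < F.ℓ := by
  have e : r • vv γ (ξ : FF n) - r' • vv γ' (ξ' : FF n)
      = (r - r') • vv γ (ξ : FF n) + r' • (vv γ (ξ : FF n) - vv γ' (ξ' : FF n)) := by
    rw [sub_smul, smul_sub]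
    abel
  rw [e]
  have h1 := vv_sub_vv (F.γp hγ).le (F.γp hγ').le ξ ξ'
  have hl1 := F.γl' hγ
  have hl2 := F.γl' hγ'
  have hℓ := F.ℓ_pos
  calc ‖(r - r') • vv γ (ξ : FF n) + r' • (vv γ (ξ : FF n) - vv γ' (ξ' : FF n))‖
      ≤ ‖(r - r') • vv γ (ξ : FF n)‖ + ‖r' • (vv γ (ξ : FF n) - vv γ' (ξ' : FF n))‖ := norm_add_le _ _
    _ = |r - r'| + r' * ‖vv γ (ξ : FF n) - vv γ' (ξ' : FF n)‖ := by
        rw [norm_smul, norm_smul, norm_vv, mul_one, norm_of_nonneg hr'.le]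
        rfl
    _ < F.ℓ := by
        have : r' * ‖vv γ (ξ : FF n) - vv γ' (ξ' : FF n)‖ ≤ 5 / 3 * (γ + γ') :=
          mul_le_mul hrl.le h1 (norm_nonneg _) (by norm_num)
        nlinarith

/-- A cost lower bound from a small distance. -/
lemma cost_big {x y w : EE n} (hxy : x ≠ y) (hd : ‖x - y‖ < F.ℓ) : 3 * F.M < creal s x y w := by
  have h1 := le_creal_of_dist (s := s) (w := w) hxy
  have h2 : F.ℓ ^ (-s) ≤ ‖x - y‖ ^ (-s) :=
    rpow_neg_anti F.hs (norm_pos_iff.2 (sub_ne_zero.2 hxy)) hd.le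
  have := F.hℓ
  linarith

/-! ### Indexed sheets -/

/-- The sheets as a family. -/
noncomputable def pt (i : Fin 5) (a : ℝ × ℝ × SS n) : EE n :=
  ![F.p0 a.1 a.2.1 a.2.2, F.p1 a.1 a.2.1 a.2.2, F.p2 a.1 a.2.1 a.2.2, F.p3 a.1 a.2.1 a.2.2,
    F.p4 a.1 a.2.1 a.2.2] i

/-- The real potentials as a family. -/
noncomputable def Uf (i : Fin 5) (D : ℝ) : ℝ := ![F.U₀ D, F.U₁ D, F.U₂ D, F.U₃ D, F.U₃ D] i

/-- The admissible parameters. -/
def Adm (a : ℝ × ℝ × SS n) : Prop := a.1 ∈ F.TT ∧ a.2.1 ∈ F.GG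

lemma Uf_le {i : Fin 5} {D : ℝ} (hD : D ∈ F.TT) : F.Uf i D ≤ F.M := by
  have hM := F.M_pos
  fin_cases i
  · exact le_trans (F.U₀_neg D hD).le hM.le
  · exact le_trans (F.U₁_neg D hD).le hM.le
  · exact F.U₂_le D hD
  · exact le_trans (F.U₃_nonpos D hD) hM.le
  · exact le_trans (F.U₃_nonpos D hD) hM.le

lemma Uf_nonpos {i : Fin 5} (hi : i ≠ 2) {D : ℝ} (hD : D ∈ F.TT) : F.Uf i D ≤ 0 := by
  fin_cases i
  · exact (F.U₀_neg D hD).le
  · exact (F.U₁_neg D hD).le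
  · exact absurd rfl hi
  · exact F.U₃_nonpos D hD
  · exact F.U₃_nonpos D hD

/-- Triples without central points. -/
lemma lt_noC {i j l : Fin 5} (hi : i ≠ 2) (hj : j ≠ 2) (hl : l ≠ 2) {a b c : ℝ × ℝ × SS n}
    (ha : F.Adm a) (hb : F.Adm b) (hc : F.Adm c) (hne : F.pt i a ≠ F.pt j b) :
    F.Uf i a.1 + F.Uf j b.1 + F.Uf l c.1 < creal s (F.pt i a) (F.pt j b) (F.pt l c) := by
  have h1 := F.Uf_nonpos hi ha.1
  have h2 := F.Uf_nonpos hj hb.1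
  have h3 := F.Uf_nonpos hl hc.1
  have := creal_pos (s := s) (w := F.pt l c) hne
  linarith

/-- Triples with two central points. -/
lemma lt_twoC {l : Fin 5} {a b c : ℝ × ℝ × SS n}
    (ha : F.Adm a) (hb : F.Adm b) (hc : F.Adm c) (hne : F.pt 2 a ≠ F.pt 2 b) :
    F.Uf 2 a.1 + F.Uf 2 b.1 + F.Uf l c.1 < creal s (F.pt 2 a) (F.pt 2 b) (F.pt l c) := by
  have h1 := F.Uf_le (i := 2) ha.1
  have h2 := F.Uf_le (i := 2) hb.1
  have h3 := F.Uf_le (i := l) hc.1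
  have hd : ‖F.pt 2 a - F.pt 2 b‖ < F.ℓ := by
    have e1 : ‖F.pt 2 a‖ = F.P a.1 := F.norm_p2 ha.1 _ _
    have e2 : ‖F.pt 2 b‖ = F.P b.1 := F.norm_p2 hb.1 _ _
    have := norm_sub_le (F.pt 2 a) (F.pt 2 b)
    rw [e1, e2] at this
    have h4 := F.P_ℓ a.1 ha.1
    have h5 := F.P_ℓ b.1 hb.1
    linarith
  have := F.cost_big (s := s) (w := F.pt l c) hne hd
  linarith

/-- Two points of the first sheet. -/
lemma lt_outer0 {a b c : ℝ × ℝ × SS n}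
    (ha : F.Adm a) (hb : F.Adm b) (hc : F.Adm c) (hne : F.pt 0 b ≠ F.pt 0 c) :
    F.Uf 2 a.1 + F.Uf 0 b.1 + F.Uf 0 c.1 < creal s (F.pt 2 a) (F.pt 0 b) (F.pt 0 c) := by
  have h1 := F.Uf_le (i := 2) ha.1
  have h2 := F.Uf_nonpos (i := 0) (by decide) hb.1
  have h3 := F.Uf_nonpos (i := 0) (by decide) hc.1
  have hd : ‖F.pt 0 b - F.pt 0 c‖ < F.ℓ := by
    have e : F.pt 0 b - F.pt 0 c = -(F.r₁ b.1 • vv b.2.1 (b.2.2 : FF n) -
        F.r₁ c.1 • vv c.2.1 (c.2.2 : FF n)) := by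
      show F.p0 _ _ _ - F.p0 _ _ _ = _
      unfold p0
      abel
    rw [e, norm_neg]
    exact F.outer_diam (by linarith [F.r1g hc.1]) (F.r1l hc.1) (F.r₁_spread _ hb.1 _ hc.1) hb.2 hc.2
  have h4 := F.cost_big (s := s) (w := F.pt 2 a) hne hd
  have e2 : creal s (F.pt 2 a) (F.pt 0 b) (F.pt 0 c) = creal s (F.pt 0 b) (F.pt 0 c) (F.pt 2 a) := by
    rw [creal_swap12, creal_swap23]
  rw [e2]
  have hM := F.M_pos
  linarith

/-- Two points of the second sheet. -/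
lemma lt_outer1 {a b c : ℝ × ℝ × SS n}
    (ha : F.Adm a) (hb : F.Adm b) (hc : F.Adm c) (hne : F.pt 1 b ≠ F.pt 1 c) :
    F.Uf 2 a.1 + F.Uf 1 b.1 + F.Uf 1 c.1 < creal s (F.pt 2 a) (F.pt 1 b) (F.pt 1 c) := by
  have h1 := F.Uf_le (i := 2) ha.1
  have h2 := F.Uf_nonpos (i := 1) (by decide) hb.1
  have h3 := F.Uf_nonpos (i := 1) (by decide) hc.1
  have hd : ‖F.pt 1 b - F.pt 1 c‖ < F.ℓ :=
    F.outer_diam (by linarith [F.r2g hc.1]) (F.r2l hc.1) (F.r₂_spread _ hb.1 _ hc.1) hb.2 hc.2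
  have h4 := F.cost_big (s := s) (w := F.pt 2 a) hne hd
  have e2 : creal s (F.pt 2 a) (F.pt 1 b) (F.pt 1 c) = creal s (F.pt 1 b) (F.pt 1 c) (F.pt 2 a) := by
    rw [creal_swap12, creal_swap23]
  rw [e2]
  have hM := F.M_pos
  linarith

/-- Outer sheet and triangle sheet, the inner product condition. -/
lemma cross_in {j l : Fin 5} (hj : j = 0 ∨ j = 1) (hl : l = 3 ∨ l = 4) {b c : ℝ × ℝ × SS n}
    (hb : F.Adm b) (hc : F.Adm c) :
    ‖F.pt j b - F.pt l c‖ ^ 2 ≤ ‖F.pt j b‖ ^ 2 + ‖F.pt l c‖ ^ 2 +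
      2 * ‖F.pt j b‖ * ‖F.pt l c‖ * (1 / 10) := by
  have hR : 0 < F.R c.1 := by linarith [F.Rg hc.1]
  have hr₁ : 0 < F.r₁ b.1 := by linarith [F.r1g hb.1]
  have hr₂ : 0 < F.r₂ b.1 := by linarith [F.r2g hb.1]
  rcases hj with rfl | rfl <;> rcases hl with rfl | rfl
  · have e1 : ‖F.pt 0 b‖ = F.r₁ b.1 := F.norm_p0 hb.1 _ _
    have e2 : ‖F.pt 3 c‖ = F.R c.1 := F.norm_p3 hc.1 _ _
    rw [e1, e2]
    exact norm_sub_sq_neg_neg hr₁ hR (norm_vv _ _) (norm_vv _ _) (F.inner_small₃ hc.1 hb.2 hc.2 _ _)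
  · have e1 : ‖F.pt 0 b‖ = F.r₁ b.1 := F.norm_p0 hb.1 _ _
    have e2 : ‖F.pt 4 c‖ = F.R c.1 := F.norm_p4 hc.1 _ _
    rw [e1, e2]
    exact norm_sub_sq_neg_neg hr₁ hR (norm_vv _ _) (norm_vv _ _) (F.inner_small₄ hc.1 hb.2 hc.2 _ _)
  · have e1 : ‖F.pt 1 b‖ = F.r₂ b.1 := F.norm_p1 hb.1 _ _
    have e2 : ‖F.pt 3 c‖ = F.R c.1 := F.norm_p3 hc.1 _ _
    rw [e1, e2]
    exact norm_sub_sq_pos_neg hr₂ hR (norm_vv _ _) (norm_vv _ _) (F.inner_small₃ hc.1 hb.2 hc.2 _ _)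
  · have e1 : ‖F.pt 1 b‖ = F.r₂ b.1 := F.norm_p1 hb.1 _ _
    have e2 : ‖F.pt 4 c‖ = F.R c.1 := F.norm_p4 hc.1 _ _
    rw [e1, e2]
    exact norm_sub_sq_pos_neg hr₂ hR (norm_vv _ _) (norm_vv _ _) (F.inner_small₄ hc.1 hb.2 hc.2 _ _)

lemma norm_pt3_or {l : Fin 5} (hl : l = 3 ∨ l = 4) {c : ℝ × ℝ × SS n} (hc : F.Adm c) :
    ‖F.pt l c‖ = F.R c.1 := by
  rcases hl with rfl | rfl
  · exact F.norm_p3 hc.1 _ _
  · exact F.norm_p4 hc.1 _ _

/-- Outer sheet and triangle sheet. -/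
lemma lt_cross {j l : Fin 5} (hj : j = 0 ∨ j = 1) (hl : l = 3 ∨ l = 4) {a b c : ℝ × ℝ × SS n}
    (ha : F.Adm a) (hb : F.Adm b) (hc : F.Adm c)
    (h12 : F.pt 2 a ≠ F.pt j b) (h13 : F.pt 2 a ≠ F.pt l c) (h23 : F.pt j b ≠ F.pt l c) :
    F.Uf 2 a.1 + F.Uf j b.1 + F.Uf l c.1 < creal s (F.pt 2 a) (F.pt j b) (F.pt l c) := by
  have hin := F.cross_in hj hl hb hc
  have h3 := F.Uf_nonpos (i := l) (by rcases hl with rfl | rfl <;> decide) hc.1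
  have hP : 0 < F.P a.1 := F.Pp ha.1
  have hR : 0 < F.R c.1 := by linarith [F.Rg hc.1]
  rw [F.norm_pt3_or hl hc] at hin
  have hna : ‖F.pt 2 a‖ = F.P a.1 := F.norm_p2 ha.1 _ _
  rcases hj with rfl | rfl
  · have e1 : ‖F.pt 0 b‖ = F.r₁ b.1 := F.norm_p0 hb.1 _ _
    rw [e1] at hin
    have h := cross_core F.hs (by linarith [F.r1g hb.1]) hR hP hna e1 (F.norm_pt3_or hl hc) h12 h13 h23 hin
    have h2 := F.cross₀ a.1 ha.1 b.1 hb.1 c.1 hc.1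
    have e3 : F.Uf 2 a.1 = F.U₂ a.1 := rfl
    have e4 : F.Uf 0 b.1 = F.U₀ b.1 := rfl
    rw [e3, e4]
    linarith
  · have e1 : ‖F.pt 1 b‖ = F.r₂ b.1 := F.norm_p1 hb.1 _ _
    rw [e1] at hin
    have h := cross_core F.hs (by linarith [F.r2g hb.1]) hR hP hna e1 (F.norm_pt3_or hl hc) h12 h13 h23 hin
    have h2 := F.cross₁ a.1 ha.1 b.1 hb.1 c.1 hc.1
    have e3 : F.Uf 2 a.1 = F.U₂ a.1 := rfl
    have e4 : F.Uf 1 b.1 = F.U₁ b.1 := rfl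
    rw [e3, e4]
    linarith

/-- The triangle sheets. -/
lemma le_tri {j l : Fin 5} (hj : j = 3 ∨ j = 4) (hl : l = 3 ∨ l = 4) {a b c : ℝ × ℝ × SS n}
    (ha : F.Adm a) (hb : F.Adm b) (hc : F.Adm c)
    (h12 : F.pt 2 a ≠ F.pt j b) (h13 : F.pt 2 a ≠ F.pt l c) (h23 : F.pt j b ≠ F.pt l c) :
    F.Uf 2 a.1 + F.Uf j b.1 + F.Uf l c.1 ≤ creal s (F.pt 2 a) (F.pt j b) (F.pt l c) := by
  have h := F.e2_point (γ := a.2.1) (ξ := a.2.2) ha.1 hb.1 hc.1 (F.norm_pt3_or hj hb)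
    (F.norm_pt3_or hl hc) h12 h13 h23
  have e3 : F.Uf 2 a.1 = F.U₂ a.1 := rfl
  have e4 : F.Uf j b.1 = F.U₃ b.1 := by rcases hj with rfl | rfl <;> rfl
  have e5 : F.Uf l c.1 = F.U₃ c.1 := by rcases hl with rfl | rfl <;> rfl
  rw [e3, e4, e5]
  exact h

/-- The first family, with the centre in front. -/
lemma e1_center {a b c : ℝ × ℝ × SS n} (ha : F.Adm a) (hb : F.Adm b) (hc : F.Adm c)
    (h12 : F.pt 2 a ≠ F.pt 0 b) (h13 : F.pt 2 a ≠ F.pt 1 c) (h23 : F.pt 0 b ≠ F.pt 1 c) :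
    F.Uf 2 a.1 + F.Uf 0 b.1 + F.Uf 1 c.1 ≤ creal s (F.pt 2 a) (F.pt 0 b) (F.pt 1 c) ∧
    (F.Uf 2 a.1 + F.Uf 0 b.1 + F.Uf 1 c.1 = creal s (F.pt 2 a) (F.pt 0 b) (F.pt 1 c) →
      b = c ∧ b = a) := by
  have e2 : creal s (F.pt 2 a) (F.pt 0 b) (F.pt 1 c) = creal s (F.pt 0 b) (F.pt 1 c) (F.pt 2 a) := by
    rw [creal_swap12, creal_swap23]
  rw [e2]
  obtain ⟨h1, h2⟩ := F.e1_point (γ₁ := b.2.1) (γ₂ := c.2.1) (γ₃ := a.2.1) (ξ₁ := b.2.2) (ξ₂ := c.2.2)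
    (ξ₃ := a.2.2) hb.1 hc.1 ha.1 h23 h12.symm h13.symm
  have e3 : F.Uf 2 a.1 = F.U₂ a.1 := rfl
  have e4 : F.Uf 0 b.1 = F.U₀ b.1 := rfl
  have e5 : F.Uf 1 c.1 = F.U₁ c.1 := rfl
  rw [e3, e4, e5]
  have hS : F.U₂ a.1 + F.U₀ b.1 + F.U₁ c.1 = F.U₀ b.1 + F.U₁ c.1 + F.U₂ a.1 := by ring
  rw [hS]
  refine ⟨h1, fun he => ?_⟩
  obtain ⟨d1, d2, v1, v2⟩ := h2 he
  have hb' : b.2.1 ∈ Ioo (0:ℝ) π := ⟨F.γp hb.2, by linarith [F.γl hb.2, pi_gt_three]⟩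
  have hc' : c.2.1 ∈ Ioo (0:ℝ) π := ⟨F.γp hc.2, by linarith [F.γl hc.2, pi_gt_three]⟩
  have ha' : a.2.1 ∈ Ioo (0:ℝ) π := ⟨F.γp ha.2, by linarith [F.γl ha.2, pi_gt_three]⟩
  obtain ⟨g1', x1⟩ := vv_injOn hb' hc' v1
  obtain ⟨g2', x2⟩ := vv_injOn hb' ha' v2
  exact ⟨Prod.ext d1 (Prod.ext g1' x1), Prod.ext (d1.trans d2) (Prod.ext g2' x2)⟩

/-- All triples with one central point. -/
lemma center_le {j l : Fin 5} (hj : j ≠ 2) (hl : l ≠ 2) {a b c : ℝ × ℝ × SS n}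
    (ha : F.Adm a) (hb : F.Adm b) (hc : F.Adm c)
    (h12 : F.pt 2 a ≠ F.pt j b) (h13 : F.pt 2 a ≠ F.pt l c) (h23 : F.pt j b ≠ F.pt l c) :
    F.Uf 2 a.1 + F.Uf j b.1 + F.Uf l c.1 ≤ creal s (F.pt 2 a) (F.pt j b) (F.pt l c) := by
  have hsw : F.Uf 2 a.1 + F.Uf j b.1 + F.Uf l c.1 = F.Uf 2 a.1 + F.Uf l c.1 + F.Uf j b.1 := by ring
  have hcw : creal s (F.pt 2 a) (F.pt j b) (F.pt l c) = creal s (F.pt 2 a) (F.pt l c) (F.pt j b) :=
    creal_swap23 _ _ _ _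
  fin_cases j <;> fin_cases l <;> simp only [Fin.isValue, Fin.reduceFinMk] at *
  · exact (F.lt_outer0 ha hb hc h23).le
  · exact (F.e1_center ha hb hc h12 h13 h23).1
  · exact absurd rfl hl
  · exact (F.lt_cross (Or.inl rfl) (Or.inl rfl) ha hb hc h12 h13 h23).le
  · exact (F.lt_cross (Or.inl rfl) (Or.inr rfl) ha hb hc h12 h13 h23).le
  · rw [hsw, hcw]; exact (F.e1_center ha hc hb h13 h12 h23.symm).1
  · exact (F.lt_outer1 ha hb hc h23).le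
  · exact absurd rfl hl
  · exact (F.lt_cross (Or.inr rfl) (Or.inl rfl) ha hb hc h12 h13 h23).le
  · exact (F.lt_cross (Or.inr rfl) (Or.inr rfl) ha hb hc h12 h13 h23).le
  · exact absurd rfl hj
  · exact absurd rfl hj
  · exact absurd rfl hj
  · exact absurd rfl hj
  · exact absurd rfl hj
  · rw [hsw, hcw]; exact (F.lt_cross (Or.inl rfl) (Or.inl rfl) ha hc hb h13 h12 h23.symm).le
  · rw [hsw, hcw]; exact (F.lt_cross (Or.inr rfl) (Or.inl rfl) ha hc hb h13 h12 h23.symm).le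
  · exact absurd rfl hl
  · exact F.le_tri (Or.inl rfl) (Or.inl rfl) ha hb hc h12 h13 h23
  · exact F.le_tri (Or.inl rfl) (Or.inr rfl) ha hb hc h12 h13 h23
  · rw [hsw, hcw]; exact (F.lt_cross (Or.inl rfl) (Or.inr rfl) ha hc hb h13 h12 h23.symm).le
  · rw [hsw, hcw]; exact (F.lt_cross (Or.inr rfl) (Or.inr rfl) ha hc hb h13 h12 h23.symm).le
  · exact absurd rfl hl
  · exact F.le_tri (Or.inr rfl) (Or.inl rfl) ha hb hc h12 h13 h23
  · exact F.le_tri (Or.inr rfl) (Or.inr rfl) ha hb hc h12 h13 h23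

/-- The dual inequality for all triples. -/
theorem le_all {i j l : Fin 5} {a b c : ℝ × ℝ × SS n}
    (ha : F.Adm a) (hb : F.Adm b) (hc : F.Adm c)
    (h12 : F.pt i a ≠ F.pt j b) (h13 : F.pt i a ≠ F.pt l c) (h23 : F.pt j b ≠ F.pt l c) :
    F.Uf i a.1 + F.Uf j b.1 + F.Uf l c.1 ≤ creal s (F.pt i a) (F.pt j b) (F.pt l c) := by
  by_cases hi : i = 2
  · subst hi
    by_cases hj : j = 2
    · subst hj
      exact (F.lt_twoC ha hb hc h12).le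
    by_cases hl : l = 2
    · subst hl
      rw [creal_swap23]
      have := (F.lt_twoC (l := j) ha hc hb h13).le
      linarith
    exact F.center_le hj hl ha hb hc h12 h13 h23
  by_cases hj : j = 2
  · subst hj
    by_cases hl : l = 2
    · subst hl
      have e : creal s (F.pt i a) (F.pt 2 b) (F.pt 2 c) = creal s (F.pt 2 b) (F.pt 2 c) (F.pt i a) := by
        rw [creal_swap12, creal_swap23]
      rw [e]
      have := (F.lt_twoC (l := i) hb hc ha h23).le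
      linarith
    rw [creal_swap12]
    have := F.center_le hi hl hb ha hc h12.symm h23 h13
    linarith
  by_cases hl : l = 2
  · subst hl
    have e : creal s (F.pt i a) (F.pt j b) (F.pt 2 c) = creal s (F.pt 2 c) (F.pt i a) (F.pt j b) := by
      rw [creal_swap23, creal_swap12]
    rw [e]
    have := F.center_le hi hj hc ha hb h13.symm h23.symm h12
    linarith
  exact (F.lt_noC hi hj hl ha hb hc h12).le

end FamData

end Crest.Agent.Lib.MMOT
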