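import Mathlib
import Crest.Agent.Lib.MMOT.Points2

/-!
# Rigidity and separation of the five sheets
-/

set_option linter.style.haveILetI false
set_option linter.unusedSectionVars false

namespace Crest.Agent.Lib.MMOT

open Set Real
open scoped ContDiff

namespace FamData

variable {s : ℝ} (F : FamData s) {n : ℕ}

/-- Rigidity for points of the first sheet. -/
theorem rig0_pt {j l : Fin 5} {a b c : ℝ × ℝ × SS n}
    (ha : F.Adm a) (hb : F.Adm b) (hc : F.Adm c)
    (h12 : F.pt 0 a ≠ F.pt j b) (h13 : F.pt 0 a ≠ F.pt l c) (h23 : F.pt j b ≠ F.pt l c)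
    (heq : creal s (F.pt 0 a) (F.pt j b) (F.pt l c) = F.Uf 0 a.1 + F.Uf j b.1 + F.Uf l c.1) :
    (j = 1 ∧ l = 2 ∧ b = a ∧ c = a) ∨ (j = 2 ∧ l = 1 ∧ b = a ∧ c = a) := by
  by_cases hj : j = 2
  · subst hj
    by_cases hl : l = 2
    · subst hl
      exfalso
      have h := F.lt_twoC (l := 0) hb hc ha h23
      have e : creal s (F.pt 0 a) (F.pt 2 b) (F.pt 2 c) = creal s (F.pt 2 b) (F.pt 2 c) (F.pt 0 a) := by
        rw [creal_swap12, creal_swap23]
      rw [e] at heq
      linarith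
    · rw [creal_swap12] at heq
      have heq' : F.Uf 2 b.1 + F.Uf 0 a.1 + F.Uf l c.1
          = creal s (F.pt 2 b) (F.pt 0 a) (F.pt l c) := by rw [heq]; ring
      fin_cases l
      · exfalso
        have := F.lt_outer0 hb ha hc h13
        simp only [Fin.zero_eta, Fin.isValue] at heq' this
        linarith
      · right
        obtain ⟨e1, e2⟩ := (F.e1_center hb ha hc h12.symm h23 h13).2 heq'
        exact ⟨rfl, rfl, e2.symm, e1.symm⟩
      · exact absurd rfl hl
      · exfalso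
        have := F.lt_cross (j := 0) (l := 3) (Or.inl rfl) (Or.inl rfl) hb ha hc h12.symm h23 h13
        simp only [Fin.reduceFinMk, Fin.isValue] at heq'
        linarith
      · exfalso
        have := F.lt_cross (j := 0) (l := 4) (Or.inl rfl) (Or.inr rfl) hb ha hc h12.symm h23 h13
        simp only [Fin.reduceFinMk, Fin.isValue] at heq'
        linarith
  by_cases hl : l = 2
  · subst hl
    have e : creal s (F.pt 0 a) (F.pt j b) (F.pt 2 c) = creal s (F.pt 2 c) (F.pt 0 a) (F.pt j b) := by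
      rw [creal_swap23, creal_swap12]
    rw [e] at heq
    have heq' : F.Uf 2 c.1 + F.Uf 0 a.1 + F.Uf j b.1
        = creal s (F.pt 2 c) (F.pt 0 a) (F.pt j b) := by rw [heq]; ring
    fin_cases j
    · exfalso
      have := F.lt_outer0 hc ha hb h12
      simp only [Fin.zero_eta, Fin.isValue] at heq' this
      linarith
    · left
      obtain ⟨e1, e2⟩ := (F.e1_center hc ha hb h13.symm h23.symm h12).2 heq'
      exact ⟨rfl, rfl, e1.symm, e2.symm⟩
    · exact absurd rfl hj
    · exfalso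
      have := F.lt_cross (j := 0) (l := 3) (Or.inl rfl) (Or.inl rfl) hc ha hb h13.symm h23.symm h12
      simp only [Fin.reduceFinMk, Fin.isValue] at heq'
      linarith
    · exfalso
      have := F.lt_cross (j := 0) (l := 4) (Or.inl rfl) (Or.inr rfl) hc ha hb h13.symm h23.symm h12
      simp only [Fin.reduceFinMk, Fin.isValue] at heq'
      linarith
  exfalso
  have := F.lt_noC (i := 0) (by decide) hj hl ha hb hc h12
  linarith

/-- Rigidity for points of the second sheet. -/
theorem rig1_pt {j l : Fin 5} {a b c : ℝ × ℝ × SS n}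
    (ha : F.Adm a) (hb : F.Adm b) (hc : F.Adm c)
    (h12 : F.pt 1 a ≠ F.pt j b) (h13 : F.pt 1 a ≠ F.pt l c) (h23 : F.pt j b ≠ F.pt l c)
    (heq : creal s (F.pt 1 a) (F.pt j b) (F.pt l c) = F.Uf 1 a.1 + F.Uf j b.1 + F.Uf l c.1) :
    (j = 0 ∧ l = 2 ∧ b = a ∧ c = a) ∨ (j = 2 ∧ l = 0 ∧ b = a ∧ c = a) := by
  by_cases hj : j = 2
  · subst hj
    by_cases hl : l = 2
    · subst hl
      exfalso
      have h := F.lt_twoC (l := 1) hb hc ha h23
      have e : creal s (F.pt 1 a) (F.pt 2 b) (F.pt 2 c) = creal s (F.pt 2 b) (F.pt 2 c) (F.pt 1 a) := by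
        rw [creal_swap12, creal_swap23]
      rw [e] at heq
      linarith
    · rw [creal_swap12] at heq
      have heq' : F.Uf 2 b.1 + F.Uf 1 a.1 + F.Uf l c.1
          = creal s (F.pt 2 b) (F.pt 1 a) (F.pt l c) := by rw [heq]; ring
      fin_cases l
      · right
        have heq'' : F.Uf 2 b.1 + F.Uf 0 c.1 + F.Uf 1 a.1
            = creal s (F.pt 2 b) (F.pt 0 c) (F.pt 1 a) := by
          rw [creal_swap23]
          simp only [Fin.zero_eta, Fin.isValue] at heq'
          rw [← heq']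
          ring
        obtain ⟨e1, e2⟩ := (F.e1_center hb hc ha h23 h12.symm h13.symm).2 heq''
        exact ⟨rfl, rfl, e2.symm.trans e1, e1⟩
      · exfalso
        have := F.lt_outer1 hb ha hc h13
        simp only [Fin.mk_one, Fin.isValue] at heq' this
        linarith
      · exact absurd rfl hl
      · exfalso
        have := F.lt_cross (j := 1) (l := 3) (Or.inr rfl) (Or.inl rfl) hb ha hc h12.symm h23 h13
        simp only [Fin.reduceFinMk, Fin.isValue] at heq'
        linarith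
      · exfalso
        have := F.lt_cross (j := 1) (l := 4) (Or.inr rfl) (Or.inr rfl) hb ha hc h12.symm h23 h13
        simp only [Fin.reduceFinMk, Fin.isValue] at heq'
        linarith
  by_cases hl : l = 2
  · subst hl
    have e : creal s (F.pt 1 a) (F.pt j b) (F.pt 2 c) = creal s (F.pt 2 c) (F.pt 1 a) (F.pt j b) := by
      rw [creal_swap23, creal_swap12]
    rw [e] at heq
    have heq' : F.Uf 2 c.1 + F.Uf 1 a.1 + F.Uf j b.1
        = creal s (F.pt 2 c) (F.pt 1 a) (F.pt j b) := by rw [heq]; ring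
    fin_cases j
    · left
      have heq'' : F.Uf 2 c.1 + F.Uf 0 b.1 + F.Uf 1 a.1
          = creal s (F.pt 2 c) (F.pt 0 b) (F.pt 1 a) := by
        rw [creal_swap23]
        simp only [Fin.zero_eta, Fin.isValue] at heq'
        rw [← heq']
        ring
      obtain ⟨e1, e2⟩ := (F.e1_center hc hb ha h23.symm h13.symm h12.symm).2 heq''
      exact ⟨rfl, rfl, e1, e2.symm.trans e1⟩
    · exfalso
      have := F.lt_outer1 hc ha hb h12
      simp only [Fin.mk_one, Fin.isValue] at heq' this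
      linarith
    · exact absurd rfl hj
    · exfalso
      have := F.lt_cross (j := 1) (l := 3) (Or.inr rfl) (Or.inl rfl) hc ha hb h13.symm h23.symm h12
      simp only [Fin.reduceFinMk, Fin.isValue] at heq'
      linarith
    · exfalso
      have := F.lt_cross (j := 1) (l := 4) (Or.inr rfl) (Or.inr rfl) hc ha hb h13.symm h23.symm h12
      simp only [Fin.reduceFinMk, Fin.isValue] at heq'
      linarith
  exfalso
  have := F.lt_noC (i := 1) (by decide) hj hl ha hb hc h12
  linarith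

/-! ### Invariants -/

/-- The norm on each sheet. -/
noncomputable def nr (i : Fin 5) (D : ℝ) : ℝ := ![F.r₁ D, F.r₂ D, F.P D, F.R D, F.R D] i

/-- The axial coordinate on each sheet. -/
noncomputable def ip (i : Fin 5) (D γ : ℝ) : ℝ :=
  ![-(F.r₁ D * cos γ), F.r₂ D * cos γ, F.P D * cos γ, -(F.R D * cos (F.θ D + γ)),
    -(F.R D * cos (γ - F.θ D))] i

lemma norm_pt (i : Fin 5) {a : ℝ × ℝ × SS n} (ha : a.1 ∈ F.TT) : ‖F.pt i a‖ = F.nr i a.1 := by
  fin_cases i
  · exact F.norm_p0 ha _ _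
  · exact F.norm_p1 ha _ _
  · exact F.norm_p2 ha _ _
  · exact F.norm_p3 ha _ _
  · exact F.norm_p4 ha _ _

lemma inner_pt (i : Fin 5) (a : ℝ × ℝ × SS n) :
    inner ℝ (e0 n) (F.pt i a) = F.ip i a.1 a.2.1 := by
  fin_cases i
  · show inner ℝ (e0 n) (F.p0 a.1 a.2.1 a.2.2) = -(F.r₁ a.1 * cos a.2.1)
    unfold p0
    rw [inner_neg_right, inner_smul_right, inner_e0_vv]
  · show inner ℝ (e0 n) (F.p1 a.1 a.2.1 a.2.2) = F.r₂ a.1 * cos a.2.1
    unfold p1
    rw [inner_smul_right, inner_e0_vv]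
  · show inner ℝ (e0 n) (F.p2 a.1 a.2.1 a.2.2) = F.P a.1 * cos a.2.1
    unfold p2
    rw [inner_smul_right, inner_e0_vv]
  · show inner ℝ (e0 n) (F.p3 a.1 a.2.1 a.2.2) = -(F.R a.1 * cos (F.θ a.1 + a.2.1))
    unfold p3
    rw [inner_neg_right, inner_smul_right, inner_e0_vv]
  · show inner ℝ (e0 n) (F.p4 a.1 a.2.1 a.2.2) = -(F.R a.1 * cos (a.2.1 - F.θ a.1))
    unfold p4
    rw [inner_neg_right, inner_smul_right, inner_e0_vv]

/-- The pair (norm, axial coordinate) distinguishes the sheets. -/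
lemma sep_lt {i j : Fin 5} (hij : i < j) {D D' γ γ' : ℝ} (hD : D ∈ F.TT) (hD' : D' ∈ F.TT)
    (hγ : γ ∈ F.GG) (hγ' : γ' ∈ F.GG) (h1 : F.nr i D = F.nr j D') (h2 : F.ip i D γ = F.ip j D' γ') :
    False := by
  have hcγ : 0 < cos γ := cos_pos_of_mem_Ioo
    ⟨by linarith [F.γp hγ, pi_pos], by linarith [F.γl hγ, pi_gt_three]⟩
  have hcγ' : 0 < cos γ' := cos_pos_of_mem_Ioo
    ⟨by linarith [F.γp hγ', pi_pos], by linarith [F.γl hγ', pi_gt_three]⟩
  have a1 := F.r1g hD
  have a2 := F.r1l hD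
  have a3 := F.r2g hD
  have a4 := F.r2l hD
  have a5 := F.Pp hD
  have a6 := F.Pl hD
  have a7 := F.Rg hD
  have a8 := F.Rl hD
  have b1 := F.r1g hD'
  have b2 := F.r1l hD'
  have b3 := F.r2g hD'
  have b4 := F.r2l hD'
  have b5 := F.Pp hD'
  have b6 := F.Pl hD'
  have b7 := F.Rg hD'
  have b8 := F.Rl hD'
  fin_cases i <;> fin_cases j <;> first
    | exact absurd hij (by decide)
    | skip
  · -- sheets 0 and 1
    have h : -(F.r₁ D * cos γ) = F.r₂ D' * cos γ' := h2
    have : 0 < F.r₁ D * cos γ := mul_pos (by linarith) hcγ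
    have : 0 < F.r₂ D' * cos γ' := mul_pos (by linarith) hcγ'
    linarith
  · have h : F.r₁ D = F.P D' := h1
    linarith
  · have h : F.r₁ D = F.R D' := h1
    linarith
  · have h : F.r₁ D = F.R D' := h1
    linarith
  · have h : F.r₂ D = F.P D' := h1
    linarith
  · have h : F.r₂ D = F.R D' := h1
    linarith
  · have h : F.r₂ D = F.R D' := h1
    linarith
  · have h : F.P D = F.R D' := h1
    linarith
  · have h : F.P D = F.R D' := h1
    linarith
  · -- sheets 3 and 4
    have h : F.R D = F.R D' := h1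
    have hDD : D = D' := F.inj_R (F.TT_sub_UU hD) (F.TT_sub_UU hD') h
    subst hDD
    have h3 : -(F.R D * cos (F.θ D + γ)) = -(F.R D * cos (γ' - F.θ D)) := h2
    have hRp : F.R D ≠ 0 := by linarith
    have h4 : cos (F.θ D + γ) = cos (F.θ D - γ') := by
      have := mul_left_cancel₀ hRp (neg_injective h3)
      rw [this, ← cos_neg]
      congr 1
      ring
    have t1 := F.θg hD
    have t2 := F.θl hD
    have g1 := F.γp hγ
    have g2 := F.γl hγ
    have g3 := F.γp hγ'
    have g4 := F.γl hγ'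
    have h5 : F.θ D + γ = F.θ D - γ' := injOn_cos
      ⟨by linarith [pi_pos], by linarith [pi_gt_three]⟩
      ⟨by linarith [pi_gt_three], by linarith [pi_pos]⟩ h4
    linarith

lemma sep_ne {i j : Fin 5} (hij : i ≠ j) {D D' γ γ' : ℝ} (hD : D ∈ F.TT) (hD' : D' ∈ F.TT)
    (hγ : γ ∈ F.GG) (hγ' : γ' ∈ F.GG) (h1 : F.nr i D = F.nr j D') (h2 : F.ip i D γ = F.ip j D' γ') :
    False := by
  rcases lt_or_gt_of_ne hij with h | h
  · exact F.sep_lt h hD hD' hγ hγ' h1 h2
  · exact F.sep_lt h hD' hD hγ' hγ h1.symm h2.symm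

lemma pt_ne {i j : Fin 5} (hij : i ≠ j) {a b : ℝ × ℝ × SS n} (ha : F.Adm a) (hb : F.Adm b) :
    F.pt i a ≠ F.pt j b := by
  intro h
  apply F.sep_ne hij ha.1 hb.1 ha.2 hb.2
  · rw [← F.norm_pt i ha.1, ← F.norm_pt j hb.1, h]
  · rw [← F.inner_pt i a, ← F.inner_pt j b, h]

end FamData

end Crest.Agent.Lib.MMOT
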