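import Mathlib
import Crest.Prelude.Def_MultiMarginal
import Crest.Agent.Lib.MMOT.Abstract
import Crest.Agent.Lib.MMOT.Bump
import Crest.Agent.Lib.MMOT.Points3

/-!
# Assembly of the sheet data from the real data
-/

set_option linter.style.haveILetI false
set_option linter.unusedSectionVars false

namespace Crest.Agent.Lib.MMOT

open MeasureTheory Set Real Crest.AnalysisR.OT
open scoped ENNReal ContDiff Topology

instance (n : ℕ) : PolishSpace (SS n) := Metric.isClosed_sphere.polishSpace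

/-! ### The cost -/

lemma pairCost_eq {E : Type*} [NormedAddCommGroup E] {s : ℝ} {x y : E} (h : x ≠ y) :
    pairCost s x y = ENNReal.ofReal (‖x - y‖ ^ (-s)) := by
  unfold pairCost
  exact ENNReal.ofReal_rpow_of_pos (norm_pos_iff.2 (sub_ne_zero.2 h))

lemma pairCost_self {E : Type*} [NormedAddCommGroup E] {s : ℝ} (hs : 0 < s) (x : E) :
    pairCost s x x = ⊤ := by
  unfold pairCost
  simp [ENNReal.zero_rpow_of_neg (show -s < 0 by linarith)]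

lemma tripleCost_eq {E : Type*} [NormedAddCommGroup E] {s : ℝ} {x y w : E} (h12 : x ≠ y)
    (h13 : x ≠ w) (h23 : y ≠ w) : tripleCost s (x, y, w) = ENNReal.ofReal (creal s x y w) := by
  unfold tripleCost creal
  simp only
  rw [pairCost_eq h12, pairCost_eq h13, pairCost_eq h23,
    ENNReal.ofReal_add (add_nonneg (rpow_nonneg (norm_nonneg _) _) (rpow_nonneg (norm_nonneg _) _))
      (rpow_nonneg (norm_nonneg _) _),
    ENNReal.ofReal_add (rpow_nonneg (norm_nonneg _) _) (rpow_nonneg (norm_nonneg _) _)]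

lemma tripleCost_top {E : Type*} [NormedAddCommGroup E] {s : ℝ} (hs : 0 < s) {x y w : E}
    (h : ¬ (x ≠ y ∧ x ≠ w ∧ y ≠ w)) : tripleCost s (x, y, w) = ⊤ := by
  unfold tripleCost
  simp only
  by_cases h12 : x = y
  · subst h12
    simp [pairCost_self hs]
  by_cases h13 : x = w
  · subst h13
    simp [pairCost_self hs]
  by_cases h23 : y = w
  · subst h23
    simp [pairCost_self hs]
  exact absurd ⟨h12, h13, h23⟩ h

lemma tripleCost_meas {E : Type*} [NormedAddCommGroup E] [MeasurableSpace E] [BorelSpace E]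
    [SecondCountableTopology E] (s : ℝ) : Measurable (tripleCost (E := E) s) := by
  unfold tripleCost pairCost
  have h1 : Measurable fun p : E × E × E => p.1 := measurable_fst
  have h2 : Measurable fun p : E × E × E => p.2.1 := measurable_fst.comp measurable_snd
  have h3 : Measurable fun p : E × E × E => p.2.2 := measurable_snd.comp measurable_snd
  have k : ∀ f g : E × E × E → E, Measurable f → Measurable g →
      Measurable fun p => ENNReal.ofReal ‖f p - g p‖ ^ (-s) := by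
    intro f g hf hg
    exact (ENNReal.measurable_ofReal.comp (hf.sub hg).norm).pow_const _
  exact ((k _ _ h1 h2).add (k _ _ h1 h3)).add (k _ _ h2 h3)

/-! ### A reflection -/

/-- The reflection in the hyperplane orthogonal to the axis. -/
noncomputable def reE (n : ℕ) : EE n ≃ₗᵢ[ℝ] EE n :=
  (Submodule.reflection (ℝ ∙ e0 n)).trans (LinearIsometryEquiv.neg ℝ)

lemma reE_apply {n : ℕ} (x : EE n) : reE n x = x - (2 * inner ℝ (e0 n) x) • e0 n := by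
  unfold reE
  simp only [LinearIsometryEquiv.trans_apply, LinearIsometryEquiv.coe_neg]
  rw [Submodule.reflection_singleton_apply, norm_e0]
  simp only [RCLike.ofReal_real_eq_id, id_eq, one_pow, div_one]
  rw [two_smul, two_mul, add_smul]
  abel

lemma reE_vv {n : ℕ} (a : ℝ) (ξ : FF n) : reE n (vv a ξ) = -vv (-a) ξ := by
  rw [reE_apply, inner_e0_vv]
  unfold vv
  rw [cos_neg, sin_neg, two_mul, add_smul, neg_smul]
  abel

/-! ### Injectivity of radial sheets -/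

namespace SheetSpec

variable {B : Bumps} (S : SheetSpec B) {n : ℕ}

lemma Ψ_inj {τ τ' γ γ' : ℝ} {ξ ξ' : SS n} (hτ : τ ∈ Ioo B.τ₁ B.τ₂) (hτ' : τ' ∈ Ioo B.τ₁ B.τ₂)
    (hγ : γ ∈ Ioo B.γ₁ B.γ₂) (hγ' : γ' ∈ Ioo B.γ₁ B.γ₂)
    (h : S.Ψ (τ, γ, ξ) = S.Ψ (τ', γ', ξ')) : τ = τ' ∧ γ = γ' ∧ ξ = ξ' := by
  have hU := S.Ioo_sub_U hτ
  have hU' := S.Ioo_sub_U hτ'
  have hp := S.ϱ_pos τ hU
  have hp' := S.ϱ_pos τ' hU'
  have hn : S.ϱ τ = S.ϱ τ' := by
    have := congrArg norm h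
    simp only [Ψ, norm_smul, norm_vv, mul_one, norm_of_nonneg hp.le, norm_of_nonneg hp'.le] at this
    exact this
  have ht : τ = τ' := S.ϱ_inj hU hU' hn
  subst ht
  have h2 : vv (S.ϑ τ + S.σs * γ) (ξ : FF n) = vv (S.ϑ τ + S.σs * γ') (ξ' : FF n) := by
    simp only [Ψ] at h
    exact smul_right_injective _ hp.ne' h
  obtain ⟨h3, h4⟩ := FamData.vv_injOn (S.angle_mem hτ hγ) (S.angle_mem hτ hγ') h2
  have hσ : S.σs ≠ 0 := by rcases S.hσs with h | h <;> rw [h] <;> norm_num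
  have h5 : S.σs * γ = S.σs * γ' := by linarith
  exact ⟨rfl, mul_left_cancel₀ hσ h5, h4⟩

end SheetSpec

namespace FamData

variable {s : ℝ} (F : FamData s) {n : ℕ}

/-- The context of the construction: bumps and the quantile function. -/
structure Ctx where
  B : Bumps
  hτ₁ : B.τ₁ = F.D₀ - F.η
  hτ₂ : B.τ₂ = F.D₀ + F.η
  hγ₁ : B.γ₁ = F.g1
  hγ₂ : B.γ₂ = F.g2
  V : ℝ → ℝ
  V_cont : Continuous V
  V_mem : ∀ w, V w ∈ Icc B.τ₁ B.τ₂
  V_mem' : ∀ w ∈ Ioo (0:ℝ) 1, V w ∈ Ioo B.τ₁ B.τ₂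
  V_inj : InjOn V (Ioo (0:ℝ) 1)
  V_map : unitL.map V = B.hμ

lemma exists_Ctx : Nonempty F.Ctx := by
  have hτ : F.D₀ - F.η < F.D₀ + F.η := by linarith [F.hη]
  obtain ⟨B, h1, h2, h3, h4⟩ := exists_bumps hτ F.g1_lt
  obtain ⟨V, a1, a2, a3, a4, a5⟩ := B.exists_quantile
  exact ⟨⟨B, h1, h2, h3, h4, V, a1, a2, a3, a4, a5⟩⟩

variable {F} (C : F.Ctx)

namespace Ctx

lemma T_eq : Icc C.B.τ₁ C.B.τ₂ = F.TT := by rw [C.hτ₁, C.hτ₂]
lemma G_eq : Ioo C.B.γ₁ C.B.γ₂ = F.GG := by rw [C.hγ₁, C.hγ₂]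
lemma G_eq' : Icc C.B.γ₁ C.B.γ₂ = Icc F.g1 F.g2 := by rw [C.hγ₁, C.hγ₂]

lemma hTU : Icc C.B.τ₁ C.B.τ₂ ⊆ F.UU := by
  rw [C.T_eq]
  exact F.TT_sub_UU

lemma g_bounds {γ : ℝ} (hγ : γ ∈ Icc C.B.γ₁ C.B.γ₂) : F.g1 ≤ γ ∧ γ ≤ F.g2 := by
  rw [C.G_eq'] at hγ
  exact hγ

/-- Generic sheet for the functions with zero angular shift. -/
noncomputable def specFlat (ϱ : ℝ → ℝ) (hm : Measurable ϱ) (hs : ∀ D ∈ F.UU, ContDiffAt ℝ ∞ ϱ D)
    (hd : ∀ D ∈ F.UU, deriv ϱ D ≠ 0) (hi : InjOn ϱ F.UU) (hp : ∀ D ∈ F.UU, 0 < ϱ D) :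
    SheetSpec C.B where
  ϱ := ϱ
  ϑ := fun _ => 0
  σs := 1
  hσs := Or.inl rfl
  U := F.UU
  hU := isOpen_Ioo
  hTU := C.hTU
  ϱ_meas := hm
  ϑ_meas := measurable_const
  ϱ_smooth := hs
  ϑ_smooth := fun _ _ => contDiffAt_const
  ϱ_deriv := hd
  ϱ_inj := hi
  ϱ_pos := hp
  α₁ := F.g1
  α₂ := F.g2
  hα₁ := F.g1_pos
  hα₂ := by linarith [F.g2_le, pi_gt_three]
  hα := by
    intro τ _ γ hγ
    have := C.g_bounds hγ
    simp only [zero_add, one_mul]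
    exact this

lemma r₁_pos : ∀ D ∈ F.UU, 0 < F.r₁ D := fun D hD => by linarith [F.r₁_gt D hD]
lemma r₂_pos : ∀ D ∈ F.UU, 0 < F.r₂ D := fun D hD => by linarith [F.r₂_gt D hD]
lemma R_pos : ∀ D ∈ F.UU, 0 < F.R D := fun D hD => by linarith [F.R_gt D hD]

/-- The first sheet. -/
noncomputable def S0 : SheetSpec C.B :=
  C.specFlat F.r₁ F.meas_r₁ F.smooth_r₁ F.deriv_r₁ F.inj_r₁ r₁_pos
/-- The second sheet. -/
noncomputable def S1 : SheetSpec C.B :=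
  C.specFlat F.r₂ F.meas_r₂ F.smooth_r₂ F.deriv_r₂ F.inj_r₂ r₂_pos
/-- The central sheet. -/
noncomputable def S2 : SheetSpec C.B :=
  C.specFlat F.P F.meas_P F.smooth_P F.deriv_P F.inj_P F.P_pos

/-- The fourth sheet. -/
noncomputable def S3 : SheetSpec C.B where
  ϱ := F.R
  ϑ := F.θ
  σs := 1
  hσs := Or.inl rfl
  U := F.UU
  hU := isOpen_Ioo
  hTU := C.hTU
  ϱ_meas := F.meas_R
  ϑ_meas := F.meas_θ
  ϱ_smooth := F.smooth_R
  ϑ_smooth := F.smooth_θ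
  ϱ_deriv := F.deriv_R
  ϱ_inj := F.inj_R
  ϱ_pos := R_pos
  α₁ := π / 4
  α₂ := π / 2 + 1 / 80
  hα₁ := by positivity
  hα₂ := by linarith [pi_gt_three]
  hα := by
    intro τ hτ γ hγ
    have hγ' := C.g_bounds hγ
    rw [C.T_eq] at hτ
    have h1 := F.θg hτ
    have h2 := F.θl hτ
    have h3 := F.g1_pos
    have h4 := F.g2_le
    constructor
    · linarith
    · linarith

/-- The fifth sheet. -/
noncomputable def S4 : SheetSpec C.B where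
  ϱ := F.R
  ϑ := F.θ
  σs := -1
  hσs := Or.inr rfl
  U := F.UU
  hU := isOpen_Ioo
  hTU := C.hTU
  ϱ_meas := F.meas_R
  ϑ_meas := F.meas_θ
  ϱ_smooth := F.smooth_R
  ϑ_smooth := F.smooth_θ
  ϱ_deriv := F.deriv_R
  ϱ_inj := F.inj_R
  ϱ_pos := R_pos
  α₁ := π / 4 - 1 / 80
  α₂ := π / 2
  hα₁ := by linarith [pi_gt_three]
  hα₂ := by linarith [pi_pos]
  hα := by
    intro τ hτ γ hγ
    have hγ' := C.g_bounds hγ
    rw [C.T_eq] at hτ
    have h1 := F.θg hτ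
    have h2 := F.θl hτ
    have h3 := F.g1_pos
    have h4 := F.g2_le
    constructor
    · linarith
    · linarith

/-- The sheets as a family. -/
noncomputable def Sf : Fin 5 → SheetSpec C.B := ![C.S0, C.S1, C.S2, C.S3, C.S4]

/-- The isometries as a family. -/
noncomputable def Lf (n : ℕ) : Fin 5 → (EE n ≃ₗᵢ[ℝ] EE n) :=
  ![LinearIsometryEquiv.neg ℝ, LinearIsometryEquiv.refl ℝ _, LinearIsometryEquiv.refl ℝ _,
    LinearIsometryEquiv.neg ℝ, reE n]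

/-- The sheets are what they should be. -/
lemma Lf_Sf (i : Fin 5) (a : ℝ × ℝ × SS n) : Lf n i ((C.Sf i).Ψ a) = F.pt i a := by
  obtain ⟨D, γ, ξ⟩ := a
  fin_cases i
  · show -(F.r₁ D • vv (0 + 1 * γ) (ξ : FF n)) = -(F.r₁ D • vv γ (ξ : FF n))
    simp
  · show F.r₂ D • vv (0 + 1 * γ) (ξ : FF n) = F.r₂ D • vv γ (ξ : FF n)
    simp
  · show F.P D • vv (0 + 1 * γ) (ξ : FF n) = F.P D • vv γ (ξ : FF n)
    simp
  · show -(F.R D • vv (F.θ D + 1 * γ) (ξ : FF n)) = -(F.R D • vv (F.θ D + γ) (ξ : FF n))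
    simp
  · show reE n (F.R D • vv (F.θ D + -1 * γ) (ξ : FF n)) = -(F.R D • vv (γ - F.θ D) (ξ : FF n))
    rw [map_smul, reE_vv, smul_neg]
    congr 3
    ring

/-! ### The sheet data -/

variable (n)

/-- The good fibre set. -/
def Z' (F : FamData s) (n : ℕ) : Set (ℝ × SS n) := Ioo F.g1 F.g2 ×ˢ univ

omit C in
lemma Z'_meas (F : FamData s) (n : ℕ) : MeasurableSet (Z' F n) :=
  measurableSet_Ioo.prod MeasurableSet.univ

lemma Z'_conull : C.B.νZ n (Z' F n)ᶜ = 0 := by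
  rw [prob_compl_eq_zero_iff (Z'_meas F n)]
  unfold Z' Bumps.νZ
  rw [Measure.prod_prod, measure_univ, mul_one]
  unfold Bumps.kμ
  have hk : Measurable fun γ : ℝ => ENNReal.ofReal (C.B.k₀ γ ^ 2) :=
    ENNReal.measurable_ofReal.comp (C.B.k₀_smooth.continuous.measurable.pow_const 2)
  rw [withDensity_apply _ measurableSet_Ioo, ← C.B.k₀_int]
  rw [← C.hγ₁, ← C.hγ₂]
  apply setLIntegral_eq_of_support_subset
  intro γ hγ
  by_contra hne
  apply hγ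
  have : C.B.k₀ γ = 0 := by
    by_contra h
    exact hne ((C.B.k₀_pos γ).1 h)
  simp [this]

variable {n}

/-- The map from the parameters of the abstract problem to the points of the family. -/
def aa (y : ℝ × ℝ × SS n) : ℝ × ℝ × SS n := (C.V y.1, y.2)

lemma V_mem_T (w : ℝ) : C.V w ∈ F.TT := by
  have := C.V_mem w
  rwa [C.T_eq] at this

lemma adm {y : ℝ × ℝ × SS n} (hy : y ∈ Ioo (0:ℝ) 1 ×ˢ Z' F n) : F.Adm (C.aa y) :=
  ⟨C.V_mem_T _, hy.2.1⟩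

lemma aa_inj {y y' : ℝ × ℝ × SS n} (hy : y ∈ Ioo (0:ℝ) 1 ×ˢ Z' F n)
    (hy' : y' ∈ Ioo (0:ℝ) 1 ×ˢ Z' F n) (h : C.aa y = C.aa y') : y = y' := by
  have h1 : (C.aa y).1 = (C.aa y').1 := congrArg Prod.fst h
  have h2 : (C.aa y).2 = (C.aa y').2 := congrArg Prod.snd h
  exact Prod.ext (C.V_inj hy.1 hy'.1 h1) h2

lemma measurable_aa : Measurable (C.aa (n := n)) :=
  (C.V_cont.measurable.comp measurable_fst).prodMk measurable_snd

lemma measurable_pt (i : Fin 5) : Measurable fun y : ℝ × ℝ × SS n => F.pt i (C.aa y) := by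
  have hL : Continuous (Lf n i) := (Lf n i).continuous
  have h : (fun y : ℝ × ℝ × SS n => F.pt i (C.aa y))
      = fun y => Lf n i ((C.Sf i).Ψ (C.aa y)) := by
    funext y
    exact (C.Lf_Sf i _).symm
  rw [h]
  exact hL.measurable.comp ((C.Sf i).measurable_Ψ.comp C.measurable_aa)

lemma Uf_cont (i : Fin 5) : ContinuousOn (F.Uf i) F.TT := by
  fin_cases i
  · exact F.cont_U₀
  · exact F.cont_U₁
  · exact F.cont_U₂
  · exact F.cont_U₃
  · exact F.cont_U₃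

end Ctx

lemma exists_lower : ∃ m : ℝ, 0 ≤ m ∧ ∀ i, ∀ D ∈ F.TT, 0 ≤ F.Uf i D + m := by
  have key : ∀ i, ∃ b : ℝ, ∀ D ∈ F.TT, b ≤ F.Uf i D := by
    intro i
    have hc := isCompact_Icc.image_of_continuousOn (Ctx.Uf_cont (F := F) i)
    obtain ⟨b, hb⟩ := hc.bddBelow
    exact ⟨b, fun D hD => hb ⟨D, hD, rfl⟩⟩
  choose b hb using key
  refine ⟨∑ i, |b i|, Finset.sum_nonneg fun _ _ => abs_nonneg _, fun i D hD => ?_⟩
  have h1 := hb i D hD
  have h2 : |b i| ≤ ∑ i, |b i| := Finset.single_le_sum (f := fun i => |b i|)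
    (fun _ _ => abs_nonneg _) (Finset.mem_univ i)
  have h3 := neg_abs_le (b i)
  linarith

lemma pot_sum {u₁ u₂ u₃ m : ℝ} (h1 : 0 ≤ u₁ + m) (h2 : 0 ≤ u₂ + m) (h3 : 0 ≤ u₃ + m) :
    ENNReal.ofReal (u₁ + m) + ENNReal.ofReal (u₂ + m) + ENNReal.ofReal (u₃ + m)
      = ENNReal.ofReal (u₁ + u₂ + u₃ + 3 * m) := by
  rw [← ENNReal.ofReal_add h1 h2, ← ENNReal.ofReal_add (add_nonneg h1 h2) h3]
  congr 1
  ring

lemma creal_nonneg {E : Type*} [NormedAddCommGroup E] (s : ℝ) (x y w : E) : 0 ≤ creal s x y w :=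
  add_nonneg (add_nonneg (rpow_nonneg (norm_nonneg _) _) (rpow_nonneg (norm_nonneg _) _))
    (rpow_nonneg (norm_nonneg _) _)

/-- A uniform continuity statement. -/
lemma near_gen (G : ℝ × ℝ → ℝ) (hG : Continuous G) (hnn : ∀ p, 0 ≤ G p) {ε : ℝ≥0∞} (hε : 0 < ε) :
    ∃ δ : ℝ, 0 < δ ∧ ∀ w ∈ Ioo (0:ℝ) 1, ∀ w' ∈ Ioo (0:ℝ) 1, |w' - w| < δ →
      ENNReal.ofReal (G (w, w')) ≤ ENNReal.ofReal (G (w, w)) + ε := by
  obtain ⟨ε', h1, h2⟩ := ENNReal.lt_iff_exists_nnreal_btwn.1 hε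
  have hε' : (0:ℝ) < ε' := by exact_mod_cast h1
  have hu := (isCompact_Icc (a := (0:ℝ)) (b := 1)).prod (isCompact_Icc (a := (0:ℝ)) (b := 1))
    |>.uniformContinuousOn_of_continuous hG.continuousOn
  rw [Metric.uniformContinuousOn_iff] at hu
  obtain ⟨δ, hδ, hδ'⟩ := hu ε' hε'
  refine ⟨δ, hδ, fun w hw w' hw' hd => ?_⟩
  have hw1 : (w, w') ∈ Icc (0:ℝ) 1 ×ˢ Icc (0:ℝ) 1 :=
    ⟨⟨hw.1.le, hw.2.le⟩, ⟨hw'.1.le, hw'.2.le⟩⟩
  have hw2 : (w, w) ∈ Icc (0:ℝ) 1 ×ˢ Icc (0:ℝ) 1 :=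
    ⟨⟨hw.1.le, hw.2.le⟩, ⟨hw.1.le, hw.2.le⟩⟩
  have hdist : dist (w, w') (w, w) < δ := by
    rw [Prod.dist_eq]
    simp only [dist_self]
    rw [max_lt_iff]
    exact ⟨hδ, by rw [Real.dist_eq]; exact hd⟩
  have h3 := hδ' _ hw1 _ hw2 hdist
  rw [Real.dist_eq] at h3
  have h4 : G (w, w') ≤ G (w, w) + ε' := by
    have := (abs_lt.1 h3).2
    linarith
  calc ENNReal.ofReal (G (w, w')) ≤ ENNReal.ofReal (G (w, w) + ε') := ENNReal.ofReal_le_ofReal h4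
    _ = ENNReal.ofReal (G (w, w)) + ε' := by
        rw [ENNReal.ofReal_add (hnn _) hε'.le]
        simp
    _ ≤ _ := by gcongr

namespace Ctx

lemma cont_comp {f : ℝ → ℝ} (hf : ContinuousOn f F.TT) : Continuous fun w => f (C.V w) :=
  hf.comp_continuous C.V_cont C.V_mem_T

lemma contOn_of {f : ℝ → ℝ} (hf : ∀ D ∈ F.UU, ContDiffAt ℝ ∞ f D) : ContinuousOn f F.TT :=
  fun D hD => (hf D (F.TT_sub_UU hD)).continuousAt.continuousWithinAt

lemma cP : Continuous fun w => F.P (C.V w) := C.cont_comp (contOn_of F.smooth_P)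
lemma cr₁ : Continuous fun w => F.r₁ (C.V w) := C.cont_comp (contOn_of F.smooth_r₁)
lemma cr₂ : Continuous fun w => F.r₂ (C.V w) := C.cont_comp (contOn_of F.smooth_r₂)
lemma cR : Continuous fun w => F.R (C.V w) := C.cont_comp (contOn_of F.smooth_R)
lemma cθ : Continuous fun w => F.θ (C.V w) := C.cont_comp (contOn_of F.smooth_θ)

/-- The function controlling the first family. -/
noncomputable def G₁ (p : ℝ × ℝ) : ℝ :=
  (F.r₁ (C.V p.1) + F.r₂ (C.V p.1)) ^ (-s) + (F.r₁ (C.V p.1) + F.P (C.V p.2)) ^ (-s)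
    + (F.r₂ (C.V p.1) - F.P (C.V p.2)) ^ (-s)

lemma G₁_cont : Continuous C.G₁ := by
  unfold G₁
  have a1 : Continuous fun p : ℝ × ℝ => F.r₁ (C.V p.1) := C.cr₁.comp continuous_fst
  have a2 : Continuous fun p : ℝ × ℝ => F.r₂ (C.V p.1) := C.cr₂.comp continuous_fst
  have a3 : Continuous fun p : ℝ × ℝ => F.P (C.V p.2) := C.cP.comp continuous_snd
  have h1 : ∀ p : ℝ × ℝ, 4 / 3 < F.r₁ (C.V p.1) := fun p => F.r1g (C.V_mem_T _)
  have h2 : ∀ p : ℝ × ℝ, 4 / 3 < F.r₂ (C.V p.1) := fun p => F.r2g (C.V_mem_T _)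
  have h3 : ∀ p : ℝ × ℝ, 0 < F.P (C.V p.2) := fun p => F.Pp (C.V_mem_T _)
  have h4 : ∀ p : ℝ × ℝ, F.P (C.V p.2) < 1 / 2 := fun p => F.Pl (C.V_mem_T _)
  refine ((a1.add a2).rpow_const fun p => Or.inl ?_).add ((a1.add a3).rpow_const fun p => Or.inl ?_)
    |>.add ((a2.sub a3).rpow_const fun p => Or.inl ?_)
  · have := h1 p; have := h2 p; exact ne_of_gt (by simp only [Pi.add_apply]; linarith)
  · have := h1 p; have := h3 p; exact ne_of_gt (by simp only [Pi.add_apply]; linarith)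
  · have := h2 p; have := h4 p; exact ne_of_gt (by simp only [Pi.sub_apply]; linarith)

lemma G₁_nonneg (p : ℝ × ℝ) : 0 ≤ C.G₁ p := by
  unfold G₁
  have h1 := F.r1g (C.V_mem_T p.1)
  have h2 := F.r2g (C.V_mem_T p.1)
  have h3 := F.Pp (C.V_mem_T p.2)
  have h4 := F.Pl (C.V_mem_T p.2)
  refine add_nonneg (add_nonneg (rpow_nonneg ?_ _) (rpow_nonneg ?_ _)) (rpow_nonneg ?_ _) <;> linarith

/-- The function controlling the second family. -/
noncomputable def G₂ (p : ℝ × ℝ) : ℝ :=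
  2 * (F.P (C.V p.2) ^ 2 + F.R (C.V p.1) ^ 2
      + 2 * F.P (C.V p.2) * F.R (C.V p.1) * cos (F.θ (C.V p.1))) ^ (-s / 2)
    + (2 * (F.R (C.V p.1) * sin (F.θ (C.V p.1)))) ^ (-s)

lemma Q_pos (D D' : ℝ) (hD : D ∈ F.TT) (hD' : D' ∈ F.TT) :
    0 < F.P D' ^ 2 + F.R D ^ 2 + 2 * F.P D' * F.R D * cos (F.θ D) := by
  have hc : 0 < cos (F.θ D) := by
    apply cos_pos_of_mem_Ioo
    constructor
    · linarith [F.θg hD, pi_pos]
    · exact F.θl hD
  have hR : 0 < F.R D := by linarith [F.Rg hD]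
  have hP := F.Pp hD'
  positivity

lemma sin_pos_θ {D : ℝ} (hD : D ∈ F.TT) : 0 < sin (F.θ D) := by
  apply sin_pos_of_pos_of_lt_pi
  · linarith [F.θg hD, pi_pos]
  · linarith [F.θl hD, pi_pos]

lemma G₂_cont : Continuous C.G₂ := by
  unfold G₂
  have a1 : Continuous fun p : ℝ × ℝ => F.R (C.V p.1) := C.cR.comp continuous_fst
  have a2 : Continuous fun p : ℝ × ℝ => F.θ (C.V p.1) := C.cθ.comp continuous_fst
  have a3 : Continuous fun p : ℝ × ℝ => F.P (C.V p.2) := C.cP.comp continuous_snd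
  have b1 : Continuous fun p : ℝ × ℝ => F.P (C.V p.2) ^ 2 + F.R (C.V p.1) ^ 2
      + 2 * F.P (C.V p.2) * F.R (C.V p.1) * cos (F.θ (C.V p.1)) := by
    have := continuous_cos.comp a2
    fun_prop
  have b2 : Continuous fun p : ℝ × ℝ => 2 * (F.R (C.V p.1) * sin (F.θ (C.V p.1))) := by
    have := continuous_sin.comp a2
    fun_prop
  refine (continuous_const.mul (b1.rpow_const fun p => Or.inl ?_)).add
    (b2.rpow_const fun p => Or.inl ?_)
  · exact (Q_pos _ _ (C.V_mem_T _) (C.V_mem_T _)).ne'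
  · have hR : 0 < F.R (C.V p.1) := by linarith [F.Rg (C.V_mem_T p.1)]
    have hs := sin_pos_θ (C.V_mem_T p.1)
    positivity

lemma G₂_nonneg (p : ℝ × ℝ) : 0 ≤ C.G₂ p := by
  unfold G₂
  have hQ := Q_pos _ _ (C.V_mem_T p.1) (C.V_mem_T p.2)
  have hR : 0 < F.R (C.V p.1) := by linarith [F.Rg (C.V_mem_T p.1)]
  have hs := sin_pos_θ (C.V_mem_T p.1)
  exact add_nonneg (mul_nonneg (by norm_num) (rpow_nonneg hQ.le _))
    (rpow_nonneg (by positivity) _)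

variable (n)

/-- The abstract data of the problem. -/
noncomputable def sheetData (m : ℝ) (hm : ∀ i, ∀ D ∈ F.TT, 0 ≤ F.Uf i D + m) (hm0 : 0 ≤ m) :
    SheetData (EE n) (ℝ × SS n) where
  c := tripleCost s
  c_meas := tripleCost_meas s
  c_swap12 := by
    intro x y w
    unfold tripleCost pairCost
    simp only
    rw [norm_sub_rev y x]
    ring
  c_swap23 := by
    intro x y w
    unfold tripleCost pairCost
    simp only
    rw [norm_sub_rev w y]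
    ring
  νZ := C.B.νZ n
  νZ_prob := inferInstance
  Z' := Z' F n
  Z'_meas := Z'_meas F n
  Z'_conull := C.Z'_conull n
  Ψ := fun i y => F.pt i (C.aa y)
  Ψ_meas := C.measurable_pt
  Ψ_inj := by
    intro i y hy y' hy' h
    apply C.aa_inj hy hy'
    have h' : Lf n i ((C.Sf i).Ψ (C.aa y)) = Lf n i ((C.Sf i).Ψ (C.aa y')) := by
      rw [C.Lf_Sf, C.Lf_Sf]
      exact h
    have h2 := (Lf n i).injective h'
    have hτ := C.V_mem' _ hy.1
    have hτ' := C.V_mem' _ hy'.1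
    have hγ : y.2.1 ∈ Ioo C.B.γ₁ C.B.γ₂ := by rw [C.G_eq]; exact hy.2.1
    have hγ' : y'.2.1 ∈ Ioo C.B.γ₁ C.B.γ₂ := by rw [C.G_eq]; exact hy'.2.1
    obtain ⟨e1, e2, e3⟩ := (C.Sf i).Ψ_inj (τ := C.V y.1) (τ' := C.V y'.1) (γ := y.2.1) (γ' := y'.2.1)
      (ξ := y.2.2) (ξ' := y'.2.2) hτ hτ' hγ hγ' h2
    exact Prod.ext e1 (Prod.ext e2 e3)
  Ψ_disj := fun i j hij y hy y' hy' => F.pt_ne hij (C.adm hy) (C.adm hy')
  pot := fun i y => ENNReal.ofReal (F.Uf i (C.V y.1) + m)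
  pot_meas := fun i => ENNReal.measurable_ofReal.comp
    (((C.cont_comp (Ctx.Uf_cont (F := F) i)).measurable.comp measurable_fst).add_const m)
  K := ENNReal.ofReal (3 * m)
  K_ne_top := ENNReal.ofReal_ne_top
  C := ENNReal.ofReal (F.M + m)
  C_ne_top := ENNReal.ofReal_ne_top
  pot_le := fun i y _ => ENNReal.ofReal_le_ofReal (by
    have := F.Uf_le (i := i) (C.V_mem_T y.1)
    linarith)
  le := by
    intro i j l y₁ hy₁ y₂ hy₂ y₃ hy₃
    rw [pot_sum (hm i _ (C.V_mem_T _)) (hm j _ (C.V_mem_T _)) (hm l _ (C.V_mem_T _))]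
    by_cases hd : F.pt i (C.aa y₁) ≠ F.pt j (C.aa y₂) ∧ F.pt i (C.aa y₁) ≠ F.pt l (C.aa y₃) ∧
        F.pt j (C.aa y₂) ≠ F.pt l (C.aa y₃)
    · obtain ⟨d1, d2, d3⟩ := hd
      rw [tripleCost_eq d1 d2 d3, ← ENNReal.ofReal_add (creal_nonneg _ _ _ _) (by positivity)]
      apply ENNReal.ofReal_le_ofReal
      have := F.le_all (C.adm hy₁) (C.adm hy₂) (C.adm hy₃) d1 d2 d3
      show F.Uf i (C.V y₁.1) + F.Uf j (C.V y₂.1) + F.Uf l (C.V y₃.1) + 3 * m ≤ _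
      have this' : F.Uf i (C.V y₁.1) + F.Uf j (C.V y₂.1) + F.Uf l (C.V y₃.1)
          ≤ creal s (F.pt i (C.aa y₁)) (F.pt j (C.aa y₂)) (F.pt l (C.aa y₃)) := this
      linarith
    · rw [tripleCost_top F.hs hd]
      simp
  tight1 := by
    intro y hy
    have hD := C.V_mem_T y.1
    rw [pot_sum (hm 0 _ hD) (hm 1 _ hD) (hm 2 _ hD)]
    have d1 := F.pt_ne (i := 0) (j := 1) (by decide) (C.adm hy) (C.adm hy)
    have d2 := F.pt_ne (i := 0) (j := 2) (by decide) (C.adm hy) (C.adm hy)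
    have d3 := F.pt_ne (i := 1) (j := 2) (by decide) (C.adm hy) (C.adm hy)
    rw [tripleCost_eq d1 d2 d3, ← ENNReal.ofReal_add (creal_nonneg _ _ _ _) (by positivity)]
    congr 1
    have e : creal s (F.pt 0 (C.aa y)) (F.pt 1 (C.aa y)) (F.pt 2 (C.aa y))
        = F.Uf 0 (C.V y.1) + F.Uf 1 (C.V y.1) + F.Uf 2 (C.V y.1) := by
      have h1 := F.line_point (n := n) hD hD y.2.1 y.2.2
      have h2 := F.tight1 _ hD
      exact h1.trans h2.symm
    rw [e]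
  tight2 := by
    intro y hy
    have hD := C.V_mem_T y.1
    rw [pot_sum (hm 2 _ hD) (hm 3 _ hD) (hm 4 _ hD)]
    have d1 := F.pt_ne (i := 2) (j := 3) (by decide) (C.adm hy) (C.adm hy)
    have d2 := F.pt_ne (i := 2) (j := 4) (by decide) (C.adm hy) (C.adm hy)
    have d3 := F.pt_ne (i := 3) (j := 4) (by decide) (C.adm hy) (C.adm hy)
    rw [tripleCost_eq d1 d2 d3, ← ENNReal.ofReal_add (creal_nonneg _ _ _ _) (by positivity)]
    congr 1
    have e : creal s (F.pt 2 (C.aa y)) (F.pt 3 (C.aa y)) (F.pt 4 (C.aa y))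
        = F.Uf 2 (C.V y.1) + F.Uf 3 (C.V y.1) + F.Uf 4 (C.V y.1) :=
      F.tight2_point (n := n) hD y.2.1 y.2.2
    rw [e]
  rig0 := by
    intro j l y₀ hy₀ y₂ hy₂ y₃ hy₃ heq
    rw [pot_sum (hm 0 _ (C.V_mem_T _)) (hm j _ (C.V_mem_T _)) (hm l _ (C.V_mem_T _))] at heq
    by_cases hd : F.pt 0 (C.aa y₀) ≠ F.pt j (C.aa y₂) ∧ F.pt 0 (C.aa y₀) ≠ F.pt l (C.aa y₃) ∧
        F.pt j (C.aa y₂) ≠ F.pt l (C.aa y₃)
    · obtain ⟨d1, d2, d3⟩ := hd
      rw [tripleCost_eq d1 d2 d3, ← ENNReal.ofReal_add (creal_nonneg _ _ _ _) (by positivity),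
        ENNReal.ofReal_eq_ofReal_iff (add_nonneg (creal_nonneg _ _ _ _) (by positivity))
          (by have h1 := hm 0 _ (C.V_mem_T y₀.1); have h2 := hm j _ (C.V_mem_T y₂.1)
              have h3 := hm l _ (C.V_mem_T y₃.1); linarith)] at heq
      have heq' : creal s (F.pt 0 (C.aa y₀)) (F.pt j (C.aa y₂)) (F.pt l (C.aa y₃))
          = F.Uf 0 (C.aa y₀).1 + F.Uf j (C.aa y₂).1 + F.Uf l (C.aa y₃).1 := by
        show _ = F.Uf 0 (C.V y₀.1) + F.Uf j (C.V y₂.1) + F.Uf l (C.V y₃.1)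
        linarith
      rcases F.rig0_pt (C.adm hy₀) (C.adm hy₂) (C.adm hy₃) d1 d2 d3 heq' with
        ⟨e1, e2, e3, e4⟩ | ⟨e1, e2, e3, e4⟩
      · exact Or.inl ⟨e1, e2, C.aa_inj hy₂ hy₀ e3, C.aa_inj hy₃ hy₀ e4⟩
      · exact Or.inr ⟨e1, e2, C.aa_inj hy₂ hy₀ e3, C.aa_inj hy₃ hy₀ e4⟩
    · rw [tripleCost_top F.hs hd] at heq
      simp at heq
  rig1 := by
    intro j l y₀ hy₀ y₂ hy₂ y₃ hy₃ heq
    rw [pot_sum (hm 1 _ (C.V_mem_T _)) (hm j _ (C.V_mem_T _)) (hm l _ (C.V_mem_T _))] at heq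
    by_cases hd : F.pt 1 (C.aa y₀) ≠ F.pt j (C.aa y₂) ∧ F.pt 1 (C.aa y₀) ≠ F.pt l (C.aa y₃) ∧
        F.pt j (C.aa y₂) ≠ F.pt l (C.aa y₃)
    · obtain ⟨d1, d2, d3⟩ := hd
      rw [tripleCost_eq d1 d2 d3, ← ENNReal.ofReal_add (creal_nonneg _ _ _ _) (by positivity),
        ENNReal.ofReal_eq_ofReal_iff (add_nonneg (creal_nonneg _ _ _ _) (by positivity))
          (by have h1 := hm 1 _ (C.V_mem_T y₀.1); have h2 := hm j _ (C.V_mem_T y₂.1)
              have h3 := hm l _ (C.V_mem_T y₃.1); linarith)] at heq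
      have heq' : creal s (F.pt 1 (C.aa y₀)) (F.pt j (C.aa y₂)) (F.pt l (C.aa y₃))
          = F.Uf 1 (C.aa y₀).1 + F.Uf j (C.aa y₂).1 + F.Uf l (C.aa y₃).1 := by
        show _ = F.Uf 1 (C.V y₀.1) + F.Uf j (C.V y₂.1) + F.Uf l (C.V y₃.1)
        linarith
      rcases F.rig1_pt (C.adm hy₀) (C.adm hy₂) (C.adm hy₃) d1 d2 d3 heq' with
        ⟨e1, e2, e3, e4⟩ | ⟨e1, e2, e3, e4⟩
      · exact Or.inl ⟨e1, e2, C.aa_inj hy₂ hy₀ e3, C.aa_inj hy₃ hy₀ e4⟩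
      · exact Or.inr ⟨e1, e2, C.aa_inj hy₂ hy₀ e3, C.aa_inj hy₃ hy₀ e4⟩
    · rw [tripleCost_top F.hs hd] at heq
      simp at heq
  near1 := by
    intro ε hε
    obtain ⟨δ, hδ, h⟩ := near_gen C.G₁ C.G₁_cont C.G₁_nonneg hε
    refine ⟨δ, hδ, fun w hw w' hw' z hz hd => ?_⟩
    have hy : ((w, z) : ℝ × ℝ × SS n) ∈ Ioo (0:ℝ) 1 ×ˢ Z' F n := ⟨hw, hz⟩
    have hy' : ((w', z) : ℝ × ℝ × SS n) ∈ Ioo (0:ℝ) 1 ×ˢ Z' F n := ⟨hw', hz⟩
    have d1 := F.pt_ne (i := 0) (j := 1) (by decide) (C.adm hy) (C.adm hy)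
    have d2 := F.pt_ne (i := 0) (j := 2) (by decide) (C.adm hy) (C.adm hy')
    have d3 := F.pt_ne (i := 1) (j := 2) (by decide) (C.adm hy) (C.adm hy')
    have d2' := F.pt_ne (i := 0) (j := 2) (by decide) (C.adm hy) (C.adm hy)
    have d3' := F.pt_ne (i := 1) (j := 2) (by decide) (C.adm hy) (C.adm hy)
    rw [tripleCost_eq d1 d2 d3, tripleCost_eq d1 d2' d3']
    have e1 : creal s (F.pt 0 (C.aa (w, z))) (F.pt 1 (C.aa (w, z))) (F.pt 2 (C.aa (w', z)))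
        = C.G₁ (w, w') := F.line_point (n := n) (C.V_mem_T w) (C.V_mem_T w') z.1 z.2
    have e2 : creal s (F.pt 0 (C.aa (w, z))) (F.pt 1 (C.aa (w, z))) (F.pt 2 (C.aa (w, z)))
        = C.G₁ (w, w) := F.line_point (n := n) (C.V_mem_T w) (C.V_mem_T w) z.1 z.2
    rw [e1, e2]
    exact h w hw w' hw' hd
  near2 := by
    intro ε hε
    obtain ⟨δ, hδ, h⟩ := near_gen C.G₂ C.G₂_cont C.G₂_nonneg hε
    refine ⟨δ, hδ, fun w hw w' hw' z hz hd => ?_⟩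
    have hy : ((w, z) : ℝ × ℝ × SS n) ∈ Ioo (0:ℝ) 1 ×ˢ Z' F n := ⟨hw, hz⟩
    have hy' : ((w', z) : ℝ × ℝ × SS n) ∈ Ioo (0:ℝ) 1 ×ˢ Z' F n := ⟨hw', hz⟩
    have d1 := F.pt_ne (i := 2) (j := 3) (by decide) (C.adm hy') (C.adm hy)
    have d2 := F.pt_ne (i := 2) (j := 4) (by decide) (C.adm hy') (C.adm hy)
    have d3 := F.pt_ne (i := 3) (j := 4) (by decide) (C.adm hy) (C.adm hy)
    have d1' := F.pt_ne (i := 2) (j := 3) (by decide) (C.adm hy) (C.adm hy)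
    have d2' := F.pt_ne (i := 2) (j := 4) (by decide) (C.adm hy) (C.adm hy)
    rw [tripleCost_eq d1 d2 d3, tripleCost_eq d1' d2' d3]
    have e1 : creal s (F.pt 2 (C.aa (w', z))) (F.pt 3 (C.aa (w, z))) (F.pt 4 (C.aa (w, z)))
        = C.G₂ (w, w') := F.tri_point (n := n) (C.V_mem_T w) z.1 z.2 (F.Pp (C.V_mem_T w'))
    have e2 : creal s (F.pt 2 (C.aa (w, z))) (F.pt 3 (C.aa (w, z))) (F.pt 4 (C.aa (w, z)))
        = C.G₂ (w, w) := F.tri_point (n := n) (C.V_mem_T w) z.1 z.2 (F.Pp (C.V_mem_T w))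
    rw [e1, e2]
    exact h w hw w' hw' hd

end Ctx

end FamData

end Crest.Agent.Lib.MMOT
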