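import Mathlib

/-!
# The explicit one-parameter family: definitions, algebra, derivatives
-/

set_option linter.style.haveILetI false
set_option linter.unusedSectionVars false

namespace Crest.Agent.Lib.MMOT.Fam

open Real Set Filter Topology
open scoped ContDiff

noncomputable section

/-- The fixed radius. -/
def A : ℝ := 3 / 2

lemma A_pos : 0 < A := by norm_num [A]
lemma A_gt_one : 1 < A := by norm_num [A]

variable (s N : ℝ)

/-- Derivative of the pair force along the diagonal. -/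
def Lam (D : ℝ) : ℝ := (s / 2) * D ^ (-(s + 2))
/-- The complementary multiplier. -/
def Gam (D : ℝ) : ℝ := (N - Lam s D) / 2
/-- The base of the triangle. -/
def Bf (D : ℝ) : ℝ := (2 * Gam s N D / s) ^ (-1 / (s + 2))
/-- Half the base. -/
def qf (D : ℝ) : ℝ := Bf s N D / 2
/-- The height of the triangle. -/
def hf (D : ℝ) : ℝ := √(D ^ 2 - qf s N D ^ 2)
/-- The splitting ratio. -/
def lf (D : ℝ) : ℝ := Lam s D / N
/-- The central radius. -/
def Pf (D : ℝ) : ℝ := (1 - lf s N D) * hf s N D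
/-- The axial offset. -/
def mf (D : ℝ) : ℝ := lf s N D * hf s N D
/-- The outer radius. -/
def Rf (D : ℝ) : ℝ := √(qf s N D ^ 2 + mf s N D ^ 2)
/-- The outer angle. -/
def θf (D : ℝ) : ℝ := π / 2 - arctan (mf s N D / qf s N D)
/-- The force. -/
def ff (D : ℝ) : ℝ := 4 * Lam s D * hf s N D
/-- The auxiliary quantity. -/
def Wf (D : ℝ) : ℝ := A ^ (-(s + 1)) - ff s N D / s
/-- The inner gap. -/
def bf (D : ℝ) : ℝ := Wf s N D ^ (-1 / (s + 1))
/-- The long gap. -/
def ef (D : ℝ) : ℝ := A + bf s N D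
/-- The first radius. -/
def r1f (D : ℝ) : ℝ := A - Pf s N D
/-- The second radius. -/
def r2f (D : ℝ) : ℝ := bf s N D + Pf s N D
/-- The cost of the triangle. -/
def cT (D : ℝ) : ℝ := 2 * D ^ (-s) + Bf s N D ^ (-s)
/-- The cost of the line. -/
def ch (D : ℝ) : ℝ := ef s N D ^ (-s) + A ^ (-s) + bf s N D ^ (-s)
/-- The value of the central potential before normalisation. -/
def ub (D : ℝ) : ℝ := cT s N D + 2 * N * Rf s N D ^ 2
/-- The supergradient of the first potential. -/
def ϑf (D : ℝ) : ℝ := s * (A ^ (-s - 1) + ef s N D ^ (-s - 1))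

/-- The open conditions. -/
structure Good (D : ℝ) : Prop where
  hs : 0 < s
  hD : 0 < D
  hΓ : 0 < Gam s N D
  hh : qf s N D ^ 2 < D ^ 2
  hW : 0 < Wf s N D
  hp : (s + 2) * hf s N D ^ 2 < D ^ 2
  hl : hf s N D ^ 2 < (1 - lf s N D) * D ^ 2

variable {s N} {D : ℝ} (G : Good s N D)

namespace Good
include G

lemma hp2 : 0 < s + 2 := by linarith [G.hs]
lemma hp1 : 0 < s + 1 := by linarith [G.hs]
lemma Lam_pos : 0 < Lam s D := by
  have := G.hs
  have := G.hD
  unfold Lam
  positivity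
lemma N_eq : N = Lam s D + 2 * Gam s N D := by
  unfold Gam
  ring
lemma N_pos : 0 < N := by
  rw [G.N_eq]
  linarith [G.Lam_pos, G.hΓ]
lemma l_pos : 0 < lf s N D := div_pos G.Lam_pos G.N_pos
lemma one_sub_l : 1 - lf s N D = 2 * Gam s N D / N := by
  unfold lf
  have := G.N_pos
  have h := G.N_eq
  field_simp
  linarith
lemma l_lt : lf s N D < 1 := by
  have h := G.one_sub_l
  have h2 : 0 < 2 * Gam s N D / N := div_pos (by linarith [G.hΓ]) G.N_pos
  linarith
lemma base_pos : 0 < 2 * Gam s N D / s := div_pos (by linarith [G.hΓ]) G.hs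
lemma B_pos : 0 < Bf s N D := rpow_pos_of_pos G.base_pos _
lemma q_pos : 0 < qf s N D := by
  unfold qf
  linarith [G.B_pos]
lemma B_eq : Bf s N D = 2 * qf s N D := by
  unfold qf
  ring
lemma rad_pos : 0 < D ^ 2 - qf s N D ^ 2 := by linarith [G.hh]
lemma h_pos : 0 < hf s N D := sqrt_pos.2 G.rad_pos
lemma h_sq : hf s N D ^ 2 = D ^ 2 - qf s N D ^ 2 := sq_sqrt G.rad_pos.le
lemma P_pos : 0 < Pf s N D := mul_pos (by linarith [G.l_lt]) G.h_pos
lemma m_pos : 0 < mf s N D := mul_pos G.l_pos G.h_pos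
lemma P_add_m : Pf s N D + mf s N D = hf s N D := by
  unfold Pf mf
  ring
lemma R_rad_pos : 0 < qf s N D ^ 2 + mf s N D ^ 2 := by
  have := G.q_pos
  have := G.m_pos
  positivity
lemma R_pos : 0 < Rf s N D := sqrt_pos.2 G.R_rad_pos
lemma R_sq : Rf s N D ^ 2 = qf s N D ^ 2 + mf s N D ^ 2 := sq_sqrt G.R_rad_pos.le
lemma f_pos : 0 < ff s N D := by
  have := G.Lam_pos
  have := G.h_pos
  unfold ff
  positivity
lemma b_pos : 0 < bf s N D := rpow_pos_of_pos G.hW _
lemma e_pos : 0 < ef s N D := add_pos A_pos G.b_pos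

/-- `B^(-(s+2))` in terms of `Γ`. -/
lemma B_rpow : Bf s N D ^ (-(s + 2)) = 2 * Gam s N D / s := by
  unfold Bf
  rw [← rpow_mul G.base_pos.le]
  have h : -1 / (s + 2) * -(s + 2) = 1 := by
    have := G.hp2
    field_simp
  rw [h, rpow_one]

lemma Gam_eq : Gam s N D = (s / 2) * Bf s N D ^ (-(s + 2)) := by
  rw [G.B_rpow]
  have := G.hs
  field_simp

/-- The force equation. -/
lemma b_rpow : bf s N D ^ (-s - 1) = Wf s N D := by
  unfold bf
  rw [← rpow_mul G.hW.le]
  have h : -1 / (s + 1) * (-s - 1) = 1 := by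
    have := G.hp1
    field_simp
    ring
  rw [h, rpow_one]

lemma force : s * bf s N D ^ (-s - 1) - s * A ^ (-s - 1) = -ff s N D := by
  rw [G.b_rpow]
  unfold Wf
  have h : A ^ (-(s + 1)) = A ^ (-s - 1) := by
    congr 1
    ring
  rw [h]
  have := G.hs
  field_simp
  ring

/-- `s D^(-s-1) = 2 Λ D`. -/
lemma D_rpow : s * D ^ (-s - 1) = 2 * Lam s D * D := by
  unfold Lam
  have h : D ^ (-s - 1) = D ^ (-(s + 2)) * D := by
    have e : -s - 1 = -(s + 2) + 1 := by ring
    rw [e, rpow_add_one G.hD.ne']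
  rw [h]
  ring

/-- `s B^(-s-1) = 2 Γ B`. -/
lemma B_rpow' : s * Bf s N D ^ (-s - 1) = 2 * Gam s N D * Bf s N D := by
  rw [G.Gam_eq]
  have h : Bf s N D ^ (-s - 1) = Bf s N D ^ (-(s + 2)) * Bf s N D := by
    have e : -s - 1 = -(s + 2) + 1 := by ring
    rw [e, rpow_add_one G.B_pos.ne']
  rw [h]
  ring

end Good

/-! ### Derivative values -/

variable (s N)

/-- Derivative of `Lam`. -/
def dLam (D : ℝ) : ℝ := -(s + 2) * Lam s D / D
/-- Derivative of `Gam`. -/
def dGam (D : ℝ) : ℝ := (s + 2) * Lam s D / (2 * D)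
/-- Derivative of `q`. -/
def dq (D : ℝ) : ℝ := -(qf s N D * Lam s D / (2 * D * Gam s N D))
/-- Derivative of `B`. -/
def dB (D : ℝ) : ℝ := 2 * dq s N D
/-- Derivative of `h`. -/
def dh (D : ℝ) : ℝ := (D - qf s N D * dq s N D) / hf s N D
/-- Derivative of `l`. -/
def dl (D : ℝ) : ℝ := -(s + 2) * lf s N D / D
/-- Derivative of `P`. -/
def dP (D : ℝ) : ℝ := (1 - lf s N D) * dh s N D - dl s N D * hf s N D
/-- Derivative of `m`. -/
def dm (D : ℝ) : ℝ := lf s N D * dh s N D + dl s N D * hf s N D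
/-- Derivative of `R`. -/
def dR (D : ℝ) : ℝ := (qf s N D * dq s N D + mf s N D * dm s N D) / Rf s N D
/-- Derivative of `f`. -/
def df (D : ℝ) : ℝ := 4 * (dLam s D * hf s N D + Lam s D * dh s N D)
/-- Derivative of `W`. -/
def dW (D : ℝ) : ℝ := -(df s N D / s)
/-- Derivative of `b`. -/
def db (D : ℝ) : ℝ := dW s N D * (-1 / (s + 1)) * Wf s N D ^ (-1 / (s + 1) - 1)

variable {s N}

lemma hasDeriv_Lam (hD : 0 < D) : HasDerivAt (Lam s) (dLam s D) D := by
  have h := ((hasDerivAt_id D).rpow_const (p := -(s + 2)) (Or.inl hD.ne')).const_mul (s / 2)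
  have e : (s / 2) * (1 * -(s + 2) * id D ^ (-(s + 2) - 1)) = dLam s D := by
    unfold dLam Lam
    simp only [id]
    rw [rpow_sub_one hD.ne']
    ring
  rw [e] at h
  exact h

lemma hasDeriv_Gam (hD : 0 < D) : HasDerivAt (Gam s N) (dGam s D) D := by
  have h := ((hasDeriv_Lam (s := s) hD).const_sub N).div_const 2
  have e : -dLam s D / 2 = dGam s D := by
    unfold dLam dGam
    field_simp
  rw [e] at h
  exact h

namespace Good
include G

lemma hasDeriv_B : HasDerivAt (Bf s N) (dB s N D) D := by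
  have h1 := (((hasDeriv_Gam (s := s) (N := N) G.hD).const_mul 2).div_const s)
  have h2 := h1.rpow_const (p := -1 / (s + 2)) (Or.inl G.base_pos.ne')
  have e : 2 * dGam s D / s * (-1 / (s + 2)) * (2 * Gam s N D / s) ^ (-1 / (s + 2) - 1) = dB s N D := by
    rw [rpow_sub_one G.base_pos.ne']
    unfold dB dq qf dGam Bf
    have hs := G.hs
    have hp := G.hp2
    have hD := G.hD
    have hΓ := G.hΓ
    field_simp
  rw [e] at h2
  exact h2

lemma hasDeriv_q : HasDerivAt (qf s N) (dq s N D) D := by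
  have h := G.hasDeriv_B.div_const 2
  have e : dB s N D / 2 = dq s N D := by
    unfold dB
    ring
  rw [e] at h
  exact h

lemma hasDeriv_h : HasDerivAt (hf s N) (dh s N D) D := by
  have h1 : HasDerivAt (fun y => y ^ 2 - qf s N y ^ 2)
      (((2 : ℕ) : ℝ) * D ^ (2 - 1) * 1 - ((2 : ℕ) : ℝ) * qf s N D ^ (2 - 1) * dq s N D) D :=
    ((hasDerivAt_id D).pow 2).sub (G.hasDeriv_q.pow 2)
  have h2 := h1.sqrt G.rad_pos.ne'
  have e : (((2 : ℕ) : ℝ) * D ^ (2 - 1) * 1 - ((2 : ℕ) : ℝ) * qf s N D ^ (2 - 1) * dq s N D)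
      / (2 * √(D ^ 2 - qf s N D ^ 2)) = dh s N D := by
    have hh : √(D ^ 2 - qf s N D ^ 2) = hf s N D := rfl
    rw [hh]
    unfold dh
    have := G.h_pos
    field_simp
    push_cast
    ring
  rw [e] at h2
  exact h2

lemma hasDeriv_l : HasDerivAt (lf s N) (dl s N D) D := by
  have h := (hasDeriv_Lam (s := s) G.hD).div_const N
  have e : dLam s D / N = dl s N D := by
    unfold dLam dl lf
    ring
  rw [e] at h
  exact h

lemma hasDeriv_P : HasDerivAt (Pf s N) (dP s N D) D := by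
  have h := (G.hasDeriv_l.const_sub 1).mul G.hasDeriv_h
  have e : -dl s N D * hf s N D + (1 - lf s N D) * dh s N D = dP s N D := by
    unfold dP
    ring
  rw [e] at h
  exact h

lemma hasDeriv_m : HasDerivAt (mf s N) (dm s N D) D := by
  have h := G.hasDeriv_l.mul G.hasDeriv_h
  have e : dl s N D * hf s N D + lf s N D * dh s N D = dm s N D := by
    unfold dm
    ring
  rw [e] at h
  exact h

lemma hasDeriv_R : HasDerivAt (Rf s N) (dR s N D) D := by
  have h1 : HasDerivAt (fun y => qf s N y ^ 2 + mf s N y ^ 2)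
      (((2 : ℕ) : ℝ) * qf s N D ^ (2 - 1) * dq s N D + ((2 : ℕ) : ℝ) * mf s N D ^ (2 - 1) * dm s N D) D :=
    (G.hasDeriv_q.pow 2).add (G.hasDeriv_m.pow 2)
  have h2 := h1.sqrt G.R_rad_pos.ne'
  have e : (((2 : ℕ) : ℝ) * qf s N D ^ (2 - 1) * dq s N D + ((2 : ℕ) : ℝ) * mf s N D ^ (2 - 1) * dm s N D)
      / (2 * √(qf s N D ^ 2 + mf s N D ^ 2)) = dR s N D := by
    have hh : √(qf s N D ^ 2 + mf s N D ^ 2) = Rf s N D := rfl
    rw [hh]
    unfold dR
    have := G.R_pos
    field_simp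
    push_cast
    ring
  rw [e] at h2
  exact h2

lemma hasDeriv_f : HasDerivAt (ff s N) (df s N D) D := by
  have h := ((hasDeriv_Lam (s := s) G.hD).const_mul 4).mul G.hasDeriv_h
  have e : 4 * dLam s D * hf s N D + 4 * Lam s D * dh s N D = df s N D := by
    unfold df
    ring
  rw [e] at h
  exact h

lemma hasDeriv_W : HasDerivAt (Wf s N) (dW s N D) D := by
  have h := (G.hasDeriv_f.div_const s).const_sub (A ^ (-(s + 1)))
  exact h

lemma hasDeriv_b : HasDerivAt (bf s N) (db s N D) D :=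
  G.hasDeriv_W.rpow_const (Or.inl G.hW.ne')

lemma hasDeriv_r1 : HasDerivAt (r1f s N) (-dP s N D) D := G.hasDeriv_P.const_sub A

lemma hasDeriv_r2 : HasDerivAt (r2f s N) (db s N D + dP s N D) D := G.hasDeriv_b.add G.hasDeriv_P

/-! ### Signs of the derivatives -/

lemma q_dq : qf s N D * dq s N D = -(qf s N D ^ 2 * Lam s D / (2 * D * Gam s N D)) := by
  unfold dq
  ring

lemma dh_ge : D / hf s N D ≤ dh s N D := by
  unfold dh
  have h1 := G.h_pos
  rw [G.q_dq]
  apply div_le_div_of_nonneg_right _ h1.le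
  have : 0 ≤ qf s N D ^ 2 * Lam s D / (2 * D * Gam s N D) := by
    have := G.Lam_pos
    have := G.hD
    have := G.hΓ
    positivity
  linarith

lemma dP_eq : dP s N D = (1 - lf s N D) * dh s N D + (s + 2) * lf s N D * hf s N D / D := by
  unfold dP dl
  ring

lemma dP_gt : hf s N D / D < dP s N D := by
  rw [G.dP_eq]
  have h1 := G.h_pos
  have hD := G.hD
  have hl := G.l_pos
  have hl1 : 0 < 1 - lf s N D := by linarith [G.l_lt]
  have a1 : (1 - lf s N D) * (D / hf s N D) ≤ (1 - lf s N D) * dh s N D :=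
    mul_le_mul_of_nonneg_left G.dh_ge hl1.le
  have a2 : 0 < (s + 2) * lf s N D * hf s N D / D := by
    have := G.hp2
    positivity
  have a3 : hf s N D / D < (1 - lf s N D) * (D / hf s N D) := by
    rw [div_lt_iff₀ hD]
    have : (1 - lf s N D) * (D / hf s N D) * D = (1 - lf s N D) * D ^ 2 / hf s N D := by
      field_simp
    rw [this, lt_div_iff₀ h1]
    nlinarith [G.hl]
  linarith

lemma dP_pos : 0 < dP s N D := lt_trans (div_pos G.h_pos G.hD) G.dP_gt

lemma df_pos : 0 < df s N D := by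
  unfold df dLam
  have h1 := G.h_pos
  have hD := G.hD
  have hL := G.Lam_pos
  have a1 := G.dh_ge
  have a2 : (s + 2) * hf s N D / D < D / hf s N D := by
    rw [div_lt_div_iff₀ hD h1]
    nlinarith [G.hp]
  have a3 : (s + 2) * hf s N D / D < dh s N D := lt_of_lt_of_le a2 a1
  have e : -(s + 2) * Lam s D / D * hf s N D + Lam s D * dh s N D
      = Lam s D * (dh s N D - (s + 2) * hf s N D / D) := by
    ring
  rw [e]
  have : 0 < dh s N D - (s + 2) * hf s N D / D := by linarith
  positivity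

lemma db_pos : 0 < db s N D := by
  unfold db dW
  have h1 := G.df_pos
  have h2 := G.hW
  have hs := G.hs
  have hp := G.hp1
  have h3 : 0 < Wf s N D ^ (-1 / (s + 1) - 1) := rpow_pos_of_pos h2 _
  have e : -(df s N D / s) * (-1 / (s + 1)) * Wf s N D ^ (-1 / (s + 1) - 1)
      = df s N D / s * (1 / (s + 1)) * Wf s N D ^ (-1 / (s + 1) - 1) := by
    ring
  rw [e]
  positivity

/-- The identity behind the shape of the central potential. -/
lemma R_dR : 2 * N * (Rf s N D * dR s N D) =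
    2 * Lam s D * hf s N D * (hf s N D / D - dP s N D) := by
  have hR := G.R_pos
  have hN := G.N_eq
  have hNp := G.N_pos
  have hD := G.hD
  have hΓ := G.hΓ
  have hL := G.Lam_pos
  have hh := G.h_pos
  have hsq := G.h_sq
  have e1 : Rf s N D * dR s N D = qf s N D * dq s N D + mf s N D * dm s N D := by
    unfold dR
    field_simp
  rw [e1, G.q_dq]
  have e2 : N * mf s N D = Lam s D * hf s N D := by
    unfold mf lf
    field_simp
  have e3 : dm s N D + dP s N D = dh s N D := by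
    unfold dm dP
    ring
  have e4 : hf s N D * dh s N D = D + qf s N D ^ 2 * Lam s D / (2 * D * Gam s N D) := by
    unfold dh
    rw [G.q_dq]
    field_simp
    ring
  have e5 : dm s N D = dh s N D - dP s N D := by linarith
  have key : 2 * N * (-(qf s N D ^ 2 * Lam s D / (2 * D * Gam s N D)) + mf s N D * dm s N D)
      = -(N * qf s N D ^ 2 * Lam s D / (D * Gam s N D))
        + 2 * (N * mf s N D) * (dh s N D - dP s N D) := by
    rw [e5]
    field_simp
  rw [key, e2]
  have e6 : 2 * (Lam s D * hf s N D) * (dh s N D - dP s N D)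
      = 2 * Lam s D * (hf s N D * dh s N D) - 2 * Lam s D * hf s N D * dP s N D := by ring
  rw [e6, e4]
  have e7 : hf s N D * (hf s N D / D) = (D ^ 2 - qf s N D ^ 2) / D := by
    rw [← hsq]
    field_simp
  have e8 : 2 * Lam s D * hf s N D * (hf s N D / D - dP s N D)
      = 2 * Lam s D * (hf s N D * (hf s N D / D)) - 2 * Lam s D * hf s N D * dP s N D := by ring
  rw [e8, e7]
  have e9 : N = Lam s D + 2 * Gam s N D := hN
  set L := Lam s D
  set Γ := Gam s N D
  set q := qf s N D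
  rw [e9]
  field_simp
  ring

lemma dR_neg : dR s N D < 0 := by
  have h := G.R_dR
  have hR := G.R_pos
  have hN := G.N_pos
  have hL := G.Lam_pos
  have hh := G.h_pos
  have h1 : hf s N D / D - dP s N D < 0 := by linarith [G.dP_gt]
  by_contra hcon
  rw [not_lt] at hcon
  have h2 : 0 ≤ 2 * N * (Rf s N D * dR s N D) := by positivity
  have h3 : 2 * Lam s D * hf s N D * (hf s N D / D - dP s N D) < 0 :=
    mul_neg_of_pos_of_neg (by positivity) h1
  linarith

lemma hasDeriv_cT : HasDerivAt (cT s N)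
    (2 * (1 * (-s) * D ^ (-s - 1)) + dB s N D * (-s) * Bf s N D ^ (-s - 1)) D := by
  have h1 := ((hasDerivAt_id D).rpow_const (p := -s) (Or.inl G.hD.ne')).const_mul 2
  have h2 := G.hasDeriv_B.rpow_const (p := -s) (Or.inl G.B_pos.ne')
  exact h1.add h2

/-- The derivative of the central potential. -/
lemma hasDeriv_ub : HasDerivAt (ub s N) (-(ff s N D * dP s N D)) D := by
  have h1 := G.hasDeriv_cT
  have h2 : HasDerivAt (fun y => 2 * N * Rf s N y ^ 2)
      (2 * N * (((2 : ℕ) : ℝ) * Rf s N D ^ (2 - 1) * dR s N D)) D :=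
    (G.hasDeriv_R.pow 2).const_mul (2 * N)
  have h3 := h1.add h2
  have e : 2 * (1 * (-s) * D ^ (-s - 1)) + dB s N D * (-s) * Bf s N D ^ (-s - 1)
      + 2 * N * (((2 : ℕ) : ℝ) * Rf s N D ^ (2 - 1) * dR s N D) = -(ff s N D * dP s N D) := by
    have a1 : 2 * (1 * (-s) * D ^ (-s - 1)) = -2 * (s * D ^ (-s - 1)) := by ring
    have a2 : dB s N D * (-s) * Bf s N D ^ (-s - 1) = -dB s N D * (s * Bf s N D ^ (-s - 1)) := by ring
    have a3 : 2 * N * (((2 : ℕ) : ℝ) * Rf s N D ^ (2 - 1) * dR s N D)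
        = 2 * (2 * N * (Rf s N D * dR s N D)) := by
      push_cast
      ring
    rw [a1, a2, a3, G.D_rpow, G.B_rpow', G.R_dR]
    have hD := G.hD
    have hΓ := G.hΓ
    have e7 : hf s N D ^ 2 = D ^ 2 - qf s N D ^ 2 := G.h_sq
    have e8 : dB s N D * (2 * Gam s N D * Bf s N D) = -(2 * qf s N D) ^ 2 * Lam s D / D := by
      rw [G.B_eq]
      unfold dB dq
      field_simp
    have e9 : -dB s N D * (2 * Gam s N D * Bf s N D) = -(dB s N D * (2 * Gam s N D * Bf s N D)) := by
      ring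
    rw [e9, e8]
    unfold ff
    have e10 : 2 * (2 * Lam s D * hf s N D * (hf s N D / D - dP s N D))
        = 4 * Lam s D * (hf s N D ^ 2) / D - 4 * Lam s D * hf s N D * dP s N D := by
      field_simp
      ring
    rw [e10, e7]
    field_simp
    ring
  rw [e] at h3
  exact h3

end Good

end

end Crest.Agent.Lib.MMOT.Fam
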