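import Mathlib
import Crest.Agent.Lib.MMOT.Fam1
import Crest.Agent.Lib.MMOT.Ineq

/-!
# The explicit one-parameter family: regularity, openness, the radial inequality
-/

set_option linter.style.haveILetI false
set_option linter.unusedSectionVars false

namespace Crest.Agent.Lib.MMOT.Fam

open Real Set Filter Topology
open scoped ContDiff

noncomputable section

variable {s N D : ℝ} (G : Good s N D)

namespace Good
include G

lemma cd_Lam : ContDiffAt ℝ ∞ (Lam s) D :=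
  contDiffAt_const.mul (contDiffAt_id.rpow_const_of_ne G.hD.ne')

lemma cd_Gam : ContDiffAt ℝ ∞ (Gam s N) D :=
  (contDiffAt_const.sub G.cd_Lam).div_const 2

lemma cd_B : ContDiffAt ℝ ∞ (Bf s N) D :=
  ((contDiffAt_const.mul G.cd_Gam).div_const s).rpow_const_of_ne G.base_pos.ne'

lemma cd_q : ContDiffAt ℝ ∞ (qf s N) D := G.cd_B.div_const 2

lemma cd_h : ContDiffAt ℝ ∞ (hf s N) D :=
  ((contDiffAt_id.pow 2).sub (G.cd_q.pow 2)).sqrt G.rad_pos.ne'

lemma cd_l : ContDiffAt ℝ ∞ (lf s N) D := G.cd_Lam.div_const N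

lemma cd_P : ContDiffAt ℝ ∞ (Pf s N) D := (contDiffAt_const.sub G.cd_l).mul G.cd_h

lemma cd_m : ContDiffAt ℝ ∞ (mf s N) D := G.cd_l.mul G.cd_h

lemma cd_R : ContDiffAt ℝ ∞ (Rf s N) D :=
  ((G.cd_q.pow 2).add (G.cd_m.pow 2)).sqrt G.R_rad_pos.ne'

lemma cd_θ : ContDiffAt ℝ ∞ (θf s N) D :=
  contDiffAt_const.sub ((G.cd_m.div G.cd_q G.q_pos.ne').arctan)

lemma cd_f : ContDiffAt ℝ ∞ (ff s N) D := (contDiffAt_const.mul G.cd_Lam).mul G.cd_h

lemma cd_W : ContDiffAt ℝ ∞ (Wf s N) D := contDiffAt_const.sub (G.cd_f.div_const s)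

lemma cd_b : ContDiffAt ℝ ∞ (bf s N) D := G.cd_W.rpow_const_of_ne G.hW.ne'

lemma cd_e : ContDiffAt ℝ ∞ (ef s N) D := contDiffAt_const.add G.cd_b

lemma cd_r1 : ContDiffAt ℝ ∞ (r1f s N) D := contDiffAt_const.sub G.cd_P

lemma cd_r2 : ContDiffAt ℝ ∞ (r2f s N) D := G.cd_b.add G.cd_P

lemma cd_cT : ContDiffAt ℝ ∞ (cT s N) D :=
  (contDiffAt_const.mul (contDiffAt_id.rpow_const_of_ne G.hD.ne')).add
    (G.cd_B.rpow_const_of_ne G.B_pos.ne')

lemma cd_ch : ContDiffAt ℝ ∞ (ch s N) D :=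
  ((G.cd_e.rpow_const_of_ne G.e_pos.ne').add contDiffAt_const).add
    (G.cd_b.rpow_const_of_ne G.b_pos.ne')

lemma cd_ub : ContDiffAt ℝ ∞ (ub s N) D :=
  G.cd_cT.add (contDiffAt_const.mul (G.cd_R.pow 2))

lemma cd_ϑ : ContDiffAt ℝ ∞ (ϑf s N) D :=
  contDiffAt_const.mul (contDiffAt_const.add (G.cd_e.rpow_const_of_ne G.e_pos.ne'))

lemma ct_dq : ContinuousAt (dq s N) D := by
  have h1 := G.cd_q.continuousAt
  have h2 := G.cd_Lam.continuousAt
  have h3 := G.cd_Gam.continuousAt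
  have hD := G.hD
  have hΓ := G.hΓ
  refine ((h1.mul h2).div ((continuousAt_const.mul continuousAt_id).mul h3) ?_).neg
  have : 2 * D * Gam s N D ≠ 0 := by positivity
  exact this

lemma ct_dh : ContinuousAt (dh s N) D :=
  (continuousAt_id.sub (G.cd_q.continuousAt.mul G.ct_dq)).div G.cd_h.continuousAt G.h_pos.ne'

lemma ct_dl : ContinuousAt (dl s N) D :=
  (continuousAt_const.mul G.cd_l.continuousAt).div continuousAt_id G.hD.ne'

lemma ct_dP : ContinuousAt (dP s N) D :=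
  ((continuousAt_const.sub G.cd_l.continuousAt).mul G.ct_dh).sub
    (G.ct_dl.mul G.cd_h.continuousAt)

/-- The good set is open. -/
lemma eventually : ∀ᶠ y in 𝓝 D, Good s N y := by
  have a1 := lt_mem_nhds G.hD
  have a2 := G.cd_Gam.continuousAt.eventually (lt_mem_nhds G.hΓ)
  have cid : ContinuousAt (fun y : ℝ => y ^ 2) D := continuousAt_id.pow 2
  have a3 : ∀ᶠ y in 𝓝 D, qf s N y ^ 2 < y ^ 2 :=
    (G.cd_q.continuousAt.pow 2).eventually_lt cid G.hh
  have a4 := G.cd_W.continuousAt.eventually (lt_mem_nhds G.hW)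
  have a5 : ∀ᶠ y in 𝓝 D, (s + 2) * hf s N y ^ 2 < y ^ 2 :=
    (continuousAt_const.mul (G.cd_h.continuousAt.pow 2)).eventually_lt cid G.hp
  have a6 : ∀ᶠ y in 𝓝 D, hf s N y ^ 2 < (1 - lf s N y) * y ^ 2 :=
    (G.cd_h.continuousAt.pow 2).eventually_lt
      ((continuousAt_const.sub G.cd_l.continuousAt).mul cid) G.hl
  filter_upwards [a1, a2, a3, a4, a5, a6] with y h1 h2 h3 h4 h5 h6
  exact ⟨G.hs, h1, h2, h3, h4, h5, h6⟩

end Good

/-! ### General calculus lemmas -/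

lemma strictMonoOn_of_hasDeriv {f df : ℝ → ℝ} {a b : ℝ} (h : ∀ x ∈ Ioo a b, HasDerivAt f (df x) x)
    (hp : ∀ x ∈ Ioo a b, 0 < df x) : StrictMonoOn f (Ioo a b) := by
  refine strictMonoOn_of_deriv_pos (convex_Ioo a b)
    (fun x hx => (h x hx).continuousAt.continuousWithinAt) ?_
  intro x hx
  rw [interior_Ioo] at hx
  rw [(h x hx).deriv]
  exact hp x hx

lemma strictAntiOn_of_hasDeriv {f df : ℝ → ℝ} {a b : ℝ} (h : ∀ x ∈ Ioo a b, HasDerivAt f (df x) x)
    (hp : ∀ x ∈ Ioo a b, df x < 0) : StrictAntiOn f (Ioo a b) := by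
  refine strictAntiOn_of_deriv_neg (convex_Ioo a b)
    (fun x hx => (h x hx).continuousAt.continuousWithinAt) ?_
  intro x hx
  rw [interior_Ioo] at hx
  rw [(h x hx).deriv]
  exact hp x hx

/-- Concavity with respect to a monotone parametrisation, in the form of a supporting line. -/
lemma concave_lemma {F φ Q d : ℝ → ℝ} {a b : ℝ}
    (hF : ∀ x ∈ Icc a b, HasDerivAt F (φ x * d x) x) (hQ : ∀ x ∈ Icc a b, HasDerivAt Q (d x) x)
    (hd : ∀ x ∈ Icc a b, 0 ≤ d x) (hφ : AntitoneOn φ (Icc a b)) {x y : ℝ} (hx : x ∈ Icc a b)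
    (hy : y ∈ Icc a b) : F y - F x ≤ φ x * (Q y - Q x) := by
  have hder : ∀ c ∈ Icc a b, HasDerivAt (fun z => F z - φ x * Q z) (φ c * d c - φ x * d c) c :=
    fun c hc => (hF c hc).sub ((hQ c hc).const_mul (φ x))
  rcases lt_trichotomy x y with hxy | rfl | hxy
  · have hsub : Icc x y ⊆ Icc a b := Icc_subset_Icc hx.1 hy.2
    obtain ⟨c, hc, e⟩ := exists_hasDerivAt_eq_slope (fun z => F z - φ x * Q z) _ hxy
      (fun z hz => (hder z (hsub hz)).continuousAt.continuousWithinAt)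
      (fun z hz => hder z (hsub ⟨hz.1.le, hz.2.le⟩))
    have hcI : c ∈ Icc a b := hsub ⟨hc.1.le, hc.2.le⟩
    have h1 : φ c ≤ φ x := hφ hx hcI hc.1.le
    have h2 : (φ c - φ x) * d c ≤ 0 := mul_nonpos_of_nonpos_of_nonneg (by linarith) (hd c hcI)
    have h3 : (F y - φ x * Q y - (F x - φ x * Q x)) / (y - x) ≤ 0 := by
      rw [← e]
      linarith
    have h4 : 0 < y - x := by linarith
    have h5 := (div_le_iff₀ h4).1 h3
    linarith
  · simp
  · have hsub : Icc y x ⊆ Icc a b := Icc_subset_Icc hy.1 hx.2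
    obtain ⟨c, hc, e⟩ := exists_hasDerivAt_eq_slope (fun z => F z - φ x * Q z) _ hxy
      (fun z hz => (hder z (hsub hz)).continuousAt.continuousWithinAt)
      (fun z hz => hder z (hsub ⟨hz.1.le, hz.2.le⟩))
    have hcI : c ∈ Icc a b := hsub ⟨hc.1.le, hc.2.le⟩
    have h1 : φ x ≤ φ c := hφ hcI hx hc.2.le
    have h2 : 0 ≤ (φ c - φ x) * d c := mul_nonneg (by linarith) (hd c hcI)
    have h3 : 0 ≤ (F x - φ x * Q x - (F y - φ x * Q y)) / (x - y) := by
      rw [← e]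
      linarith
    have h4 : 0 < x - y := by linarith
    have h5 := (le_div_iff₀ h4).1 h3
    linarith

/-! ### Monotonicity on intervals of good points -/

section Interval

variable {a b : ℝ} (hG : ∀ D ∈ Icc a b, Good s N D)
include hG

lemma mono_of_deriv {f df : ℝ → ℝ} (h : ∀ x ∈ Icc a b, HasDerivAt f (df x) x)
    (hp : ∀ x ∈ Icc a b, 0 < df x) : MonotoneOn f (Icc a b) := by
  refine monotoneOn_of_deriv_nonneg (convex_Icc a b)
    (fun x hx => (h x hx).continuousAt.continuousWithinAt)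
    (fun x hx => (h x (interior_subset hx)).differentiableAt.differentiableWithinAt) ?_
  intro x hx
  rw [(h x (interior_subset hx)).deriv]
  exact (hp x (interior_subset hx)).le

lemma mono_f : MonotoneOn (ff s N) (Icc a b) :=
  mono_of_deriv hG (fun x hx => (hG x hx).hasDeriv_f) (fun x hx => (hG x hx).df_pos)

lemma mono_b : MonotoneOn (bf s N) (Icc a b) :=
  mono_of_deriv hG (fun x hx => (hG x hx).hasDeriv_b) (fun x hx => (hG x hx).db_pos)

lemma anti_minus_f : AntitoneOn (fun x => -ff s N x) (Icc a b) := by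
  intro x hx y hy hxy
  have := mono_f hG hx hy hxy
  simp only
  linarith

lemma anti_ϑ : AntitoneOn (ϑf s N) (Icc a b) := by
  intro x hx y hy hxy
  have hs := (hG x hx).hs
  have h1 : bf s N x ≤ bf s N y := mono_b hG hx hy hxy
  have h2 : ef s N x ≤ ef s N y := by
    unfold ef
    linarith
  have h3 : ef s N y ^ (-s - 1) ≤ ef s N x ^ (-s - 1) :=
    rpow_le_rpow_of_nonpos (hG x hx).e_pos h2 (by linarith)
  unfold ϑf
  exact mul_le_mul_of_nonneg_left (by linarith) hs.le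

/-- The supporting line of the central potential. -/
lemma line_ub {x y : ℝ} (hx : x ∈ Icc a b) (hy : y ∈ Icc a b) :
    ub s N y - ub s N x ≤ -ff s N x * (Pf s N y - Pf s N x) := by
  refine concave_lemma (F := ub s N) (φ := fun x => -ff s N x) (Q := Pf s N) (d := dP s N)
    (a := a) (b := b) ?_ (fun c hc => (hG c hc).hasDeriv_P) (fun c hc => (hG c hc).dP_pos.le)
    (anti_minus_f hG) hx hy
  intro c hc
  have := (hG c hc).hasDeriv_ub
  rwa [← neg_mul] at this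

/-- The supporting line of a primitive of `ϑ dP`. -/
lemma line_U {U : ℝ → ℝ} (hU : ∀ x ∈ Icc a b, HasDerivAt U (ϑf s N x * dP s N x) x) {x y : ℝ}
    (hx : x ∈ Icc a b) (hy : y ∈ Icc a b) :
    U y - U x ≤ ϑf s N x * (Pf s N y - Pf s N x) :=
  concave_lemma hU (fun c hc => (hG c hc).hasDeriv_P) (fun c hc => (hG c hc).dP_pos.le)
    (anti_ϑ hG) hx hy

/-- The strictly monotone radial coordinate is injective on the interval. -/
lemma P_inj_Icc {x y : ℝ} (hx : x ∈ Icc a b) (hy : y ∈ Icc a b)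
    (h : Pf s N x = Pf s N y) : x = y := by
  have key : ∀ {u v : ℝ}, u ∈ Icc a b → v ∈ Icc a b → u < v → Pf s N u < Pf s N v := by
    intro u v hu hv huv
    have hsub : Icc u v ⊆ Icc a b := Icc_subset_Icc hu.1 hv.2
    obtain ⟨c, hc, e⟩ := exists_hasDerivAt_eq_slope (Pf s N) (dP s N) huv
      (fun z hz => (hG z (hsub hz)).hasDeriv_P.continuousAt.continuousWithinAt)
      (fun z hz => (hG z (hsub ⟨hz.1.le, hz.2.le⟩)).hasDeriv_P)
    have h1 : 0 < dP s N c := (hG c (hsub ⟨hc.1.le, hc.2.le⟩)).dP_pos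
    rw [e] at h1
    have h2 : 0 < v - u := by linarith
    have h3 := (lt_div_iff₀ h2).1 h1
    linarith
  rcases lt_trichotomy x y with h1 | h1 | h1
  · exact absurd h (key hx hy h1).ne
  · exact h1
  · exact absurd h.symm (key hy hx h1).ne

/-- The three tangent lines, summed up. -/
lemma tangents {D₁ D₂ D₃ : ℝ} (h2 : D₂ ∈ Icc a b) :
    ch s N D₂ + ϑf s N D₂ * (Pf s N D₁ - Pf s N D₂) - ff s N D₂ * (Pf s N D₃ - Pf s N D₂)
      = (ef s N D₂ ^ (-s) - s * ef s N D₂ ^ (-s - 1) * ((r1f s N D₁ + r2f s N D₂) - ef s N D₂))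
        + (A ^ (-s) - s * A ^ (-s - 1) * ((r1f s N D₁ + Pf s N D₃) - A))
        + (bf s N D₂ ^ (-s) - s * bf s N D₂ ^ (-s - 1) * ((r2f s N D₂ - Pf s N D₃) - bf s N D₂)) := by
  have hf := (hG D₂ h2).force
  have e : s * bf s N D₂ ^ (-s - 1) = s * A ^ (-s - 1) - ff s N D₂ := by linarith
  have e2 : (bf s N D₂ ^ (-s) - s * bf s N D₂ ^ (-s - 1) * ((r2f s N D₂ - Pf s N D₃) - bf s N D₂))
      = bf s N D₂ ^ (-s) - (s * bf s N D₂ ^ (-s - 1)) * ((r2f s N D₂ - Pf s N D₃) - bf s N D₂) := by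
    ring
  rw [e2, e]
  unfold ch ϑf r1f r2f ef
  ring

/-- The radial inequality. -/
theorem e1_le_core {U : ℝ → ℝ} (hU : ∀ x ∈ Icc a b, HasDerivAt U (ϑf s N x * dP s N x) x) (c : ℝ)
    {D₁ D₂ D₃ : ℝ} (h1 : D₁ ∈ Icc a b) (h2 : D₂ ∈ Icc a b) (h3 : D₃ ∈ Icc a b)
    (hz1 : 0 < r1f s N D₁ + r2f s N D₂) (hz2 : 0 < r1f s N D₁ + Pf s N D₃)
    (hz3 : 0 < r2f s N D₂ - Pf s N D₃) :
    U D₁ + (ch s N D₂ - U D₂ - (ub s N D₂ - c)) + (ub s N D₃ - c) ≤
      (r1f s N D₁ + r2f s N D₂) ^ (-s) + (r1f s N D₁ + Pf s N D₃) ^ (-s)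
        + (r2f s N D₂ - Pf s N D₃) ^ (-s) := by
  have hs := (hG D₂ h2).hs
  have l1 := line_U hG hU h2 h1
  have l2 := line_ub hG h2 h3
  have t0 := tangents hG (D₁ := D₁) (D₃ := D₃) h2
  have t1 := tangent_rpow hs hz1 (hG D₂ h2).e_pos
  have t2 := tangent_rpow hs hz2 A_pos
  have t3 := tangent_rpow hs hz3 (hG D₂ h2).b_pos
  have e : -ff s N D₂ * (Pf s N D₃ - Pf s N D₂) = -(ff s N D₂ * (Pf s N D₃ - Pf s N D₂)) := by ring
  rw [e] at l2
  linarith

/-- Equality in the radial inequality. -/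
theorem e1_eq_core {U : ℝ → ℝ} (hU : ∀ x ∈ Icc a b, HasDerivAt U (ϑf s N x * dP s N x) x) (c : ℝ)
    {D₁ D₂ D₃ : ℝ} (h1 : D₁ ∈ Icc a b) (h2 : D₂ ∈ Icc a b) (h3 : D₃ ∈ Icc a b)
    (hz1 : 0 < r1f s N D₁ + r2f s N D₂) (hz2 : 0 < r1f s N D₁ + Pf s N D₃)
    (hz3 : 0 < r2f s N D₂ - Pf s N D₃)
    (heq : U D₁ + (ch s N D₂ - U D₂ - (ub s N D₂ - c)) + (ub s N D₃ - c) =
      (r1f s N D₁ + r2f s N D₂) ^ (-s) + (r1f s N D₁ + Pf s N D₃) ^ (-s)
        + (r2f s N D₂ - Pf s N D₃) ^ (-s)) : D₁ = D₂ ∧ D₂ = D₃ := by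
  have hs := (hG D₂ h2).hs
  have l1 := line_U hG hU h2 h1
  have l2 := line_ub hG h2 h3
  have t0 := tangents hG (D₁ := D₁) (D₃ := D₃) h2
  have t1 := tangent_rpow hs hz1 (hG D₂ h2).e_pos
  have t2 := tangent_rpow hs hz2 A_pos
  have t3 := tangent_rpow hs hz3 (hG D₂ h2).b_pos
  have e : -ff s N D₂ * (Pf s N D₃ - Pf s N D₂) = -(ff s N D₂ * (Pf s N D₃ - Pf s N D₂)) := by ring
  rw [e] at l2
  constructor
  · by_contra hne
    have hP : Pf s N D₁ ≠ Pf s N D₂ := fun h => hne (P_inj_Icc hG h1 h2 h)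
    have hne' : r1f s N D₁ + r2f s N D₂ ≠ ef s N D₂ := by
      intro h
      apply hP
      unfold r1f r2f ef at h
      linarith
    have t1' := tangent_rpow_strict hs hz1 (hG D₂ h2).e_pos hne'
    linarith
  · by_contra hne
    have hP : Pf s N D₂ ≠ Pf s N D₃ := fun h => hne (P_inj_Icc hG h2 h3 h)
    have hne' : r2f s N D₂ - Pf s N D₃ ≠ bf s N D₂ := by
      intro h
      apply hP
      unfold r2f at h
      linarith
    have t3' := tangent_rpow_strict hs hz3 (hG D₂ h2).b_pos hne'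
    linarith

end Interval

end

end Crest.Agent.Lib.MMOT.Fam
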