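import Mathlib
import Crest.Agent.Lib.MMOT.Fam2

/-!
# The base point of the family
-/

set_option linter.style.haveILetI false
set_option linter.unusedSectionVars false

namespace Crest.Agent.Lib.MMOT.Fam

open Real Set Filter Topology
open scoped ContDiff

noncomputable section

variable (s : ℝ)

/-- Base point. -/
def Dz (t : ℝ) : ℝ := √(1 + t ^ 2)
/-- Multiplier at the base point. -/
def Lz (t : ℝ) : ℝ := Lam s (Dz t)
/-- The constant `N`. -/
def Nz (t : ℝ) : ℝ := Lz s t + s * (2:ℝ) ^ (-(s + 2))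
/-- Ratio at the base point. -/
def lz (t : ℝ) : ℝ := Lz s t / Nz s t
/-- Central radius at the base point. -/
def Pz (t : ℝ) : ℝ := (1 - lz s t) * t
/-- Axial offset at the base point. -/
def mz (t : ℝ) : ℝ := lz s t * t
/-- Outer radius at the base point. -/
def Rz (t : ℝ) : ℝ := √(1 ^ 2 + mz s t ^ 2)
/-- Force at the base point. -/
def fz (t : ℝ) : ℝ := 4 * Lz s t * t
/-- Auxiliary at the base point. -/
def Wz (t : ℝ) : ℝ := A ^ (-(s + 1)) - fz s t / s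
/-- Inner gap at the base point. -/
def bz (t : ℝ) : ℝ := Wz s t ^ (-1 / (s + 1))
/-- Long gap at the base point. -/
def ez (t : ℝ) : ℝ := A + bz s t
/-- Triangle cost at the base point. -/
def cTz (t : ℝ) : ℝ := 2 * Dz t ^ (-s) + (2:ℝ) ^ (-s)
/-- Line cost at the base point. -/
def chz (t : ℝ) : ℝ := ez s t ^ (-s) + A ^ (-s) + bz s t ^ (-s)

/-- All that is needed at the base point. -/
structure BaseOK (ℓ M t : ℝ) : Prop where
  ht : 0 < t
  c1 : (s + 2) * t ^ 2 < Dz t ^ 2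
  c2 : t ^ 2 < (1 - lz s t) * Dz t ^ 2
  c3 : 0 < Wz s t
  c4 : (1 - lz s t) * (ez s t ^ (s + 2) + A ^ (s + 2) + bz s t ^ (s + 2))
    < 2 * (A * bz s t) ^ (s + 2) * Dz t ^ (-(s + 2))
  c5 : chz s t < cTz s t
  c6 : (cTz s t + chz s t) / 2 < (Pz s t + (A - Pz s t)) ^ (-s) + (Pz s t + Rz s t) ^ (-s)
    + ((A - Pz s t) ^ 2 + Rz s t ^ 2 + 2 * (A - Pz s t) * Rz s t * (1 / 10)) ^ (-s / 2)
  c7 : (cTz s t + chz s t) / 2 < (Pz s t + (bz s t + Pz s t)) ^ (-s) + (Pz s t + Rz s t) ^ (-s)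
    + ((bz s t + Pz s t) ^ 2 + Rz s t ^ 2 + 2 * (bz s t + Pz s t) * Rz s t * (1 / 10)) ^ (-s / 2)
  c8 : Pz s t < 1 / 6
  c9 : 4 / 3 < bz s t + Pz s t
  c9' : bz s t + Pz s t < 5 / 3
  c10 : 3 / 4 < Rz s t
  c10' : Rz s t < 5 / 4
  c11 : mz s t < 1
  c12 : mz s t / Rz s t < 1 / 20
  c13 : 2 * Pz s t < ℓ
  c14 : cTz s t < M

variable {s}

lemma cDz : Continuous Dz := by
  unfold Dz
  fun_prop

lemma vDz : Dz 0 = 1 := by simp [Dz]

lemma cLz : ContinuousAt (Lz s) 0 := by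
  unfold Lz Lam
  exact continuousAt_const.mul ((cDz.continuousAt).rpow_const (Or.inl (by rw [vDz]; norm_num)))

lemma vLz : Lz s 0 = s / 2 := by
  unfold Lz Lam
  rw [vDz]
  simp

lemma cNz : ContinuousAt (Nz s) 0 := cLz.add continuousAt_const

lemma vNz : Nz s 0 = s / 2 + s * (2:ℝ) ^ (-(s + 2)) := by
  unfold Nz
  rw [vLz]

section

variable (hs : 0 < s)
include hs

lemma Nz0_pos : 0 < Nz s 0 := by
  rw [vNz]
  positivity

lemma clz : ContinuousAt (lz s) 0 := cLz.div cNz (Nz0_pos hs).ne'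

lemma vlz_lt : lz s 0 < 1 := by
  unfold lz
  rw [div_lt_one (Nz0_pos hs), vLz, vNz]
  have : 0 < s * (2:ℝ) ^ (-(s + 2)) := by positivity
  linarith

lemma one_sub_lz0 : 1 - lz s 0 = 2 / ((2:ℝ) ^ (s + 2) + 2) := by
  unfold lz
  rw [vLz, vNz, rpow_neg (by norm_num)]
  have h : 0 < (2:ℝ) ^ (s + 2) := by positivity
  field_simp
  ring

lemma cPz : ContinuousAt (Pz s) 0 := (continuousAt_const.sub (clz hs)).mul continuousAt_id

lemma cmz : ContinuousAt (mz s) 0 := (clz hs).mul continuousAt_id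

lemma cRz : ContinuousAt (Rz s) 0 := (continuousAt_const.add ((cmz hs).pow 2)).sqrt

lemma cfz : ContinuousAt (fz s) 0 := (continuousAt_const.mul cLz).mul continuousAt_id

lemma cWz : ContinuousAt (Wz s) 0 := continuousAt_const.sub ((cfz hs).div_const s)

omit hs in
lemma vPz : Pz s 0 = 0 := by simp [Pz]
omit hs in
lemma vmz : mz s 0 = 0 := by simp [mz]
omit hs in
lemma vRz : Rz s 0 = 1 := by simp [Rz, vmz]
omit hs in
lemma vfz : fz s 0 = 0 := by simp [fz]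
omit hs in
lemma vWz : Wz s 0 = A ^ (-(s + 1)) := by simp [Wz, vfz]

lemma Wz0_pos : 0 < Wz s 0 := by
  rw [vWz]
  exact rpow_pos_of_pos A_pos _

lemma cbz : ContinuousAt (bz s) 0 := (cWz hs).rpow_const (Or.inl (Wz0_pos hs).ne')

lemma vbz : bz s 0 = A := by
  unfold bz
  rw [vWz, ← rpow_mul A_pos.le]
  have h : -(s + 1) * (-1 / (s + 1)) = 1 := by
    have : 0 < s + 1 := by linarith
    field_simp
  rw [h, rpow_one]

lemma cez : ContinuousAt (ez s) 0 := continuousAt_const.add (cbz hs)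

lemma vez : ez s 0 = 3 := by
  unfold ez
  rw [vbz hs]
  norm_num [A]

omit hs in
lemma ccTz : ContinuousAt (cTz s) 0 :=
  (continuousAt_const.mul ((cDz.continuousAt).rpow_const (Or.inl (by rw [vDz]; norm_num)))).add
    continuousAt_const

omit hs in
lemma vcTz : cTz s 0 = 2 + (2:ℝ) ^ (-s) := by
  unfold cTz
  rw [vDz]
  simp

lemma cchz : ContinuousAt (chz s) 0 := by
  refine (((cez hs).rpow_const (Or.inl ?_)).add continuousAt_const).add
    ((cbz hs).rpow_const (Or.inl ?_))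
  · rw [vez hs]
    norm_num
  · rw [vbz hs]
    exact A_pos.ne'

lemma vchz : chz s 0 = (3:ℝ) ^ (-s) + A ^ (-s) + A ^ (-s) := by
  unfold chz
  rw [vez hs, vbz hs]

lemma A_rpow_lt : A ^ (-s) < 1 := rpow_lt_one_of_one_lt_of_neg A_gt_one (by linarith)

lemma three_lt_two : (3:ℝ) ^ (-s) < (2:ℝ) ^ (-s) :=
  rpow_lt_rpow_of_neg (by norm_num) (by norm_num) (by linarith)

lemma v5 : chz s 0 < cTz s 0 := by
  rw [vchz hs, vcTz]
  have := A_rpow_lt hs
  have := three_lt_two hs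
  linarith

/-- The margin for the cross terms. -/
lemma cross_base : (2 + (2:ℝ) ^ (-s) + ((3:ℝ) ^ (-s) + A ^ (-s) + A ^ (-s))) / 2
    < A ^ (-s) + 1 + (A ^ 2 + 1 + 2 * A * 1 * (1 / 10)) ^ (-s / 2) := by
  have h1 := three_lt_two hs
  have h2 : (4:ℝ) ^ (-s / 2) = (2:ℝ) ^ (-s) := by
    have : (4:ℝ) = 2 ^ (2:ℝ) := by norm_num
    rw [this, ← rpow_mul (by norm_num)]
    congr 1
    ring
  have h3 : (4:ℝ) ^ (-s / 2) < (A ^ 2 + 1 + 2 * A * 1 * (1 / 10)) ^ (-s / 2) := by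
    apply rpow_lt_rpow_of_neg
    · norm_num [A]
    · norm_num [A]
    · linarith
  linarith

lemma v6 : (cTz s 0 + chz s 0) / 2 < (Pz s 0 + (A - Pz s 0)) ^ (-s) + (Pz s 0 + Rz s 0) ^ (-s)
    + ((A - Pz s 0) ^ 2 + Rz s 0 ^ 2 + 2 * (A - Pz s 0) * Rz s 0 * (1 / 10)) ^ (-s / 2) := by
  rw [vcTz, vchz hs, vPz, vRz]
  have := cross_base hs
  simp only [zero_add, sub_zero, one_rpow, one_pow]
  exact this

lemma v7 : (cTz s 0 + chz s 0) / 2 < (Pz s 0 + (bz s 0 + Pz s 0)) ^ (-s) + (Pz s 0 + Rz s 0) ^ (-s)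
    + ((bz s 0 + Pz s 0) ^ 2 + Rz s 0 ^ 2 + 2 * (bz s 0 + Pz s 0) * Rz s 0 * (1 / 10)) ^ (-s / 2) := by
  rw [vcTz, vchz hs, vPz, vRz, vbz hs]
  have := cross_base hs
  simp only [zero_add, add_zero, one_rpow, one_pow]
  exact this

lemma v4 : (1 - lz s 0) * (ez s 0 ^ (s + 2) + A ^ (s + 2) + bz s 0 ^ (s + 2))
    < 2 * (A * bz s 0) ^ (s + 2) * Dz 0 ^ (-(s + 2)) := by
  rw [one_sub_lz0 hs, vez hs, vbz hs, vDz, one_rpow, mul_one]
  have h3 : (3:ℝ) ^ (s + 2) = (2:ℝ) ^ (s + 2) * A ^ (s + 2) := by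
    rw [← mul_rpow (by norm_num) A_pos.le]
    norm_num [A]
  have hAA : (A * A) ^ (s + 2) = A ^ (s + 2) * A ^ (s + 2) := mul_rpow A_pos.le A_pos.le
  rw [h3, hAA]
  have hx : 0 < (2:ℝ) ^ (s + 2) := by positivity
  have hy : 1 < A ^ (s + 2) := one_lt_rpow A_gt_one (by linarith)
  have e : 2 / ((2:ℝ) ^ (s + 2) + 2) * ((2:ℝ) ^ (s + 2) * A ^ (s + 2) + A ^ (s + 2) + A ^ (s + 2))
      = 2 * A ^ (s + 2) := by
    field_simp
    ring
  rw [e]
  nlinarith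

/-- The choice of the base point. -/
theorem exists_base {ℓ M : ℝ} (hℓ : 0 < ℓ) (hM : 2 + (2:ℝ) ^ (-s) < M) : ∃ t, BaseOK s ℓ M t := by
  have cP := cPz hs
  have cm := cmz hs
  have cR := cRz hs
  have cb := cbz hs
  have ce := cez hs
  have cl := clz hs
  have cW := cWz hs
  have cD : ContinuousAt Dz 0 := cDz.continuousAt
  have ct : ContinuousAt (fun t : ℝ => t) 0 := continuousAt_id
  have hlt := vlz_lt hs
  have hb := vbz hs
  have e1 : ∀ᶠ t in 𝓝 (0:ℝ), (s + 2) * t ^ 2 < Dz t ^ 2 :=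
    ContinuousAt.eventually_lt (continuousAt_const.mul (ct.pow 2)) (cD.pow 2) (by rw [vDz]; norm_num)
  have e2 : ∀ᶠ t in 𝓝 (0:ℝ), t ^ 2 < (1 - lz s t) * Dz t ^ 2 :=
    ContinuousAt.eventually_lt (ct.pow 2) ((continuousAt_const.sub cl).mul (cD.pow 2)) (by
      rw [vDz]
      norm_num
      linarith)
  have e3 : ∀ᶠ t in 𝓝 (0:ℝ), 0 < Wz s t := cW.eventually (lt_mem_nhds (Wz0_pos hs))
  have e4 : ∀ᶠ t in 𝓝 (0:ℝ), (1 - lz s t) * (ez s t ^ (s + 2) + A ^ (s + 2) + bz s t ^ (s + 2))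
      < 2 * (A * bz s t) ^ (s + 2) * Dz t ^ (-(s + 2)) := by
    refine ContinuousAt.eventually_lt ?_ ?_ (v4 hs)
    · refine (continuousAt_const.sub cl).mul (((ce.rpow_const (Or.inr ?_)).add continuousAt_const).add
        (cb.rpow_const (Or.inr ?_))) <;> linarith
    · refine (continuousAt_const.mul ((continuousAt_const.mul cb).rpow_const (Or.inr ?_))).mul
        (cD.rpow_const (Or.inl ?_))
      · linarith
      · rw [vDz]
        norm_num
  have e5 : ∀ᶠ t in 𝓝 (0:ℝ), chz s t < cTz s t :=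
    ContinuousAt.eventually_lt (cchz hs) ccTz (v5 hs)
  have e6 : ∀ᶠ t in 𝓝 (0:ℝ), (cTz s t + chz s t) / 2 < (Pz s t + (A - Pz s t)) ^ (-s)
      + (Pz s t + Rz s t) ^ (-s)
      + ((A - Pz s t) ^ 2 + Rz s t ^ 2 + 2 * (A - Pz s t) * Rz s t * (1 / 10)) ^ (-s / 2) := by
    refine ContinuousAt.eventually_lt ((ccTz.add (cchz hs)).div_const 2) ?_ (v6 hs)
    refine (((cP.add (continuousAt_const.sub cP)).rpow_const (Or.inl ?_)).add
      ((cP.add cR).rpow_const (Or.inl ?_))).add (ContinuousAt.rpow_const ?_ (Or.inl ?_))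
    · show Pz s 0 + (A - Pz s 0) ≠ 0
      rw [vPz]
      norm_num [A]
    · show Pz s 0 + Rz s 0 ≠ 0
      rw [vPz, vRz]
      norm_num
    · exact (((continuousAt_const.sub cP).pow 2).add (cR.pow 2)).add
        (((continuousAt_const.mul (continuousAt_const.sub cP)).mul cR).mul continuousAt_const)
    · show (A - Pz s 0) ^ 2 + Rz s 0 ^ 2 + 2 * (A - Pz s 0) * Rz s 0 * (1 / 10) ≠ 0
      rw [vPz, vRz]
      norm_num [A]
  have e7 : ∀ᶠ t in 𝓝 (0:ℝ), (cTz s t + chz s t) / 2 < (Pz s t + (bz s t + Pz s t)) ^ (-s)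
      + (Pz s t + Rz s t) ^ (-s)
      + ((bz s t + Pz s t) ^ 2 + Rz s t ^ 2 + 2 * (bz s t + Pz s t) * Rz s t * (1 / 10)) ^ (-s / 2) := by
    refine ContinuousAt.eventually_lt ((ccTz.add (cchz hs)).div_const 2) ?_ (v7 hs)
    refine (((cP.add (cb.add cP)).rpow_const (Or.inl ?_)).add
      ((cP.add cR).rpow_const (Or.inl ?_))).add (ContinuousAt.rpow_const ?_ (Or.inl ?_))
    · show Pz s 0 + (bz s 0 + Pz s 0) ≠ 0
      rw [vPz, hb]
      norm_num [A]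
    · show Pz s 0 + Rz s 0 ≠ 0
      rw [vPz, vRz]
      norm_num
    · exact (((cb.add cP).pow 2).add (cR.pow 2)).add
        (((continuousAt_const.mul (cb.add cP)).mul cR).mul continuousAt_const)
    · show (bz s 0 + Pz s 0) ^ 2 + Rz s 0 ^ 2 + 2 * (bz s 0 + Pz s 0) * Rz s 0 * (1 / 10) ≠ 0
      rw [vPz, vRz, hb]
      norm_num [A]
  have e8 : ∀ᶠ t in 𝓝 (0:ℝ), Pz s t < 1 / 6 := cP.eventually (gt_mem_nhds (by rw [vPz]; norm_num))
  have e9 : ∀ᶠ t in 𝓝 (0:ℝ), 4 / 3 < bz s t + Pz s t :=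
    (cb.add cP).eventually (lt_mem_nhds (by
      show 4 / 3 < bz s 0 + Pz s 0
      rw [vPz, hb]
      norm_num [A]))
  have e9' : ∀ᶠ t in 𝓝 (0:ℝ), bz s t + Pz s t < 5 / 3 :=
    (cb.add cP).eventually (gt_mem_nhds (by
      show bz s 0 + Pz s 0 < 5 / 3
      rw [vPz, hb]
      norm_num [A]))
  have e10 : ∀ᶠ t in 𝓝 (0:ℝ), 3 / 4 < Rz s t := cR.eventually (lt_mem_nhds (by rw [vRz]; norm_num))
  have e10' : ∀ᶠ t in 𝓝 (0:ℝ), Rz s t < 5 / 4 := cR.eventually (gt_mem_nhds (by rw [vRz]; norm_num))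
  have e11 : ∀ᶠ t in 𝓝 (0:ℝ), mz s t < 1 := cm.eventually (gt_mem_nhds (by rw [vmz]; norm_num))
  have e12 : ∀ᶠ t in 𝓝 (0:ℝ), mz s t / Rz s t < 1 / 20 :=
    (cm.div cR (by rw [vRz]; norm_num)).eventually (gt_mem_nhds (by
      show mz s 0 / Rz s 0 < 1 / 20
      rw [vmz]
      norm_num))
  have e13 : ∀ᶠ t in 𝓝 (0:ℝ), 2 * Pz s t < ℓ := (continuousAt_const.mul cP).eventually (gt_mem_nhds (by
      show 2 * Pz s 0 < ℓ
      rw [vPz]
      linarith))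
  have e14 : ∀ᶠ t in 𝓝 (0:ℝ), cTz s t < M := ccTz.eventually (gt_mem_nhds (by rw [vcTz]; exact hM))
  have all := e1.and (e2.and (e3.and (e4.and (e5.and (e6.and (e7.and (e8.and (e9.and (e9'.and
    (e10.and (e10'.and (e11.and (e12.and (e13.and e14))))))))))))))
  have h' : ∀ᶠ t in 𝓝[>] (0:ℝ), 0 < t := self_mem_nhdsWithin
  obtain ⟨t, ht, h1, h2, h3, h4, h5, h6, h7, h8, h9, h9', h10, h10', h11, h12, h13, h14⟩ :=
    (h'.and (all.filter_mono nhdsWithin_le_nhds)).exists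
  exact ⟨t, ⟨ht, h1, h2, h3, h4, h5, h6, h7, h8, h9, h9', h10, h10', h11, h12, h13, h14⟩⟩

end

end

end Crest.Agent.Lib.MMOT.Fam
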