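import Mathlib
import Crest.Agent.Lib.MMOT.Fam3

/-!
# The family at the base point; trigonometric and algebraic identities
-/

set_option linter.style.haveILetI false
set_option linter.unusedSectionVars false

namespace Crest.Agent.Lib.MMOT.Fam

open Real Set Filter Topology
open scoped ContDiff

noncomputable section

variable {s N D : ℝ}

namespace Good
variable (G : Good s N D)
include G

lemma R_cos : Rf s N D * cos (θf s N D) = mf s N D := by
  have hq := G.q_pos
  have hR := G.R_pos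
  have hm := G.m_pos
  have e : √(1 + (mf s N D / qf s N D) ^ 2) = Rf s N D / qf s N D := by
    have h1 : 1 + (mf s N D / qf s N D) ^ 2 = (Rf s N D / qf s N D) ^ 2 := by
      rw [div_pow, div_pow, G.R_sq]
      field_simp
    rw [h1, sqrt_sq (by positivity)]
  unfold θf
  rw [cos_pi_div_two_sub, sin_arctan, e]
  field_simp

lemma R_sin : Rf s N D * sin (θf s N D) = qf s N D := by
  have hq := G.q_pos
  have hR := G.R_pos
  have hm := G.m_pos
  have e : √(1 + (mf s N D / qf s N D) ^ 2) = Rf s N D / qf s N D := by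
    have h1 : 1 + (mf s N D / qf s N D) ^ 2 = (Rf s N D / qf s N D) ^ 2 := by
      rw [div_pow, div_pow, G.R_sq]
      field_simp
    rw [h1, sqrt_sq (by positivity)]
  unfold θf
  rw [sin_pi_div_two_sub, cos_arctan, e]
  field_simp

lemma two_R_sin : 2 * (Rf s N D * sin (θf s N D)) = Bf s N D := by
  rw [G.R_sin, G.B_eq]

lemma cos_eq : cos (θf s N D) = mf s N D / Rf s N D := by
  have hR := G.R_pos
  rw [eq_div_iff hR.ne', mul_comm]
  exact G.R_cos

lemma θ_lt : θf s N D < π / 2 := by
  unfold θf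
  have : 0 < arctan (mf s N D / qf s N D) := arctan_pos.2 (div_pos G.m_pos G.q_pos)
  linarith

lemma θ_gt (h : mf s N D < qf s N D) : π / 4 < θf s N D := by
  unfold θf
  have h1 : mf s N D / qf s N D < 1 := (div_lt_one G.q_pos).2 h
  have h2 : arctan (mf s N D / qf s N D) < arctan 1 := arctan_strictMono h1
  rw [arctan_one] at h2
  linarith

/-- The geometric relation. -/
lemma geom : Pf s N D ^ 2 + Rf s N D ^ 2 + 2 * Pf s N D * Rf s N D * cos (θf s N D) = D ^ 2 := by
  have e1 : 2 * Pf s N D * Rf s N D * cos (θf s N D) = 2 * Pf s N D * (Rf s N D * cos (θf s N D)) := by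
    ring
  rw [e1, G.R_cos, G.R_sq]
  have h1 := G.P_add_m
  have h2 := G.h_sq
  rw [← h1] at h2
  nlinarith

/-- The multiplier identity. -/
lemma hN : N = (s / 2) * D ^ (-(s + 2)) + 2 * ((s / 2) * (2 * (Rf s N D * sin (θf s N D))) ^ (-(s + 2))) := by
  rw [G.two_R_sin, ← G.Gam_eq]
  exact G.N_eq

/-- The formula of the central potential. -/
lemma ub_eq : (1 + s / 2) * (2 * D ^ (-s) + (2 * (Rf s N D * sin (θf s N D))) ^ (-s))
      - (2 * ((s / 2) * D ^ (-(s + 2))) +
          ((s / 2) * D ^ (-(s + 2))) ^ 2 / ((s / 2) * (2 * (Rf s N D * sin (θf s N D))) ^ (-(s + 2))))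
        * Pf s N D ^ 2 = ub s N D := by
  rw [G.two_R_sin, ← G.Gam_eq]
  have hL : (s / 2) * D ^ (-(s + 2)) = Lam s D := rfl
  rw [hL]
  unfold ub cT
  rw [G.R_sq]
  have e1 : (s / 2) * (2 * D ^ (-s) + Bf s N D ^ (-s))
      = 2 * Lam s D * D ^ 2 + Gam s N D * Bf s N D ^ 2 := by
    have a1 : D ^ (-s) = D ^ (-(s + 2)) * D ^ 2 := by
      rw [← rpow_natCast D 2, ← rpow_add G.hD]
      congr 1
      push_cast
      ring
    have a2 : Bf s N D ^ (-s) = Bf s N D ^ (-(s + 2)) * Bf s N D ^ 2 := by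
      rw [← rpow_natCast (Bf s N D) 2, ← rpow_add G.B_pos]
      congr 1
      push_cast
      ring
    rw [a1, a2, G.Gam_eq]
    unfold Lam
    ring
  have e2 : (1 + s / 2) * (2 * D ^ (-s) + Bf s N D ^ (-s))
      = (2 * D ^ (-s) + Bf s N D ^ (-s)) + (s / 2) * (2 * D ^ (-s) + Bf s N D ^ (-s)) := by ring
  rw [e2, e1, G.B_eq]
  have hD := G.h_sq
  have hD2 : D ^ 2 = hf s N D ^ 2 + qf s N D ^ 2 := by linarith
  rw [hD2]
  have hN := G.N_eq
  have hNp := G.N_pos
  have hΓ := G.hΓ
  have hP : Pf s N D = 2 * Gam s N D * hf s N D / N := by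
    unfold Pf
    rw [G.one_sub_l]
    ring
  have hm : mf s N D = Lam s D * hf s N D / N := by
    unfold mf lf
    ring
  rw [hP, hm]
  set L := Lam s D
  set Γ := Gam s N D
  set q := qf s N D
  set h := hf s N D
  have hN' : N = L + 2 * Γ := hN
  have e3 : 2 * N * (q ^ 2 + (L * h / N) ^ 2) = 2 * N * q ^ 2 + 2 * L ^ 2 * h ^ 2 / N := by
    field_simp
  have e4 : (2 * L + L ^ 2 / Γ) * (2 * Γ * h / N) ^ 2 = 4 * L * Γ * h ^ 2 / N := by
    have : 2 * L + L ^ 2 / Γ = L * N / Γ := by
      rw [hN']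
      field_simp
      ring
    rw [this]
    field_simp
    ring
  have e5 : 4 * L * Γ * h ^ 2 / N + 2 * L ^ 2 * h ^ 2 / N = 2 * L * h ^ 2 := by
    have : 4 * L * Γ * h ^ 2 / N + 2 * L ^ 2 * h ^ 2 / N = 2 * L * h ^ 2 * ((2 * Γ + L) / N) := by
      field_simp
      ring
    rw [this]
    have : (2 * Γ + L) / N = 1 := by
      rw [hN']
      have : L + 2 * Γ ≠ 0 := by
        rw [← hN']
        exact hNp.ne'
      field_simp
      ring
    rw [this, mul_one]
  rw [e3, e4]
  have e6 : 2 * N * q ^ 2 = 2 * L * q ^ 2 + 4 * Γ * q ^ 2 := by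
    rw [hN']
    ring
  rw [e6]
  linear_combination -e5

end Good

/-! ### Measurability -/

section Meas

variable (s N)

lemma meas_Lam : Measurable (Lam s) := by
  unfold Lam
  fun_prop

lemma meas_Gam : Measurable (Gam s N) := (measurable_const.sub (meas_Lam s)).div_const 2

lemma meas_B : Measurable (Bf s N) := ((measurable_const.mul (meas_Gam s N)).div_const s).pow_const _

lemma meas_q : Measurable (qf s N) := (meas_B s N).div_const 2

lemma meas_h : Measurable (hf s N) := ((measurable_id.pow_const 2).sub ((meas_q s N).pow_const 2)).sqrt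

lemma meas_l : Measurable (lf s N) := (meas_Lam s).div_const N

lemma meas_P : Measurable (Pf s N) := (measurable_const.sub (meas_l s N)).mul (meas_h s N)

lemma meas_m : Measurable (mf s N) := (meas_l s N).mul (meas_h s N)

lemma meas_R : Measurable (Rf s N) :=
  (((meas_q s N).pow_const 2).add ((meas_m s N).pow_const 2)).sqrt

lemma meas_θ : Measurable (θf s N) :=
  measurable_const.sub (measurable_arctan.comp ((meas_m s N).div (meas_q s N)))

lemma meas_f : Measurable (ff s N) := (measurable_const.mul (meas_Lam s)).mul (meas_h s N)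

lemma meas_W : Measurable (Wf s N) := measurable_const.sub ((meas_f s N).div_const s)

lemma meas_b : Measurable (bf s N) := (meas_W s N).pow_const _

lemma meas_r1 : Measurable (r1f s N) := measurable_const.sub (meas_P s N)

lemma meas_r2 : Measurable (r2f s N) := (meas_b s N).add (meas_P s N)

end Meas

/-! ### The family at the base point -/

section BaseLink

variable {ℓ M t : ℝ} (hs : 0 < s) (hB : BaseOK s ℓ M t)
include hs hB

lemma Dz_pos : 0 < Dz t := sqrt_pos.2 (by positivity)

lemma Dz_sq : Dz t ^ 2 = 1 + t ^ 2 := sq_sqrt (by positivity)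

lemma base_Gam : Gam s (Nz s t) (Dz t) = (s / 2) * (2:ℝ) ^ (-(s + 2)) := by
  unfold Gam Nz Lz
  ring

lemma base_B : Bf s (Nz s t) (Dz t) = 2 := by
  unfold Bf
  rw [base_Gam hs hB]
  have e : 2 * ((s / 2) * (2:ℝ) ^ (-(s + 2))) / s = (2:ℝ) ^ (-(s + 2)) := by
    field_simp
  rw [e, ← rpow_mul (by norm_num)]
  have h : -(s + 2) * (-1 / (s + 2)) = 1 := by
    have : 0 < s + 2 := by linarith
    field_simp
  rw [h, rpow_one]

lemma base_q : qf s (Nz s t) (Dz t) = 1 := by
  unfold qf
  rw [base_B hs hB]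
  norm_num

lemma base_h : hf s (Nz s t) (Dz t) = t := by
  unfold hf
  rw [base_q hs hB, Dz_sq hs hB]
  have e : 1 + t ^ 2 - 1 ^ 2 = t ^ 2 := by ring
  rw [e, sqrt_sq hB.ht.le]

lemma base_l : lf s (Nz s t) (Dz t) = lz s t := rfl

lemma base_P : Pf s (Nz s t) (Dz t) = Pz s t := by
  unfold Pf Pz
  rw [base_l hs hB, base_h hs hB]

lemma base_m : mf s (Nz s t) (Dz t) = mz s t := by
  unfold mf mz
  rw [base_l hs hB, base_h hs hB]

lemma base_R : Rf s (Nz s t) (Dz t) = Rz s t := by
  unfold Rf Rz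
  rw [base_q hs hB, base_m hs hB]

lemma base_f : ff s (Nz s t) (Dz t) = fz s t := by
  unfold ff fz
  rw [base_h hs hB]
  rfl

lemma base_W : Wf s (Nz s t) (Dz t) = Wz s t := by
  unfold Wf Wz
  rw [base_f hs hB]

lemma base_b : bf s (Nz s t) (Dz t) = bz s t := by
  unfold bf bz
  rw [base_W hs hB]

lemma base_e : ef s (Nz s t) (Dz t) = ez s t := by
  unfold ef ez
  rw [base_b hs hB]

lemma base_cT : cT s (Nz s t) (Dz t) = cTz s t := by
  unfold cT cTz
  rw [base_B hs hB]

lemma base_ch : ch s (Nz s t) (Dz t) = chz s t := by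
  unfold ch chz
  rw [base_e hs hB, base_b hs hB]

lemma base_r1 : r1f s (Nz s t) (Dz t) = A - Pz s t := by
  unfold r1f
  rw [base_P hs hB]

lemma base_r2 : r2f s (Nz s t) (Dz t) = bz s t + Pz s t := by
  unfold r2f
  rw [base_P hs hB, base_b hs hB]

/-- The base point is a good point. -/
lemma base_good : Good s (Nz s t) (Dz t) where
  hs := hs
  hD := Dz_pos hs hB
  hΓ := by
    rw [base_Gam hs hB]
    positivity
  hh := by
    rw [base_q hs hB, Dz_sq hs hB]
    have := hB.ht
    have : 0 < t ^ 2 := by positivity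
    linarith
  hW := by
    rw [base_W hs hB]
    exact hB.c3
  hp := by
    rw [base_h hs hB]
    exact hB.c1
  hl := by
    rw [base_h hs hB, base_l hs hB]
    exact hB.c2

/-- The angular inequality at the base point. -/
lemma base_star : Pz s t * (ez s t) ^ (s + 2) + (bz s t + Pz s t) * A ^ (s + 2)
    < (A - Pz s t) * bz s t ^ (s + 2) := by
  have G := base_good hs hB
  have hb : 0 < bz s t := by
    rw [← base_b hs hB]
    exact G.b_pos
  have hA := A_pos
  have ht := hB.ht
  have c4 := hB.c4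
  -- the force relation
  have h1 : A * bz s t ^ (s + 2) - bz s t * A ^ (s + 2)
      = (A * bz s t) ^ (s + 2) * (2 * t * Dz t ^ (-(s + 2))) := by
    have hW : bz s t ^ (-s - 1) = A ^ (-(s + 1)) - 2 * t * Dz t ^ (-(s + 2)) := by
      have := G.b_rpow
      rw [base_b hs hB, base_W hs hB] at this
      rw [this]
      unfold Wz fz Lz Lam
      field_simp
      ring
    have hAb : (A * bz s t) ^ (s + 2) = A ^ (s + 2) * bz s t ^ (s + 2) := mul_rpow hA.le hb.le
    have e1 : 2 * t * Dz t ^ (-(s + 2)) = A ^ (-(s + 1)) - bz s t ^ (-s - 1) := by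
      rw [hW]
      ring
    rw [e1, hAb]
    have e2 : A ^ (s + 2) * A ^ (-(s + 1)) = A := by
      rw [← rpow_add hA]
      have : s + 2 + -(s + 1) = 1 := by ring
      rw [this, rpow_one]
    have e3 : bz s t ^ (s + 2) * bz s t ^ (-s - 1) = bz s t := by
      rw [← rpow_add hb]
      have : s + 2 + (-s - 1) = 1 := by ring
      rw [this, rpow_one]
    calc A * bz s t ^ (s + 2) - bz s t * A ^ (s + 2)
        = (A ^ (s + 2) * A ^ (-(s + 1))) * bz s t ^ (s + 2)
          - (bz s t ^ (s + 2) * bz s t ^ (-s - 1)) * A ^ (s + 2) := by rw [e2, e3]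
      _ = _ := by ring
  have h2 : Pz s t = (1 - lz s t) * t := rfl
  have h3 : t * ((1 - lz s t) * (ez s t ^ (s + 2) + A ^ (s + 2) + bz s t ^ (s + 2)))
      < t * (2 * (A * bz s t) ^ (s + 2) * Dz t ^ (-(s + 2))) := mul_lt_mul_of_pos_left c4 ht
  rw [h2]
  have h4 : (A * bz s t) ^ (s + 2) * (2 * t * Dz t ^ (-(s + 2)))
      = t * (2 * (A * bz s t) ^ (s + 2) * Dz t ^ (-(s + 2))) := by ring
  rw [h4] at h1
  nlinarith

end BaseLink

end

end Crest.Agent.Lib.MMOT.Fam
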