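import Mathlib
import Crest.Agent.Lib.MMOT.Fam4
import Crest.Agent.Lib.MMOT.FamData

/-!
# Assembling the real data
-/

set_option linter.style.haveILetI false
set_option linter.unusedSectionVars false

namespace Crest.Agent.Lib.MMOT.Fam

open Real Set Filter Topology
open scoped ContDiff

noncomputable section

section Proj

variable {f : ℝ → ℝ} {a : ℝ}

lemma ca1 (h : ContinuousAt f a) : ContinuousAt (fun x : ℝ × ℝ × ℝ × ℝ => f x.1) (a, a, a, a) :=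
  ContinuousAt.comp (g := f) (f := Prod.fst) h continuousAt_fst

lemma ca2 (h : ContinuousAt f a) : ContinuousAt (fun x : ℝ × ℝ × ℝ × ℝ => f x.2.1) (a, a, a, a) :=
  ContinuousAt.comp (g := f) (f := fun x : ℝ × ℝ × ℝ × ℝ => x.2.1) h
    (continuousAt_fst.comp continuousAt_snd)

lemma ca3 (h : ContinuousAt f a) : ContinuousAt (fun x : ℝ × ℝ × ℝ × ℝ => f x.2.2.1) (a, a, a, a) :=
  ContinuousAt.comp (g := f) (f := fun x : ℝ × ℝ × ℝ × ℝ => x.2.2.1) h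
    (continuousAt_fst.comp (continuousAt_snd.comp continuousAt_snd))

lemma ca4 (h : ContinuousAt f a) : ContinuousAt (fun x : ℝ × ℝ × ℝ × ℝ => f x.2.2.2) (a, a, a, a) :=
  ContinuousAt.comp (g := f) (f := fun x : ℝ × ℝ × ℝ × ℝ => x.2.2.2) h
    (continuousAt_snd.comp (continuousAt_snd.comp continuousAt_snd))

end Proj

lemma box4 {Q : ℝ × ℝ × ℝ × ℝ → Prop} {a : ℝ} (h : ∀ᶠ x in 𝓝 (a, a, a, a), Q x) :
    ∃ δ > 0, ∀ D₁ D₂ D₃ D₄ : ℝ, |D₁ - a| < δ → |D₂ - a| < δ → |D₃ - a| < δ → |D₄ - a| < δ →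
      Q (D₁, D₂, D₃, D₄) := by
  obtain ⟨ε, hε, hb⟩ := Metric.eventually_nhds_iff.1 h
  refine ⟨ε, hε, fun D₁ D₂ D₃ D₄ h1 h2 h3 h4 => hb ?_⟩
  simp only [Prod.dist_eq, Real.dist_eq, max_lt_iff]
  exact ⟨h1, h2, h3, h4⟩

lemma box1 {Q : ℝ → Prop} {a : ℝ} (h : ∀ᶠ x in 𝓝 a, Q x) :
    ∃ δ > 0, ∀ D : ℝ, |D - a| < δ → Q D := by
  obtain ⟨ε, hε, hb⟩ := Metric.eventually_nhds_iff.1 h
  refine ⟨ε, hε, fun D h1 => hb ?_⟩
  rw [Real.dist_eq]
  exact h1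

variable {s N D₀ : ℝ}

/-- A primitive of the supergradient. -/
lemma exists_U {δ₀ : ℝ} (hδ : 0 < δ₀) (hG : ∀ D ∈ Icc (D₀ - δ₀) (D₀ + δ₀), Good s N D) (χ : ℝ) :
    ∃ U : ℝ → ℝ, Continuous U ∧ U D₀ = χ ∧
      ∀ D ∈ Icc (D₀ - δ₀) (D₀ + δ₀), HasDerivAt U (ϑf s N D * dP s N D) D := by
  have hle : D₀ - δ₀ ≤ D₀ + δ₀ := by linarith
  let cl : ℝ → ℝ := fun x => max (D₀ - δ₀) (min x (D₀ + δ₀))
  have hcl : Continuous cl := continuous_const.max (continuous_id.min continuous_const)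
  have hclm : ∀ x, cl x ∈ Icc (D₀ - δ₀) (D₀ + δ₀) := fun x =>
    ⟨le_max_left _ _, max_le hle (min_le_right _ _)⟩
  have hcle : ∀ x ∈ Icc (D₀ - δ₀) (D₀ + δ₀), cl x = x := fun x hx => by
    show max (D₀ - δ₀) (min x (D₀ + δ₀)) = x
    rw [min_eq_left hx.2, max_eq_right hx.1]
  have hg0 : ContinuousOn (fun x => ϑf s N x * dP s N x) (Icc (D₀ - δ₀) (D₀ + δ₀)) := fun x hx =>
    ((hG x hx).cd_ϑ.continuousAt.mul (hG x hx).ct_dP).continuousWithinAt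
  have hgc : Continuous fun x => ϑf s N (cl x) * dP s N (cl x) :=
    hg0.comp_continuous hcl hclm
  refine ⟨fun D => χ + ∫ x in D₀..D, ϑf s N (cl x) * dP s N (cl x), ?_, by simp, ?_⟩
  · exact continuous_const.add (intervalIntegral.continuous_primitive (fun a b => hgc.intervalIntegrable a b) _)
  · intro D hD
    have h1 : HasDerivAt (fun u => ∫ x in D₀..u, ϑf s N (cl x) * dP s N (cl x))
        (ϑf s N (cl D) * dP s N (cl D)) D :=
      intervalIntegral.integral_hasDerivAt_right (hgc.intervalIntegrable _ _)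
        (hgc.stronglyMeasurableAtFilter _ _) hgc.continuousAt
    rw [hcle D hD] at h1
    exact h1.const_add χ

/-- The real data, from the values at the base point. -/
theorem famData_of_base {ℓ M : ℝ} (G₀ : Good s N D₀) (hM0 : 0 < M) (hℓ0 : 0 < ℓ)
    (hℓ : 3 * M < ℓ ^ (-s))
    (h5 : ch s N D₀ < cT s N D₀)
    (hstar : Pf s N D₀ * (r1f s N D₀ + r2f s N D₀) ^ (s + 2)
        + r2f s N D₀ * (r1f s N D₀ + Pf s N D₀) ^ (s + 2)
      < r1f s N D₀ * (r2f s N D₀ - Pf s N D₀) ^ (s + 2))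
    (h6 : (cT s N D₀ + ch s N D₀) / 2 < (Pf s N D₀ + r1f s N D₀) ^ (-s) + (Pf s N D₀ + Rf s N D₀) ^ (-s)
      + (r1f s N D₀ ^ 2 + Rf s N D₀ ^ 2 + 2 * r1f s N D₀ * Rf s N D₀ * (1 / 10)) ^ (-s / 2))
    (h7 : (cT s N D₀ + ch s N D₀) / 2 < (Pf s N D₀ + r2f s N D₀) ^ (-s) + (Pf s N D₀ + Rf s N D₀) ^ (-s)
      + (r2f s N D₀ ^ 2 + Rf s N D₀ ^ 2 + 2 * r2f s N D₀ * Rf s N D₀ * (1 / 10)) ^ (-s / 2))
    (h8 : Pf s N D₀ < 1 / 6) (h9 : 4 / 3 < r2f s N D₀) (h9' : r2f s N D₀ < 5 / 3)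
    (h10 : 3 / 4 < Rf s N D₀) (h10' : Rf s N D₀ < 5 / 4) (h11 : mf s N D₀ < qf s N D₀)
    (h12 : mf s N D₀ / Rf s N D₀ < 1 / 20) (h13 : 2 * Pf s N D₀ < ℓ) (h14 : cT s N D₀ < M) :
    Nonempty (FamData s) := by
  have hs := G₀.hs
  -- a neighbourhood of good points
  obtain ⟨δa, hδa, hGa⟩ := box1 G₀.eventually
  have hδ₀ : 0 < δa / 2 := by linarith
  have hG₀' : ∀ D ∈ Icc (D₀ - δa / 2) (D₀ + δa / 2), Good s N D := fun D hD => hGa D (by
    rw [abs_lt]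
    constructor <;> linarith [hD.1, hD.2])
  -- the first potential
  obtain ⟨U, hUc, hU0, hUd⟩ := exists_U hδ₀ hG₀' ((ch s N D₀ - cT s N D₀) / 2)
  -- continuity at the base point
  have cP := G₀.cd_P.continuousAt
  have cr1 := G₀.cd_r1.continuousAt
  have cr2 := G₀.cd_r2.continuousAt
  have cR := G₀.cd_R.continuousAt
  have cm := G₀.cd_m.continuousAt
  have cq := G₀.cd_q.continuousAt
  have cub := G₀.cd_ub.continuousAt
  have cch := G₀.cd_ch.continuousAt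
  have cU : ContinuousAt U D₀ := hUc.continuousAt
  have hP0 := G₀.P_pos
  have hr1eq : r1f s N D₀ = A - Pf s N D₀ := rfl
  have hr1 : 4 / 3 < r1f s N D₀ := by
    rw [hr1eq]
    norm_num [A]
    linarith
  have hR0 := G₀.R_pos
  have hubeq : ub s N D₀ - 2 * N * Rf s N D₀ ^ 2 = cT s N D₀ := by
    unfold ub
    ring
  -- the one-variable conditions
  have Q1 : ∀ᶠ D in 𝓝 D₀, Good s N D ∧ Pf s N D < 1 / 6 ∧ 4 / 3 < r2f s N D ∧ r2f s N D < 5 / 3 ∧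
      3 / 4 < Rf s N D ∧ Rf s N D < 5 / 4 ∧ mf s N D < qf s N D ∧ mf s N D / Rf s N D < 1 / 20 ∧
      2 * Pf s N D < ℓ ∧ U D < 0 := by
    have a1 := G₀.eventually
    have a2 := cP.eventually (gt_mem_nhds h8)
    have a3 := cr2.eventually (lt_mem_nhds h9)
    have a4 := cr2.eventually (gt_mem_nhds h9')
    have a5 := cR.eventually (lt_mem_nhds h10)
    have a6 := cR.eventually (gt_mem_nhds h10')
    have a7 := cm.eventually_lt cq h11
    have a8 : ∀ᶠ D in 𝓝 D₀, mf s N D / Rf s N D < 1 / 20 :=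
      (cm.div cR hR0.ne').eventually (gt_mem_nhds h12)
    have a9 : ∀ᶠ D in 𝓝 D₀, 2 * Pf s N D < ℓ :=
      (continuousAt_const.mul cP).eventually (gt_mem_nhds h13)
    have a10 : ∀ᶠ D in 𝓝 D₀, U D < 0 := cU.eventually (gt_mem_nhds (by
      rw [hU0]
      linarith))
    filter_upwards [a1, a2, a3, a4, a5, a6, a7, a8, a9, a10] with D b1 b2 b3 b4 b5 b6 b7 b8 b9 b10
    exact ⟨b1, b2, b3, b4, b5, b6, b7, b8, b9, b10⟩
  obtain ⟨δb, hδb, hQ1⟩ := box1 Q1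
  -- the four-variable conditions
  have Q4 : ∀ᶠ x : ℝ × ℝ × ℝ × ℝ in 𝓝 (D₀, D₀, D₀, D₀),
      (Pf s N x.2.2.1 * (r1f s N x.1 + r2f s N x.2.1) ^ (s + 2)
        + r2f s N x.2.1 * (r1f s N x.1 + Pf s N x.2.2.1) ^ (s + 2)
        < r1f s N x.1 * (r2f s N x.2.1 - Pf s N x.2.2.1) ^ (s + 2)) ∧
      ((ub s N x.1 - 2 * N * Rf s N x.2.2.2 ^ 2) + U x.2.1 < (Pf s N x.1 + r1f s N x.2.1) ^ (-s)
        + (Pf s N x.1 + Rf s N x.2.2.1) ^ (-s)
        + (r1f s N x.2.1 ^ 2 + Rf s N x.2.2.1 ^ 2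
          + 2 * r1f s N x.2.1 * Rf s N x.2.2.1 * (1 / 10)) ^ (-s / 2)) ∧
      ((ub s N x.1 - 2 * N * Rf s N x.2.2.2 ^ 2)
          + (ch s N x.2.1 - U x.2.1 - (ub s N x.2.1 - 2 * N * Rf s N x.2.2.2 ^ 2))
        < (Pf s N x.1 + r2f s N x.2.1) ^ (-s)
        + (Pf s N x.1 + Rf s N x.2.2.1) ^ (-s)
        + (r2f s N x.2.1 ^ 2 + Rf s N x.2.2.1 ^ 2
          + 2 * r2f s N x.2.1 * Rf s N x.2.2.1 * (1 / 10)) ^ (-s / 2)) ∧
      (ch s N x.1 - U x.1 - (ub s N x.1 - 2 * N * Rf s N x.2.2.2 ^ 2) < 0) ∧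
      (ub s N x.1 - 2 * N * Rf s N x.2.2.2 ^ 2 < M) ∧
      |r1f s N x.1 - r1f s N x.2.1| < ℓ / 2 ∧ |r2f s N x.1 - r2f s N x.2.1| < ℓ / 2 := by
    have p1 := ca1 cP
    have p2 := ca2 cP
    have p3 := ca3 cP
    have r11 := ca1 cr1
    have r12 := ca2 cr1
    have r21 := ca1 cr2
    have r22 := ca2 cr2
    have R3 := ca3 cR
    have R4 := ca4 cR
    have ub1 := ca1 cub
    have ub2 := ca2 cub
    have ch1 := ca1 cch
    have ch2 := ca2 cch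
    have U1 := ca1 cU
    have U2 := ca2 cU
    have hUb : ContinuousAt (fun x : ℝ × ℝ × ℝ × ℝ => ub s N x.1 - 2 * N * Rf s N x.2.2.2 ^ 2)
        (D₀, D₀, D₀, D₀) := ub1.sub (continuousAt_const.mul (R4.pow 2))
    have hUb2 : ContinuousAt (fun x : ℝ × ℝ × ℝ × ℝ => ub s N x.2.1 - 2 * N * Rf s N x.2.2.2 ^ 2)
        (D₀, D₀, D₀, D₀) := ub2.sub (continuousAt_const.mul (R4.pow 2))
    have hp : 0 ≤ s + 2 := by linarith
    have a1 : ∀ᶠ x : ℝ × ℝ × ℝ × ℝ in 𝓝 (D₀, D₀, D₀, D₀),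
        Pf s N x.2.2.1 * (r1f s N x.1 + r2f s N x.2.1) ^ (s + 2)
        + r2f s N x.2.1 * (r1f s N x.1 + Pf s N x.2.2.1) ^ (s + 2)
        < r1f s N x.1 * (r2f s N x.2.1 - Pf s N x.2.2.1) ^ (s + 2) :=
      ContinuousAt.eventually_lt
        ((p3.mul ((r11.add r22).rpow_const (Or.inr hp))).add
          (r22.mul ((r11.add p3).rpow_const (Or.inr hp))))
        (r11.mul ((r22.sub p3).rpow_const (Or.inr hp))) hstar
    have a2 : ∀ᶠ x : ℝ × ℝ × ℝ × ℝ in 𝓝 (D₀, D₀, D₀, D₀),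
        (ub s N x.1 - 2 * N * Rf s N x.2.2.2 ^ 2) + U x.2.1 < (Pf s N x.1 + r1f s N x.2.1) ^ (-s)
        + (Pf s N x.1 + Rf s N x.2.2.1) ^ (-s)
        + (r1f s N x.2.1 ^ 2 + Rf s N x.2.2.1 ^ 2
          + 2 * r1f s N x.2.1 * Rf s N x.2.2.1 * (1 / 10)) ^ (-s / 2) := by
      refine ContinuousAt.eventually_lt (hUb.add U2) ?_ ?_
      · refine (((p1.add r12).rpow_const (Or.inl ?_)).add ((p1.add R3).rpow_const (Or.inl ?_))).add
          (ContinuousAt.rpow_const (((r12.pow 2).add (R3.pow 2)).add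
            (((continuousAt_const.mul r12).mul R3).mul continuousAt_const)) (Or.inl ?_))
        · show Pf s N D₀ + r1f s N D₀ ≠ 0
          positivity
        · show Pf s N D₀ + Rf s N D₀ ≠ 0
          positivity
        · show r1f s N D₀ ^ 2 + Rf s N D₀ ^ 2 + 2 * r1f s N D₀ * Rf s N D₀ * (1 / 10) ≠ 0
          positivity
      · show (ub s N D₀ - 2 * N * Rf s N D₀ ^ 2) + U D₀ < _
        rw [hubeq, hU0]
        refine lt_of_eq_of_lt ?_ h6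
        ring
    have a3 : ∀ᶠ x : ℝ × ℝ × ℝ × ℝ in 𝓝 (D₀, D₀, D₀, D₀),
        (ub s N x.1 - 2 * N * Rf s N x.2.2.2 ^ 2)
          + (ch s N x.2.1 - U x.2.1 - (ub s N x.2.1 - 2 * N * Rf s N x.2.2.2 ^ 2))
        < (Pf s N x.1 + r2f s N x.2.1) ^ (-s)
        + (Pf s N x.1 + Rf s N x.2.2.1) ^ (-s)
        + (r2f s N x.2.1 ^ 2 + Rf s N x.2.2.1 ^ 2
          + 2 * r2f s N x.2.1 * Rf s N x.2.2.1 * (1 / 10)) ^ (-s / 2) := by
      refine ContinuousAt.eventually_lt (hUb.add ((ch2.sub U2).sub hUb2)) ?_ ?_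
      · have hr2 : 0 < r2f s N D₀ := by linarith
        refine (((p1.add r22).rpow_const (Or.inl ?_)).add ((p1.add R3).rpow_const (Or.inl ?_))).add
          (ContinuousAt.rpow_const (((r22.pow 2).add (R3.pow 2)).add
            (((continuousAt_const.mul r22).mul R3).mul continuousAt_const)) (Or.inl ?_))
        · show Pf s N D₀ + r2f s N D₀ ≠ 0
          positivity
        · show Pf s N D₀ + Rf s N D₀ ≠ 0
          positivity
        · show r2f s N D₀ ^ 2 + Rf s N D₀ ^ 2 + 2 * r2f s N D₀ * Rf s N D₀ * (1 / 10) ≠ 0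
          positivity
      · show (ub s N D₀ - 2 * N * Rf s N D₀ ^ 2)
            + (ch s N D₀ - U D₀ - (ub s N D₀ - 2 * N * Rf s N D₀ ^ 2)) < _
        rw [hubeq, hU0]
        refine lt_of_eq_of_lt ?_ h7
        ring
    have a4 : ∀ᶠ x : ℝ × ℝ × ℝ × ℝ in 𝓝 (D₀, D₀, D₀, D₀),
        ch s N x.1 - U x.1 - (ub s N x.1 - 2 * N * Rf s N x.2.2.2 ^ 2) < 0 := by
      refine ((ch1.sub U1).sub hUb).eventually (gt_mem_nhds ?_)
      show ch s N D₀ - U D₀ - (ub s N D₀ - 2 * N * Rf s N D₀ ^ 2) < 0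
      rw [hubeq, hU0]
      linarith
    have a5 : ∀ᶠ x : ℝ × ℝ × ℝ × ℝ in 𝓝 (D₀, D₀, D₀, D₀),
        ub s N x.1 - 2 * N * Rf s N x.2.2.2 ^ 2 < M := by
      refine hUb.eventually (gt_mem_nhds ?_)
      show ub s N D₀ - 2 * N * Rf s N D₀ ^ 2 < M
      rw [hubeq]
      exact h14
    have a6 : ∀ᶠ x : ℝ × ℝ × ℝ × ℝ in 𝓝 (D₀, D₀, D₀, D₀),
        |r1f s N x.1 - r1f s N x.2.1| < ℓ / 2 := by
      refine (r11.sub r12).abs.eventually (gt_mem_nhds ?_)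
      show |r1f s N D₀ - r1f s N D₀| < ℓ / 2
      rw [sub_self, abs_zero]
      linarith
    have a7 : ∀ᶠ x : ℝ × ℝ × ℝ × ℝ in 𝓝 (D₀, D₀, D₀, D₀),
        |r2f s N x.1 - r2f s N x.2.1| < ℓ / 2 := by
      refine (r21.sub r22).abs.eventually (gt_mem_nhds ?_)
      show |r2f s N D₀ - r2f s N D₀| < ℓ / 2
      rw [sub_self, abs_zero]
      linarith
    filter_upwards [a1, a2, a3, a4, a5, a6, a7] with x b1 b2 b3 b4 b5 b6 b7
    exact ⟨b1, b2, b3, b4, b5, b6, b7⟩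
  obtain ⟨δc, hδc, hQ4⟩ := box4 Q4
  -- the final choice
  obtain ⟨η, hη, hη1, hη2, hη3⟩ : ∃ η : ℝ, 0 < η ∧ 4 * η ≤ δa ∧ 4 * η ≤ δb ∧ 4 * η ≤ δc := by
    refine ⟨min δa (min δb δc) / 4, by positivity, ?_, ?_, ?_⟩
    · have := min_le_left δa (min δb δc)
      linarith
    · have := (min_le_right δa (min δb δc)).trans (min_le_left δb δc)
      linarith
    · have := (min_le_right δa (min δb δc)).trans (min_le_right δb δc)
      linarith
  have hU_abs : ∀ D ∈ Ioo (D₀ - 2 * η) (D₀ + 2 * η), |D - D₀| < 2 * η := fun D hD => by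
    rw [abs_lt]
    constructor <;> linarith [hD.1, hD.2]
  have hT_U : Icc (D₀ - η) (D₀ + η) ⊆ Ioo (D₀ - 2 * η) (D₀ + 2 * η) := fun D hD =>
    ⟨by linarith [hD.1], by linarith [hD.2]⟩
  have hGU : ∀ D ∈ Ioo (D₀ - 2 * η) (D₀ + 2 * η), Good s N D := fun D hD =>
    hGa D (lt_of_lt_of_le (hU_abs D hD) (by linarith))
  have hQU : ∀ D ∈ Ioo (D₀ - 2 * η) (D₀ + 2 * η), _ := fun D hD =>
    hQ1 D (lt_of_lt_of_le (hU_abs D hD) (by linarith))
  have hGT : ∀ D ∈ Icc (D₀ - η) (D₀ + η), Good s N D := fun D hD => hGU D (hT_U hD)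
  have hUT : ∀ D ∈ Icc (D₀ - η) (D₀ + η), HasDerivAt U (ϑf s N D * dP s N D) D := fun D hD =>
    hUd D ⟨by linarith [hD.1], by linarith [hD.2]⟩
  have hBox : ∀ D₁ ∈ Icc (D₀ - η) (D₀ + η), ∀ D₂ ∈ Icc (D₀ - η) (D₀ + η),
      ∀ D₃ ∈ Icc (D₀ - η) (D₀ + η), ∀ D₄ ∈ Icc (D₀ - η) (D₀ + η), _ :=
    fun D₁ h₁ D₂ h₂ D₃ h₃ D₄ h₄ => hQ4 D₁ D₂ D₃ D₄
      (lt_of_lt_of_le (hU_abs D₁ (hT_U h₁)) (by linarith))
      (lt_of_lt_of_le (hU_abs D₂ (hT_U h₂)) (by linarith))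
      (lt_of_lt_of_le (hU_abs D₃ (hT_U h₃)) (by linarith))
      (lt_of_lt_of_le (hU_abs D₄ (hT_U h₄)) (by linarith))
  have hmemT0 : D₀ ∈ Icc (D₀ - η) (D₀ + η) := ⟨by linarith, by linarith⟩
  have hmemT1 : D₀ + η ∈ Icc (D₀ - η) (D₀ + η) := ⟨by linarith, le_refl _⟩
  -- monotonicity
  have hPmono : StrictMonoOn (Pf s N) (Ioo (D₀ - 2 * η) (D₀ + 2 * η)) :=
    strictMonoOn_of_hasDeriv (fun x hx => (hGU x hx).hasDeriv_P) (fun x hx => (hGU x hx).dP_pos)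
  have hr1anti : StrictAntiOn (r1f s N) (Ioo (D₀ - 2 * η) (D₀ + 2 * η)) :=
    strictAntiOn_of_hasDeriv (fun x hx => (hGU x hx).hasDeriv_r1)
      (fun x hx => by linarith [(hGU x hx).dP_pos])
  have hr2mono : StrictMonoOn (r2f s N) (Ioo (D₀ - 2 * η) (D₀ + 2 * η)) :=
    strictMonoOn_of_hasDeriv (fun x hx => (hGU x hx).hasDeriv_r2)
      (fun x hx => by linarith [(hGU x hx).dP_pos, (hGU x hx).db_pos])
  have hRanti : StrictAntiOn (Rf s N) (Ioo (D₀ - 2 * η) (D₀ + 2 * η)) :=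
    strictAntiOn_of_hasDeriv (fun x hx => (hGU x hx).hasDeriv_R) (fun x hx => (hGU x hx).dR_neg)
  -- bounds on the core interval
  have hr1U : ∀ D ∈ Ioo (D₀ - 2 * η) (D₀ + 2 * η), 4 / 3 < r1f s N D := fun D hD => by
    have h1 : r1f s N D = A - Pf s N D := rfl
    rw [h1]
    norm_num [A]
    linarith [(hQU D hD).2.1]
  -- the constants
  set Rb : ℝ := Rf s N (D₀ + η) with hRb
  set c : ℝ := 2 * N * Rb ^ 2 with hc
  have hz : ∀ D₁ ∈ Icc (D₀ - η) (D₀ + η), ∀ D₂ ∈ Icc (D₀ - η) (D₀ + η),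
      ∀ D₃ ∈ Icc (D₀ - η) (D₀ + η), 0 < r1f s N D₁ + r2f s N D₂ ∧ 0 < r1f s N D₁ + Pf s N D₃ ∧
        0 < r2f s N D₂ - Pf s N D₃ := by
    intro D₁ h₁ D₂ h₂ D₃ h₃
    have a1 := hr1U D₁ (hT_U h₁)
    have a2 := (hQU D₂ (hT_U h₂)).2.2.1
    have a3 := (hQU D₃ (hT_U h₃)).2.1
    have a4 := (hGT D₃ h₃).P_pos
    refine ⟨by linarith, by linarith, by linarith⟩
  have hD0 : 0 < D₀ - 2 * η := (hGa (D₀ - 2 * η) (by
    rw [abs_lt]
    constructor <;> linarith)).hD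
  exact ⟨{
    hs := hs
    D₀ := D₀
    η := η
    hη := hη
    hD := hD0
    P := Pf s N
    r₁ := r1f s N
    r₂ := r2f s N
    R := Rf s N
    θ := θf s N
    U₀ := U
    U₁ := fun D => ch s N D - U D - (ub s N D - c)
    U₂ := fun D => ub s N D - c
    U₃ := fun D => -N * (Rf s N D ^ 2 - Rb ^ 2)
    N := N
    Rb := Rb
    M := M
    ℓ := ℓ
    meas_P := meas_P s N
    meas_r₁ := meas_r1 s N
    meas_r₂ := meas_r2 s N
    meas_R := meas_R s N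
    meas_θ := meas_θ s N
    smooth_P := fun D hD => (hGU D hD).cd_P
    smooth_r₁ := fun D hD => (hGU D hD).cd_r1
    smooth_r₂ := fun D hD => (hGU D hD).cd_r2
    smooth_R := fun D hD => (hGU D hD).cd_R
    smooth_θ := fun D hD => (hGU D hD).cd_θ
    deriv_P := fun D hD => by
      rw [(hGU D hD).hasDeriv_P.deriv]
      exact (hGU D hD).dP_pos.ne'
    deriv_r₁ := fun D hD => by
      rw [(hGU D hD).hasDeriv_r1.deriv]
      exact neg_ne_zero.2 (hGU D hD).dP_pos.ne'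
    deriv_r₂ := fun D hD => by
      rw [(hGU D hD).hasDeriv_r2.deriv]
      exact (add_pos (hGU D hD).db_pos (hGU D hD).dP_pos).ne'
    deriv_R := fun D hD => by
      rw [(hGU D hD).hasDeriv_R.deriv]
      exact (hGU D hD).dR_neg.ne
    inj_P := hPmono.injOn
    inj_r₁ := hr1anti.injOn
    inj_r₂ := hr2mono.injOn
    inj_R := hRanti.injOn
    P_pos := fun D hD => (hGU D hD).P_pos
    P_lt := fun D hD => by linarith [(hQU D hD).2.1]
    r₁_gt := hr1U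
    r₁_lt := fun D hD => by
      have h1 : r1f s N D = A - Pf s N D := rfl
      rw [h1]
      norm_num [A]
      linarith [(hGU D hD).P_pos]
    r₂_gt := fun D hD => (hQU D hD).2.2.1
    r₂_lt := fun D hD => (hQU D hD).2.2.2.1
    R_gt := fun D hD => (hQU D hD).2.2.2.2.1
    R_lt := fun D hD => (hQU D hD).2.2.2.2.2.1
    θ_gt := fun D hD => (hGU D hD).θ_gt (hQU D hD).2.2.2.2.2.2.1
    θ_lt := fun D hD => (hGU D hD).θ_lt
    cont_U₀ := hUc.continuousOn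
    cont_U₁ := fun D hD => (((hGT D hD).cd_ch.continuousAt.sub hUc.continuousAt).sub
      ((hGT D hD).cd_ub.continuousAt.sub continuousAt_const)).continuousWithinAt
    cont_U₂ := fun D hD =>
      ((hGT D hD).cd_ub.continuousAt.sub continuousAt_const).continuousWithinAt
    cont_U₃ := fun D hD =>
      (continuousAt_const.mul (((hGT D hD).cd_R.continuousAt.pow 2).sub
        continuousAt_const)).continuousWithinAt
    e1_le := fun D₁ h₁ D₂ h₂ D₃ h₃ => by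
      obtain ⟨z1, z2, z3⟩ := hz D₁ h₁ D₂ h₂ D₃ h₃
      exact e1_le_core hGT hUT c h₁ h₂ h₃ z1 z2 z3
    e1_eq := fun D₁ h₁ D₂ h₂ D₃ h₃ he => by
      obtain ⟨z1, z2, z3⟩ := hz D₁ h₁ D₂ h₂ D₃ h₃
      exact e1_eq_core hGT hUT c h₁ h₂ h₃ z1 z2 z3 he
    star := fun D₁ h₁ D₂ h₂ D₃ h₃ => (hBox D₁ h₁ D₂ h₂ D₃ h₃ D₀ hmemT0).1
    tight1 := fun D hD => by
      have e1 : r1f s N D + r2f s N D = ef s N D := by
        unfold r1f r2f ef
        ring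
      have e2 : r1f s N D + Pf s N D = A := by
        unfold r1f
        ring
      have e3 : r2f s N D - Pf s N D = bf s N D := by
        unfold r2f
        ring
      rw [e1, e2, e3]
      show U D + (ch s N D - U D - (ub s N D - c)) + (ub s N D - c) = _
      unfold ch
      ring
    hN := fun D hD => (hGT D hD).hN
    hU₂ := fun D hD => by
      rw [(hGT D hD).ub_eq]
    hU₃ := fun D hD => rfl
    geom := fun D hD => (hGT D hD).geom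
    tight2 := fun D hD => by
      rw [(hGT D hD).two_R_sin]
      show ub s N D - c + -N * (Rf s N D ^ 2 - Rb ^ 2) + -N * (Rf s N D ^ 2 - Rb ^ 2) = _
      unfold ub cT
      rw [hc]
      ring
    U₀_neg := fun D hD => (hQU D (hT_U hD)).2.2.2.2.2.2.2.2.2
    U₁_neg := fun D hD => (hBox D hD D₀ hmemT0 D₀ hmemT0 (D₀ + η) hmemT1).2.2.2.1
    U₃_nonpos := fun D hD => by
      have hle : Rb ≤ Rf s N D :=
        hRanti.antitoneOn (hT_U hD) (hT_U hmemT1) hD.2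
      have hN := G₀.N_pos
      have hRb0 : 0 < Rb := (hGT _ hmemT1).R_pos
      have : Rb ^ 2 ≤ Rf s N D ^ 2 := by
        apply pow_le_pow_left₀ hRb0.le hle
      show -N * (Rf s N D ^ 2 - Rb ^ 2) ≤ 0
      nlinarith
    U₂_le := fun D hD => (hBox D hD D₀ hmemT0 D₀ hmemT0 (D₀ + η) hmemT1).2.2.2.2.1.le
    M_pos := hM0
    ℓ_pos := hℓ0
    hℓ := hℓ
    P_ℓ := fun D hD => (hQU D (hT_U hD)).2.2.2.2.2.2.2.2.1
    r₁_spread := fun D hD D' hD' => (hBox D hD D' hD' D₀ hmemT0 D₀ hmemT0).2.2.2.2.2.1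
    r₂_spread := fun D hD D' hD' => (hBox D hD D' hD' D₀ hmemT0 D₀ hmemT0).2.2.2.2.2.2
    cross₀ := fun D hD D' hD' D'' hD'' => (hBox D hD D' hD' D'' hD'' (D₀ + η) hmemT1).2.1
    cross₁ := fun D hD D' hD' D'' hD'' => (hBox D hD D' hD' D'' hD'' (D₀ + η) hmemT1).2.2.1
    cos_small := fun D hD => by
      rw [(hGT D hD).cos_eq]
      exact (hQU D (hT_U hD)).2.2.2.2.2.2.2.1 }⟩

end

end Crest.Agent.Lib.MMOT.Fam
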