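import Mathlib
import Crest.Agent.Lib.MMOT.Fam5

/-!
# Existence of the real data
-/

namespace Crest.Agent.Lib.MMOT.Fam

open Real Set Filter Topology

/-- The real data exist for every positive exponent. -/
theorem exists_famData (s : ℝ) (hs : 0 < s) : Nonempty (FamData s) := by
  have hM2 : 0 < (2:ℝ) ^ (-s) := by positivity
  obtain ⟨M, hMdef⟩ : ∃ M : ℝ, M = 3 + (2:ℝ) ^ (-s) := ⟨_, rfl⟩
  have hM0 : 0 < M := by
    rw [hMdef]
    positivity
  have hM : 2 + (2:ℝ) ^ (-s) < M := by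
    rw [hMdef]
    linarith
  obtain ⟨ℓ, hℓdef⟩ : ∃ ℓ : ℝ, ℓ = (3 * M + 1) ^ (-1 / s) := ⟨_, rfl⟩
  have hbase : 0 < 3 * M + 1 := by positivity
  have hℓ0 : 0 < ℓ := by
    rw [hℓdef]
    exact rpow_pos_of_pos hbase _
  have hℓ : 3 * M < ℓ ^ (-s) := by
    rw [hℓdef, ← rpow_mul hbase.le]
    have h : -1 / s * -s = 1 := by
      field_simp
    rw [h, rpow_one]
    linarith
  obtain ⟨t, hB⟩ := exists_base (ℓ := ℓ) (M := M) hs hℓ0 hM
  have G₀ := base_good hs hB
  have eP := base_P hs hB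
  have eR := base_R hs hB
  have er1 := base_r1 hs hB
  have er2 := base_r2 hs hB
  have ecT := base_cT hs hB
  have ech := base_ch hs hB
  have em := base_m hs hB
  have eq := base_q hs hB
  refine famData_of_base (N := Nz s t) (D₀ := Dz t) G₀ hM0 hℓ0 hℓ ?_ ?_ ?_ ?_ ?_ ?_ ?_ ?_ ?_ ?_ ?_ ?_ ?_
  · rw [ech, ecT]
    exact hB.c5
  · rw [eP, er1, er2]
    have e1 : A - Pz s t + (bz s t + Pz s t) = ez s t := by
      unfold ez
      ring
    have e2 : A - Pz s t + Pz s t = A := by ring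
    have e3 : bz s t + Pz s t - Pz s t = bz s t := by ring
    rw [e1, e2, e3]
    exact base_star hs hB
  · rw [ecT, ech, eP, er1, eR]
    exact hB.c6
  · rw [ecT, ech, eP, er2, eR]
    exact hB.c7
  · rw [eP]
    exact hB.c8
  · rw [er2]
    exact hB.c9
  · rw [er2]
    exact hB.c9'
  · rw [eR]
    exact hB.c10
  · rw [eR]
    exact hB.c10'
  · rw [em, eq]
    exact hB.c11
  · rw [em, eR]
    exact hB.c12
  · rw [eP]
    exact hB.c13
  · rw [ecT]
    exact hB.c14

end Crest.Agent.Lib.MMOT.Fam
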