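import Mathlib
import Crest.Prelude.Def_MultiMarginal
import Crest.Agent.Lib.MMOT.Concrete

/-!
# From the real data to the statement
-/

set_option linter.style.haveILetI false
set_option linter.unusedSectionVars false

namespace Crest.Agent.Lib.MMOT

open MeasureTheory Set Real Crest.AnalysisR.OT
open scoped ENNReal ContDiff Topology

namespace FamData

namespace Ctx

variable {s : ℝ} {F : FamData s} (C : F.Ctx) (n : ℕ)

/-- The square root of the density of a sheet. -/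
noncomputable def b (i : Fin 5) (x : EE n) : ℝ := (C.Sf i).β ((Lf n i).symm x)

lemma b_smooth (i : Fin 5) : ContDiff ℝ ∞ (C.b n i) :=
  (C.Sf i).contDiff_β.comp (Lf n i).symm.contDiff

lemma b_nonneg (i : Fin 5) (x : EE n) : 0 ≤ C.b n i x := (C.Sf i).β_nonneg _

/-- The effect of the isometries on the axial coordinate. -/
lemma inner_Lf (i : Fin 5) (y : EE n) :
    inner ℝ (e0 n) (Lf n i y) = (![-1, 1, 1, -1, -1] : Fin 5 → ℝ) i * inner ℝ (e0 n) y := by
  fin_cases i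
  · show inner ℝ (e0 n) (-y) = -1 * _
    rw [inner_neg_right]
    ring
  · show inner ℝ (e0 n) y = 1 * _
    rw [one_mul]
  · show inner ℝ (e0 n) y = 1 * _
    rw [one_mul]
  · show inner ℝ (e0 n) (-y) = -1 * _
    rw [inner_neg_right]
    ring
  · show inner ℝ (e0 n) (reE n y) = -1 * _
    rw [reE_apply, inner_sub_right, inner_smul_right, inner_e0_e0]
    ring

lemma b_support {i : Fin 5} {x : EE n} (h : C.b n i x ≠ 0) :
    ∃ τ ∈ F.TT, ∃ γ ∈ F.GG, ‖x‖ = F.nr i τ ∧ inner ℝ (e0 n) x = F.ip i τ γ := by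
  obtain ⟨τ, hτ, γ, hγ, h1, h2⟩ := (C.Sf i).β_support h
  have hT : τ ∈ F.TT := by
    rw [← C.T_eq]
    exact ⟨hτ.1.le, hτ.2.le⟩
  have hG : γ ∈ F.GG := by
    rw [← C.G_eq]
    exact hγ
  have h1' : ‖x‖ = (C.Sf i).ϱ τ := by
    rw [LinearIsometryEquiv.norm_map] at h1
    exact h1
  refine ⟨τ, hT, γ, hG, ?_, ?_⟩
  · rw [h1']
    fin_cases i <;> rfl
  · have h3 : inner ℝ (e0 n) x = (![-1, 1, 1, -1, -1] : Fin 5 → ℝ) i
        * inner ℝ (e0 n) ((Lf n i).symm x) := by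
      rw [← inner_Lf]
      simp
    rw [h3, h2, LinearIsometryEquiv.norm_map, h1']
    fin_cases i
    · show -1 * (F.r₁ τ * cos (0 + 1 * γ)) = -(F.r₁ τ * cos γ)
      rw [zero_add, one_mul]
      ring
    · show 1 * (F.r₂ τ * cos (0 + 1 * γ)) = F.r₂ τ * cos γ
      rw [zero_add, one_mul]
      ring
    · show 1 * (F.P τ * cos (0 + 1 * γ)) = F.P τ * cos γ
      rw [zero_add, one_mul]
      ring
    · show -1 * (F.R τ * cos (F.θ τ + 1 * γ)) = -(F.R τ * cos (F.θ τ + γ))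
      rw [one_mul]
      ring
    · show -1 * (F.R τ * cos (F.θ τ + -1 * γ)) = -(F.R τ * cos (γ - F.θ τ))
      rw [← cos_neg (γ - F.θ τ)]
      have : -(γ - F.θ τ) = F.θ τ + -1 * γ := by ring
      rw [this]
      ring

/-- Different sheets have disjoint supports. -/
lemma b_mul_b {i j : Fin 5} (hij : i ≠ j) (x : EE n) : C.b n i x * C.b n j x = 0 := by
  by_contra hne
  have hi : C.b n i x ≠ 0 := left_ne_zero_of_mul hne
  have hj : C.b n j x ≠ 0 := right_ne_zero_of_mul hne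
  obtain ⟨τ, hτ, γ, hγ, h1, h2⟩ := C.b_support n hi
  obtain ⟨τ', hτ', γ', hγ', h1', h2'⟩ := C.b_support n hj
  exact F.sep_ne hij hτ hτ' hγ hγ' (h1.symm.trans h1') (h2.symm.trans h2')

/-- The total density. -/
noncomputable def ρ (x : EE n) : ℝ :=
  (2 / 9) * (C.b n 0 x ^ 2 + C.b n 1 x ^ 2 + C.b n 2 x ^ 2)
    + (1 / 9) * (C.b n 2 x ^ 2 + C.b n 3 x ^ 2 + C.b n 4 x ^ 2)

lemma ρ_nonneg (x : EE n) : 0 ≤ C.ρ n x := by
  unfold ρ
  positivity

lemma ρ_smooth : ContDiff ℝ ∞ (C.ρ n) := by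
  unfold ρ
  have h0 := C.b_smooth n 0
  have h1 := C.b_smooth n 1
  have h2 := C.b_smooth n 2
  have h3 := C.b_smooth n 3
  have h4 := C.b_smooth n 4
  exact (contDiff_const.mul (((h0.pow 2).add (h1.pow 2)).add (h2.pow 2))).add
    (contDiff_const.mul (((h2.pow 2).add (h3.pow 2)).add (h4.pow 2)))

/-- The square root of the total density. -/
noncomputable def sρ (x : EE n) : ℝ :=
  √(2 / 9) * C.b n 0 x + √(2 / 9) * C.b n 1 x + √(1 / 3) * C.b n 2 x + √(1 / 9) * C.b n 3 x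
    + √(1 / 9) * C.b n 4 x

lemma sρ_eq (x : EE n) : √(C.ρ n x) = C.sρ n x := by
  have h01 := C.b_mul_b n (i := 0) (j := 1) (by decide) x
  have h02 := C.b_mul_b n (i := 0) (j := 2) (by decide) x
  have h03 := C.b_mul_b n (i := 0) (j := 3) (by decide) x
  have h04 := C.b_mul_b n (i := 0) (j := 4) (by decide) x
  have h12 := C.b_mul_b n (i := 1) (j := 2) (by decide) x
  have h13 := C.b_mul_b n (i := 1) (j := 3) (by decide) x
  have h14 := C.b_mul_b n (i := 1) (j := 4) (by decide) x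
  have h23 := C.b_mul_b n (i := 2) (j := 3) (by decide) x
  have h24 := C.b_mul_b n (i := 2) (j := 4) (by decide) x
  have h34 := C.b_mul_b n (i := 3) (j := 4) (by decide) x
  have a1 : √(2 / 9 : ℝ) ^ 2 = 2 / 9 := Real.sq_sqrt (by norm_num)
  have a2 : √(1 / 3 : ℝ) ^ 2 = 1 / 3 := Real.sq_sqrt (by norm_num)
  have a3 : √(1 / 9 : ℝ) ^ 2 = 1 / 9 := Real.sq_sqrt (by norm_num)
  have hsq : C.ρ n x = C.sρ n x ^ 2 := by
    unfold ρ sρ
    generalize C.b n 0 x = b0 at *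
    generalize C.b n 1 x = b1 at *
    generalize C.b n 2 x = b2 at *
    generalize C.b n 3 x = b3 at *
    generalize C.b n 4 x = b4 at *
    generalize √(2 / 9 : ℝ) = u at *
    generalize √(1 / 3 : ℝ) = v at *
    generalize √(1 / 9 : ℝ) = w at *
    have e : (u * b0 + u * b1 + v * b2 + w * b3 + w * b4) ^ 2
        = u ^ 2 * b0 ^ 2 + u ^ 2 * b1 ^ 2 + v ^ 2 * b2 ^ 2 + w ^ 2 * b3 ^ 2 + w ^ 2 * b4 ^ 2
          + 2 * (u * u * (b0 * b1) + u * v * (b0 * b2) + u * w * (b0 * b3) + u * w * (b0 * b4)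
            + u * v * (b1 * b2) + u * w * (b1 * b3) + u * w * (b1 * b4)
            + v * w * (b2 * b3) + v * w * (b2 * b4) + w * w * (b3 * b4)) := by ring
    rw [e, h01, h02, h03, h04, h12, h13, h14, h23, h24, h34, a1, a2, a3]
    ring
  rw [hsq, Real.sqrt_sq]
  unfold sρ
  have h0 := C.b_nonneg n 0 x
  have h1 := C.b_nonneg n 1 x
  have h2 := C.b_nonneg n 2 x
  have h3 := C.b_nonneg n 3 x
  have h4 := C.b_nonneg n 4 x
  positivity

lemma sqrt_ρ_smooth : ContDiff ℝ ∞ (fun x => √(C.ρ n x)) := by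
  have : (fun x => √(C.ρ n x)) = C.sρ n := funext (C.sρ_eq n)
  rw [this]
  unfold sρ
  have h0 := C.b_smooth n 0
  have h1 := C.b_smooth n 1
  have h2 := C.b_smooth n 2
  have h3 := C.b_smooth n 3
  have h4 := C.b_smooth n 4
  exact (((((contDiff_const.mul h0).add (contDiff_const.mul h1)).add (contDiff_const.mul h2)).add
    (contDiff_const.mul h3)).add (contDiff_const.mul h4))

lemma ρ_compact : HasCompactSupport (C.ρ n) := by
  have key : ∀ i, ∃ R : ℝ, ∀ x : EE n, C.b n i x ≠ 0 → ‖x‖ ≤ R := by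
    intro i
    obtain ⟨R, hR⟩ := (C.Sf i).exists_bound_β (n := n)
    refine ⟨R, fun x hx => ?_⟩
    have := hR _ hx
    rwa [LinearIsometryEquiv.norm_map] at this
  choose R hR using key
  refine HasCompactSupport.intro (isCompact_closedBall (0 : EE n) (∑ i, |R i|)) fun x hx => ?_
  have hb : ∀ i, C.b n i x = 0 := by
    intro i
    by_contra hne
    apply hx
    rw [mem_closedBall_zero_iff]
    have h1 : |R i| ≤ ∑ i, |R i| := Finset.single_le_sum (f := fun i => |R i|)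
      (fun _ _ => abs_nonneg _) (Finset.mem_univ i)
    exact (hR i x hne).trans ((le_abs_self _).trans h1)
  unfold ρ
  rw [hb 0, hb 1, hb 2, hb 3, hb 4]
  norm_num

variable {m : ℝ} (hm : ∀ i, ∀ D ∈ F.TT, 0 ≤ F.Uf i D + m) (hm0 : 0 ≤ m)

lemma map_aa : (unitL.prod (C.B.νZ n)).map C.aa = C.B.hμ.prod (C.B.νZ n) := by
  have h := Measure.map_prod_map unitL (C.B.νZ n) C.V_cont.measurable
    (measurable_id (α := ℝ × SS n))
  rw [C.V_map, Measure.map_id] at h
  have e : C.aa (n := n) = Prod.map C.V id := rfl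
  rw [e, ← h]

lemma m_eq (i : Fin 5) : (C.sheetData n m hm hm0).m i
    = volume.withDensity fun x => ENNReal.ofReal (C.b n i x ^ 2) := by
  have hL : Measurable fun p : ℝ × ℝ × SS n => Lf n i ((C.Sf i).Ψ p) :=
    (Lf n i).continuous.measurable.comp (C.Sf i).measurable_Ψ
  have e : (C.sheetData n m hm hm0).Ψ i = (fun p => Lf n i ((C.Sf i).Ψ p)) ∘ C.aa := by
    funext y
    exact (C.Lf_Sf i _).symm
  unfold SheetData.m SheetData.ν
  rw [e]
  show (unitL.prod (C.B.νZ n)).map ((fun p => Lf n i ((C.Sf i).Ψ p)) ∘ C.aa) = _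
  rw [← Measure.map_map hL C.measurable_aa, C.map_aa]
  exact (C.Sf i).map_L (Lf n i)

lemma μ_eq : (C.sheetData n m hm hm0).μ = measOfDensity (C.ρ n) := by
  have hf : ∀ i, Measurable fun x : EE n => ENNReal.ofReal (C.b n i x ^ 2) := fun i =>
    ENNReal.measurable_ofReal.comp ((C.b_smooth n i).continuous.measurable.pow_const 2)
  unfold SheetData.μ measOfDensity
  simp only [C.m_eq n hm hm0]
  rw [← withDensity_add_left (hf 0), ← withDensity_add_left ((hf 0).add (hf 1)),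
    ← withDensity_add_left (hf 2), ← withDensity_add_left ((hf 2).add (hf 3)),
    ← withDensity_smul _ (((hf 0).add (hf 1)).add (hf 2)),
    ← withDensity_smul _ (((hf 2).add (hf 3)).add (hf 4)),
    ← withDensity_add_left ((((hf 0).add (hf 1)).add (hf 2)).const_smul _)]
  congr 1
  funext x
  simp only [Pi.add_apply, Pi.smul_apply, smul_eq_mul, wa, wb]
  unfold ρ
  have p : ∀ i, 0 ≤ C.b n i x ^ 2 := fun i => by positivity
  rw [ENNReal.ofReal_add (by have := p 0; have := p 1; have := p 2; positivity)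
    (by have := p 2; have := p 3; have := p 4; positivity)]
  rw [ENNReal.ofReal_mul (by norm_num), ENNReal.ofReal_mul (by norm_num)]
  rw [ENNReal.ofReal_add (add_nonneg (p 0) (p 1)) (p 2), ENNReal.ofReal_add (p 0) (p 1),
    ENNReal.ofReal_add (add_nonneg (p 2) (p 3)) (p 4), ENNReal.ofReal_add (p 2) (p 3)]

include hm hm0 in
lemma ρ_integral : ∫ x, C.ρ n x = 1 := by
  have hu : measOfDensity (C.ρ n) univ = 1 := by
    rw [← C.μ_eq n hm hm0]
    exact measure_univ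
  unfold measOfDensity at hu
  rw [withDensity_apply _ MeasurableSet.univ, setLIntegral_univ] at hu
  rw [integral_eq_lintegral_of_nonneg_ae (Filter.Eventually.of_forall (C.ρ_nonneg n))
    (C.ρ_smooth n).continuous.aestronglyMeasurable, hu]
  rfl

end Ctx

/-- The whole statement, from the real data. -/
theorem main_of_famData {s : ℝ} (F : FamData s) (n : ℕ) :
    ∃ ρ : EE n → ℝ, (∀ x, 0 ≤ ρ x) ∧ ContDiff ℝ ∞ ρ ∧ HasCompactSupport ρ ∧
      ContDiff ℝ ∞ (fun x => Real.sqrt (ρ x)) ∧ ∫ x, ρ x = 1 ∧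
      ∃ π₀ : Measure (EE n × EE n × EE n),
        IsCoupling₃ (measOfDensity ρ) π₀ ∧ ∫⁻ p, tripleCost s p ∂π₀ < ⊤ ∧
        (∀ π' : Measure (EE n × EE n × EE n), IsCoupling₃ (measOfDensity ρ) π' →
          ∫⁻ p, tripleCost s p ∂π₀ ≤ ∫⁻ p, tripleCost s p ∂π') ∧
        (∀ T₂ T₃ : EE n → EE n, Measurable T₂ → Measurable T₃ →
          (measOfDensity ρ).map T₂ = measOfDensity ρ → (measOfDensity ρ).map T₃ = measOfDensity ρ →
          ∫⁻ p, tripleCost s p ∂π₀ < ∫⁻ x, tripleCost s (x, T₂ x, T₃ x) ∂(measOfDensity ρ)) ∧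
        (∀ ε : ℝ≥0∞, 0 < ε → ∃ T₂ T₃ : EE n → EE n, Measurable T₂ ∧ Measurable T₃ ∧
          (measOfDensity ρ).map T₂ = measOfDensity ρ ∧ (measOfDensity ρ).map T₃ = measOfDensity ρ ∧
          ∫⁻ x, tripleCost s (x, T₂ x, T₃ x) ∂(measOfDensity ρ)
            < ∫⁻ p, tripleCost s p ∂π₀ + ε) := by
  obtain ⟨C⟩ := F.exists_Ctx
  obtain ⟨m, hm0, hm⟩ := F.exists_lower
  set D := C.sheetData n m hm hm0 with hD
  have hμ : D.μ = measOfDensity (C.ρ n) := C.μ_eq n hm hm0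
  refine ⟨C.ρ n, C.ρ_nonneg n, C.ρ_smooth n, C.ρ_compact n, C.sqrt_ρ_smooth n,
    C.ρ_integral n hm hm0, D.π₀, ?_, ?_, ?_, ?_, ?_⟩
  · rw [← hμ]
    exact ⟨D.π₀_fst, D.π₀_snd, D.π₀_thd⟩
  · exact D.cost_π₀_lt_top
  · intro π' hπ
    rw [← hμ] at hπ
    exact D.π₀_le hπ.1 hπ.2.1 hπ.2.2
  · intro T₂ T₃ h2 h3 h4 h5
    rw [← hμ] at h4 h5 ⊢
    exact D.monge_strict h2 h3 h4 h5
  · intro ε hε
    rw [← hμ]
    exact D.exists_approx hε

end FamData

end Crest.Agent.Lib.MMOT
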